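import Crest.Agent.R251.Grp

/-!
# Row 251: matrices over `ℤ[G]` in a representation; the standard orthogonal representations of `G`
-/

set_option autoImplicit false

open Matrix

namespace Crest.Agent.R251

section
variable {Γ R n : Type} [Group Γ] [CommRing R] [Fintype n] [DecidableEq n]

/-- a matrix over the group ring, evaluated in a matrix representation -/
noncomputable def blow {m m' : Type} (θ : Γ →* Matrix n n R) (w : Matrix m m' (ZG Γ)) :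
    Matrix (m × n) (m' × n) R :=
  Matrix.of fun p q => rz θ (w p.1 q.1) p.2 q.2

theorem blow_apply {m m' : Type} (θ : Γ →* Matrix n n R) (w : Matrix m m' (ZG Γ)) (p : m × n) (q : m' × n) :
    blow θ w p q = rz θ (w p.1 q.1) p.2 q.2 := rfl

theorem blow_mul {m m' m'' : Type} [Fintype m'] (θ : Γ →* Matrix n n R) (w : Matrix m m' (ZG Γ))
    (w' : Matrix m' m'' (ZG Γ)) : blow θ (w * w') = blow θ w * blow θ w' := by
  ext p q
  simp only [blow_apply, Matrix.mul_apply, map_sum, map_mul, Matrix.sum_apply, Fintype.sum_prod_type]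

theorem blow_one {m : Type} [DecidableEq m] (θ : Γ →* Matrix n n R) :
    blow θ (1 : Matrix m m (ZG Γ)) = 1 := by
  ext ⟨a, i⟩ ⟨b, j⟩
  by_cases h : a = b
  · subst h; simp [blow_apply, Matrix.one_apply]
  · simp [blow_apply, Matrix.one_apply, h]

theorem blow_zero {m m' : Type} (θ : Γ →* Matrix n n R) : blow θ (0 : Matrix m m' (ZG Γ)) = 0 := by
  ext p q; simp [blow_apply]

/-- the determinant of a square matrix over the group ring in a representation -/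
noncomputable def DD {m : Type} [Fintype m] [DecidableEq m] (θ : Γ →* Matrix n n R)
    (w : Matrix m m (ZG Γ)) : R :=
  (blow θ w).det

theorem isUnit_DD {m : Type} [Fintype m] [DecidableEq m] (θ : Γ →* Matrix n n R)
    {w : Matrix m m (ZG Γ)} (hw : IsUnit w) : IsUnit (DD θ w) := by
  obtain ⟨⟨w, w', h, -⟩, rfl⟩ := hw
  have : DD θ w * DD θ w' = 1 := by
    rw [DD, DD, ← det_mul, ← blow_mul, h, blow_one, det_one]
  exact IsUnit.of_mul_eq_one _ this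

theorem rz_ext_k {M M' : Type} [Ring M] [Ring M'] (θ : Γ →* M) (θ' : Γ →* M') (F : M →+ M')
    (h : ∀ g, θ' g = F (θ g)) (x : ZG Γ) : rz θ' x = F (rz θ x) := by
  induction x using MonoidAlgebra.induction_on with
  | of g => rw [rz_og, rz_og, h]
  | add x y hx hy => rw [map_add, map_add, map_add, hx, hy]
  | smul r x hx => rw [map_zsmul, map_zsmul, map_zsmul, hx]

/-- conjugate representations have the same determinants -/
theorem DD_conj {m : Type} [Fintype m] [DecidableEq m] (θ θ' : Γ →* Matrix n n R) (P Q : Matrix n n R)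
    (hPQ : P * Q = 1) (h : ∀ g, θ' g = P * θ g * Q) (w : Matrix m m (ZG Γ)) : DD θ' w = DD θ w := by
  have h1 : ∀ x, rz θ' x = P * rz θ x * Q := rz_ext_k θ θ'
    ((AddMonoidHom.mulRight Q).comp (AddMonoidHom.mulLeft P)) h
  have h2 : blow θ' w = kroneckerMap (· * ·) (1 : Matrix m m R) P * blow θ w *
      kroneckerMap (· * ·) (1 : Matrix m m R) Q := by
    ext ⟨a, i⟩ ⟨b, j⟩
    simp [blow_apply, h1, Matrix.mul_apply, Fintype.sum_prod_type, Matrix.one_apply, ite_mul, mul_ite]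
  have h3 : (kroneckerMap (· * ·) (1 : Matrix m m R) P).det *
      (kroneckerMap (· * ·) (1 : Matrix m m R) Q).det = 1 := by
    rw [← det_mul, ← mul_kronecker_mul, hPQ, mul_one, one_kronecker_one, det_one]
  rw [DD, DD, h2, det_mul, det_mul, mul_right_comm, h3, one_mul]

end

/-- rotation about the third axis -/
noncomputable def rotz (x : ℝ) : Matrix (Fin 3) (Fin 3) ℝ :=
  !![Real.cos x, -Real.sin x, 0; Real.sin x, Real.cos x, 0; 0, 0, 1]

/-- half turn about the first axis -/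
def stdS : Matrix (Fin 3) (Fin 3) ℝ := !![1, 0, 0; 0, -1, 0; 0, 0, -1]

def stdT (s₁ s₂ : ℝ) : Matrix (Fin 3) (Fin 3) ℝ := !![0, 0, s₂; 0, -(s₁ * s₂), 0; s₁, 0, 0]

def stdU (s₃ s₄ : ℝ) : Matrix (Fin 3) (Fin 3) ℝ := !![0, 0, s₄; s₃ * s₄, 0, 0; 0, s₃, 0]

/-- the rigid representations of `G` in `SO(3)`, in normal form -/
structure IsStd (θ : G →* Matrix (Fin 3) (Fin 3) ℝ) (j : ℤ) (s₁ s₂ s₃ s₄ : ℝ) : Prop where
  hj : IsCoprime j 30
  h₁ : s₁ = 1 ∨ s₁ = -1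
  h₂ : s₂ = 1 ∨ s₂ = -1
  h₃ : s₃ = 1 ∨ s₃ = -1
  h₄ : s₄ = 1 ∨ s₄ = -1
  t : θ gt = stdT s₁ s₂
  u : θ gu = stdU s₃ s₄
  s : θ gs = stdS
  r : θ gr = rotz (2 * Real.pi * j / 30)

theorem rotz_mul (x y : ℝ) : rotz x * rotz y = rotz (x + y) := by
  ext i j
  fin_cases i <;> fin_cases j <;>
    simp [rotz, Matrix.mul_apply, Fin.sum_univ_succ, Real.cos_add, Real.sin_add] <;> ring

theorem rotz_zero : rotz 0 = 1 := by
  ext i j
  fin_cases i <;> fin_cases j <;> simp [rotz]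

theorem rotz_pow (x : ℝ) (k : ℕ) : rotz x ^ k = rotz (k * x) := by
  induction k with
  | zero => simp [rotz_zero]
  | succ k ih => rw [pow_succ, ih, rotz_mul]; congr 1; push_cast; ring

theorem rotz_add_int (x : ℝ) (k : ℤ) : rotz (x + k * (2 * Real.pi)) = rotz x := by
  simp only [rotz, Real.cos_add_int_mul_two_pi, Real.sin_add_int_mul_two_pi]

theorem odd_of_isCoprime_thirty {j : ℤ} (hj : IsCoprime j 30) : Odd j := by
  obtain ⟨a, b, h⟩ := hj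
  rcases Int.even_or_odd j with ⟨k, rfl⟩ | h'
  · exfalso
    have : 2 * (a * k + b * 15) = 1 := by linear_combination h
    omega
  · exact h'

/-- the half turn -/
theorem rotz_pi_odd {j : ℤ} (hj : Odd j) : rotz (j * Real.pi) = !![-1, 0, 0; 0, -1, 0; 0, 0, 1] := by
  obtain ⟨k, rfl⟩ := hj
  have : ((2 * k + 1 : ℤ) : ℝ) * Real.pi = Real.pi + k * (2 * Real.pi) := by push_cast; ring
  rw [this, rotz_add_int]
  simp [rotz]

theorem rotz_pow_fifteen {j : ℤ} (hj : IsCoprime j 30) :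
    rotz (2 * Real.pi * j / 30) ^ 15 = !![-1, 0, 0; 0, -1, 0; 0, 0, 1] := by
  rw [rotz_pow, ← rotz_pi_odd (odd_of_isCoprime_thirty hj)]
  congr 1; push_cast; ring

theorem rotz_pow_thirty (j : ℤ) : rotz (2 * Real.pi * j / 30) ^ 30 = 1 := by
  rw [rotz_pow, ← rotz_zero, ← rotz_add_int 0 j]
  congr 1; push_cast; ring

theorem stdT_mul_transpose {s₁ s₂ : ℝ} (h₁ : s₁ = 1 ∨ s₁ = -1) (h₂ : s₂ = 1 ∨ s₂ = -1) :
    stdT s₁ s₂ * (stdT s₁ s₂)ᵀ = 1 := by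
  rcases h₁ with rfl | rfl <;> rcases h₂ with rfl | rfl <;> ext i j <;> fin_cases i <;> fin_cases j <;>
    simp [stdT, Matrix.mul_apply, Fin.sum_univ_succ]

theorem stdU_mul_transpose {s₃ s₄ : ℝ} (h₃ : s₃ = 1 ∨ s₃ = -1) (h₄ : s₄ = 1 ∨ s₄ = -1) :
    stdU s₃ s₄ * (stdU s₃ s₄)ᵀ = 1 := by
  rcases h₃ with rfl | rfl <;> rcases h₄ with rfl | rfl <;> ext i j <;> fin_cases i <;> fin_cases j <;>
    simp [stdU, Matrix.mul_apply, Fin.sum_univ_succ]

/-- `t` turns the third axis into the first one -/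
theorem stdT_rotz {s₁ s₂ : ℝ} (h₁ : s₁ = 1 ∨ s₁ = -1) (h₂ : s₂ = 1 ∨ s₂ = -1) (x : ℝ) :
    stdT s₁ s₂ * rotz x * (stdT s₁ s₂)ᵀ =
      !![1, 0, 0; 0, Real.cos x, -(s₂ * Real.sin x); 0, s₂ * Real.sin x, Real.cos x] := by
  rcases h₁ with rfl | rfl <;> rcases h₂ with rfl | rfl <;> ext i j <;> fin_cases i <;> fin_cases j <;>
    simp [stdT, rotz, Matrix.mul_apply, Fin.sum_univ_succ]

theorem stdU_stdT_rotz {s₁ s₂ s₃ s₄ : ℝ} (h₁ : s₁ = 1 ∨ s₁ = -1) (h₂ : s₂ = 1 ∨ s₂ = -1)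
    (h₃ : s₃ = 1 ∨ s₃ = -1) (h₄ : s₄ = 1 ∨ s₄ = -1) (x : ℝ) :
    (stdU s₃ s₄)ᵀ * (stdT s₁ s₂ * rotz x * (stdT s₁ s₂)ᵀ) * stdU s₃ s₄ = rotz (s₂ * s₄ * x) := by
  rw [stdT_rotz h₁ h₂]
  rcases h₂ with rfl | rfl <;> rcases h₃ with rfl | rfl <;> rcases h₄ with rfl | rfl <;> ext i j <;>
    fin_cases i <;> fin_cases j <;> simp [stdU, rotz, Matrix.mul_apply, Fin.sum_univ_succ]

theorem rd_std (j : ℤ) (hj : IsCoprime j 30) {s₁ s₂ s₃ s₄ : ℝ} (h₁ : s₁ = 1 ∨ s₁ = -1)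
    (h₂ : s₂ = 1 ∨ s₂ = -1) (h₃ : s₃ = 1 ∨ s₃ = -1) (h₄ : s₄ = 1 ∨ s₄ = -1) :
    RD (stdT s₁ s₂) (stdT s₁ s₂)ᵀ (stdU s₃ s₄) (stdU s₃ s₄)ᵀ stdS (rotz (2 * Real.pi * j / 30)) where
  t_ti := stdT_mul_transpose h₁ h₂
  ti_t := mul_eq_one_comm.1 (stdT_mul_transpose h₁ h₂)
  u_ui := stdU_mul_transpose h₃ h₄
  ui_u := mul_eq_one_comm.1 (stdU_mul_transpose h₃ h₄)
  r_pow := rotz_pow_thirty j
  s_sq := by
    ext i j
    fin_cases i <;> fin_cases j <;> simp [stdS, Matrix.mul_apply, Fin.sum_univ_succ]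
  s_r := by
    have h : ∀ x, stdS * rotz x * stdS = rotz (-x) := fun x => by
      ext i j
      fin_cases i <;> fin_cases j <;> simp [stdS, rotz, Matrix.mul_apply, Fin.sum_univ_succ]
    rw [h, rotz_mul, neg_add_cancel, rotz_zero]
  t_s := by
    rw [rotz_pow_fifteen hj]
    ext i j
    fin_cases i <;> fin_cases j <;> simp [stdS, stdT, Matrix.mul_apply, Fin.sum_univ_succ]
  u_sp := by
    rw [rotz_pow_fifteen hj]
    ext i j
    fin_cases i <;> fin_cases j <;> simp [stdS, stdU, Matrix.mul_apply, Fin.sum_univ_succ]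
  s_bB := by
    rw [rotz_pow, stdT_rotz h₁ h₂]
    ext i j
    fin_cases i <;> fin_cases j <;> simp [stdS, Matrix.mul_apply, Fin.sum_univ_succ]
  a_bZ := by
    rw [rotz_pow _ 10, stdU_stdT_rotz h₁ h₂ h₃ h₄, rotz_pow, rotz_mul, rotz_mul, add_comm]

theorem exists_isStd (j : ℤ) (hj : IsCoprime j 30) {s₁ s₂ s₃ s₄ : ℝ} (h₁ : s₁ = 1 ∨ s₁ = -1)
    (h₂ : s₂ = 1 ∨ s₂ = -1) (h₃ : s₃ = 1 ∨ s₃ = -1) (h₄ : s₄ = 1 ∨ s₄ = -1) :
    ∃ θ, IsStd θ j s₁ s₂ s₃ s₄ := by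
  obtain ⟨θ, ht, hu, hs, hr⟩ := (rd_std j hj h₁ h₂ h₃ h₄).exists_hom
  exact ⟨θ, hj, h₁, h₂, h₃, h₄, ht, hu, hs, hr⟩

end Crest.Agent.R251
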