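import Crest.Agent.R251.Quat
import Crest.Agent.R251.Blow

/-!
# Row 251: quaternion computations for `Cls`
-/

set_option autoImplicit false

open Matrix Quaternion

namespace Crest.Agent.R251

open Crest.Agent.Lib.GR

theorem cla_ev_pow {α : Type} (v : α → ℍ[ℝ]) (w : FreeGroup α) (n : ℕ) : ev v (w ^ n) = ev v w ^ n := by
  simp [ev]

section
variable {x : Gen → ℍ[ℝ]} (h : UnitT x)
include h

theorem cla_ev_r : ev x (rel .r) = x .r ^ 30 := by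
  simp only [rel, wr, cla_ev_pow, ev_of (qu_ne (h _))]

theorem cla_ev_t : ev x (rel .t) = x .t * x .s * (x .t)⁻¹ * (x .r ^ 15)⁻¹ := by
  simp only [rel, wr, wt, ws, cla_ev_pow, ev_mul, ev_inv, ev_of (qu_ne (h _))]

theorem cla_ev_u : ev x (rel .u) =
    x .u * ((x .r ^ 7)⁻¹ * (x .s)⁻¹ * x .r ^ 8) * (x .u)⁻¹ * (x .r ^ 15)⁻¹ := by
  simp only [rel, wsp, wr, wu, ws, cla_ev_pow, ev_mul, ev_inv, ev_of (qu_ne (h _))]

theorem cla_ev_B : ev x (rel .B) = x .s * (x .t * x .r ^ 10 * (x .t)⁻¹) * (x .s)⁻¹ *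
    (x .t * x .r ^ 10 * (x .t)⁻¹)⁻¹ := by
  simp only [rel, wbB, wr, wt, ws, cla_ev_pow, ev_mul, ev_inv, ev_of (qu_ne (h _))]

theorem cla_ev_Z : ev x (rel .Z) =
    x .r ^ 6 * ((x .u)⁻¹ * (x .t * x .r ^ 10 * (x .t)⁻¹) * x .u) * (x .r ^ 6)⁻¹ *
      ((x .u)⁻¹ * (x .t * x .r ^ 10 * (x .t)⁻¹) * x .u)⁻¹ := by
  simp only [rel, wbZ, wbB, wr, wt, wu, cla_ev_pow, ev_mul, ev_inv, ev_of (qu_ne (h _))]

end

theorem cla_comm_iff {a b : ℍ[ℝ]} (ha : a ≠ 0) (hb : b ≠ 0) : a * b * a⁻¹ * b⁻¹ = 1 ↔ a * b = b * a := by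
  rw [mul_inv_eq_one₀ hb, mul_inv_eq_iff_eq_mul₀ ha]

/-- the circle subgroup through `k` -/
noncomputable def claE (a : ℝ) : ℍ[ℝ] := ⟨Real.cos a, 0, 0, Real.sin a⟩

theorem claE_mul (a b : ℝ) : claE a * claE b = claE (a + b) := by
  ext <;> simp [claE, Real.cos_add, Real.sin_add]
  ring

theorem claE_zero : claE 0 = 1 := by
  ext <;> simp [claE]

theorem claE_pow (a : ℝ) (n : ℕ) : claE a ^ n = claE (n * a) := by
  induction n with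
  | zero => simp [claE_zero]
  | succ n ih => rw [pow_succ, ih, claE_mul]; congr 1; push_cast; ring

theorem claE_inv (a : ℝ) : (claE a)⁻¹ = claE (-a) :=
  inv_eq_of_mul_eq_one_right (by rw [claE_mul, add_neg_cancel, claE_zero])

theorem claE_norm (a : ℝ) : ‖claE a‖ = 1 := by
  have h : ‖claE a‖ * ‖claE a‖ = 1 := by
    rw [← normSq_eq_norm_mul_self, normSq_def']
    simp [claE]
  nlinarith [norm_nonneg (claE a)]

theorem cla_norm_one {q : ℍ[ℝ]} (h : q.re ^ 2 + q.imI ^ 2 + q.imJ ^ 2 + q.imK ^ 2 = 1) : ‖q‖ = 1 := by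
  have h : ‖q‖ * ‖q‖ = 1 := by
    rw [← normSq_eq_norm_mul_self, normSq_def', h]
  nlinarith [norm_nonneg q]

/-- a quaternion from its coordinates -/
def claQ (a b c d : ℝ) : ℍ[ℝ] := ⟨a, b, c, d⟩

theorem cla_i_inv : (claQ 0 1 0 0)⁻¹ = claQ 0 (-1) 0 0 :=
  inv_eq_of_mul_eq_one_right (by ext <;> simp [claQ])

theorem cla_wsp (a : ℝ) : (claE a ^ 7)⁻¹ * (claQ 0 1 0 0)⁻¹ * claE a ^ 8 =
    claQ 0 (-Real.cos (15 * a)) (Real.sin (15 * a)) 0 := by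
  rw [claE_pow, claE_pow, claE_inv, cla_i_inv]
  have e : (15 : ℝ) * a = (7 : ℕ) * a + (8 : ℕ) * a := by push_cast; ring
  rw [e, Real.cos_add, Real.sin_add]
  ext <;> simp [claE, claQ] <;> ring

/-- a unit quaternion with square `-1` is pure -/
theorem cla_pure {q : ℍ[ℝ]} (h : ‖q‖ = 1) (h2 : q * q = -1) : q.re = 0 := by
  have h3 := qu_sq h
  have h4 : (q * q).re = (-1 : ℍ[ℝ]).re := by rw [h2]
  simp at h4
  nlinarith

theorem cla_conj_mul {q : ℍ[ℝ]} (hq : q ≠ 0) (a b : ℍ[ℝ]) :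
    q * a * q⁻¹ * (q * b * q⁻¹) = q * (a * b) * q⁻¹ := by
  simp only [mul_assoc, inv_mul_cancel_left₀ hq]

theorem cla_conj_pow {q : ℍ[ℝ]} (hq : q ≠ 0) (a : ℍ[ℝ]) (n : ℕ) : (q * a * q⁻¹) ^ n = q * a ^ n * q⁻¹ := by
  induction n with
  | zero => simp [hq]
  | succ n ih => rw [pow_succ, ih, cla_conj_mul hq, pow_succ]

theorem cla_conj_norm {q : ℍ[ℝ]} (hq : q ≠ 0) (a : ℍ[ℝ]) : ‖q * a * q⁻¹‖ = ‖a‖ := by
  have hn : ‖q‖ ≠ 0 := norm_ne_zero_iff.2 hq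
  rw [norm_mul, norm_mul, norm_inv, mul_comm ‖q‖, mul_inv_cancel_right₀ hn]

theorem cla_conj_neg_one {q a : ℍ[ℝ]} (hq : q ≠ 0) (h : q * a * q⁻¹ = -1) : a = -1 := by
  have : a = q⁻¹ * (q * a * q⁻¹) * q := by
    simp only [mul_assoc, inv_mul_cancel_left₀ hq, inv_mul_cancel₀ hq, mul_one]
  rw [this, h, mul_neg_one, neg_mul, inv_mul_cancel₀ hq]

/-- normal form of the pair `(σ, ρ)` -/
theorem cla_normal {t u s r : ℍ[ℝ]} (ht : t ≠ 0) (hu : u ≠ 0) (hs : ‖s‖ = 1) (hr : ‖r‖ = 1)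
    (h1 : r ^ 30 = -1) (h2 : t * s * t⁻¹ = r ^ 15) (h3 : u * ((r ^ 7)⁻¹ * s⁻¹ * r ^ 8) * u⁻¹ = r ^ 15) :
    ∃ (q : ℍ[ℝ]) (m : ℤ), ‖q‖ = 1 ∧ q * s * q⁻¹ = claQ 0 1 0 0 ∧
      q * r * q⁻¹ = claE ((2 * m + 1) * Real.pi / 30) := by
  have hr0 := qu_ne hr
  have hs0 := qu_ne hs
  have h15 : r ^ 15 * r ^ 15 = -1 := by rw [← pow_add, h1]
  have hss : s * s = -1 := cla_conj_neg_one ht (by rw [← cla_conj_mul ht, h2, h15])
  have hsi : s⁻¹ = -s := inv_eq_of_mul_eq_one_right (by rw [mul_neg, hss, neg_neg])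
  have hw : ((r ^ 7)⁻¹ * s⁻¹ * r ^ 8) * ((r ^ 7)⁻¹ * s⁻¹ * r ^ 8) = -1 :=
    cla_conj_neg_one hu (by rw [← cla_conj_mul hu, h3, h15])
  have hsr : s * r * (s * r) = -1 := by
    have h7 : (r ^ 7)⁻¹ ≠ 0 := inv_ne_zero (pow_ne_zero _ hr0)
    refine cla_conj_neg_one h7 ?_
    rw [← hw, ← cla_conj_mul h7, inv_inv, hsi, pow_succ' r 7]
    simp only [mul_neg, neg_mul, neg_neg, mul_assoc]
  have hne : r * s ≠ s * r := fun hc => by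
    have e : s * r * (s * r) = s * s * (r * r) := by
      rw [mul_assoc, ← mul_assoc r, hc]
      simp only [mul_assoc]
    rw [e, hss, neg_one_mul, neg_inj] at hsr
    have e2 : r ^ 30 = (r * r) ^ 15 := by rw [← pow_two, ← pow_mul]
    rw [e2, hsr, one_pow] at h1
    have := congrArg QuaternionAlgebra.re h1
    simp at this
    linarith
  obtain ⟨q, hq, a1, a2, a3, b1, b2⟩ := exists_slicePair hne
  have hq0 := qu_ne hq
  have na : ‖q * r * q⁻¹‖ = 1 := (cla_conj_norm hq0 r).trans hr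
  have nb : ‖q * s * q⁻¹‖ = 1 := (cla_conj_norm hq0 s).trans hs
  have b0 : (q * s * q⁻¹).re = 0 := cla_pure nb (by
    rw [cla_conj_mul hq0, hss, mul_neg_one, neg_mul, mul_inv_cancel₀ hq0])
  have ba : (q * s * q⁻¹ * (q * r * q⁻¹)).re = 0 := cla_pure (by rw [norm_mul, na, nb, mul_one]) (by
    rw [cla_conj_mul hq0, cla_conj_mul hq0, hsr, mul_neg_one, neg_mul, mul_inv_cancel₀ hq0])
  have a30 : (q * r * q⁻¹) ^ 30 = -1 := by
    rw [cla_conj_pow hq0, h1, mul_neg_one, neg_mul, mul_inv_cancel₀ hq0]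
  let ω : ℍ[ℝ] := claQ (1 / 2) (-1 / 2) (-1 / 2) (-1 / 2)
  have nω : ‖ω‖ = 1 := cla_norm_one (by simp only [ω, claQ]; norm_num)
  have hω := qu_ne nω
  have e : ∀ y : ℍ[ℝ], ω * q * y * (ω * q)⁻¹ = ω * (q * y * q⁻¹) * ω⁻¹ := fun y => by
    rw [_root_.mul_inv_rev]
    simp only [mul_assoc]
  have sa := qu_sq na
  have sb := qu_sq nb
  have key : ∃ m : ℤ, ω * (q * s * q⁻¹) * ω⁻¹ = claQ 0 1 0 0 ∧
      ω * (q * r * q⁻¹) * ω⁻¹ = claE ((2 * m + 1) * Real.pi / 30) := by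
    generalize q * r * q⁻¹ = a at a1 a2 a3 ba a30 sa ⊢
    generalize q * s * q⁻¹ = b at b0 b1 b2 ba sb ⊢
    have bI : b.imI = 0 := by
      simp [a2, a3, b0, b2, a1.ne'] at ba
      exact ba
    have bJ : b.imJ = 1 := by
      rw [b0, bI, b2] at sb
      nlinarith
    rw [a2, a3] at sa
    have c1 : -1 ≤ a.re := by nlinarith
    have c2 : a.re ≤ 1 := by nlinarith
    have hc := Real.cos_arccos c1 c2
    have hsn : Real.sin (Real.arccos a.re) = a.imI := by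
      rw [Real.sin_arccos, show 1 - a.re ^ 2 = a.imI ^ 2 by linarith, Real.sqrt_sq a1.le]
    have ea : ω * a * ω⁻¹ = claE (Real.arccos a.re) := by
      refine qu_conj hω ?_
      ext <;> simp [ω, claQ, claE, hc, hsn, a2, a3] <;> ring
    have e30 : claE ((30 : ℕ) * Real.arccos a.re) = -1 := by
      rw [← claE_pow, ← ea, cla_conj_pow hω, a30, mul_neg_one, neg_mul, mul_inv_cancel₀ hω]
    have e31 : Real.cos ((30 : ℕ) * Real.arccos a.re) = -1 := congrArg QuaternionAlgebra.re e30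
    obtain ⟨m, hm⟩ := Real.cos_eq_neg_one_iff.1 e31
    refine ⟨m, qu_conj hω ?_, ?_⟩
    · ext <;> simp [ω, claQ, b0, bI, bJ, b2] <;> ring
    · rw [ea]
      congr 1
      push_cast at hm
      linarith
  obtain ⟨m, k1, k2⟩ := key
  exact ⟨ω * q, m, by rw [norm_mul, nω, hq, mul_one], by rw [e, k1], by rw [e, k2]⟩

theorem cla_Ad_cols {q A B C : ℍ[ℝ]} (h0 : q * claQ 0 1 0 0 * q⁻¹ = A) (h1 : q * claQ 0 0 1 0 * q⁻¹ = B)
    (h2 : q * claQ 0 0 0 1 * q⁻¹ = C) :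
    Ad q = !![A.imI, B.imI, C.imI; A.imJ, B.imJ, C.imJ; A.imK, B.imK, C.imK] := by
  have e0 : of3 (Pi.single 0 1) = claQ 0 1 0 0 := by ext <;> simp [of3, claQ]
  have e1 : of3 (Pi.single 1 1) = claQ 0 0 1 0 := by ext <;> simp [of3, claQ]
  have e2 : of3 (Pi.single 2 1) = claQ 0 0 0 1 := by ext <;> simp [of3, claQ]
  have c0 : ∀ i, Ad q i 0 = im3 A i := fun i => by rw [Ad, Matrix.of_apply, e0, h0]
  have c1 : ∀ i, Ad q i 1 = im3 B i := fun i => by rw [Ad, Matrix.of_apply, e1, h1]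
  have c2 : ∀ i, Ad q i 2 = im3 C i := fun i => by rw [Ad, Matrix.of_apply, e2, h2]
  ext i j
  fin_cases j <;> fin_cases i <;> simp [c0, c1, c2, im3]

theorem cla_conj_re (q : ℍ[ℝ]) {a : ℍ[ℝ]} (ha : a.re = 0) : (q * a * q⁻¹).re = 0 := by
  rw [← of3_im3 ha, ← of3_Ad_mulVec]
  rfl

theorem cla_sign {a : ℝ} (h : a ^ 2 = 1) : a = 1 ∨ a = -1 :=
  mul_self_eq_one_iff.1 (by rw [← h, sq])

theorem cla_lin {q : ℍ[ℝ]} (hq : q ≠ 0) (c d : ℝ) (v : ℍ[ℝ]) :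
    q * ((c : ℍ[ℝ]) + d • v) * q⁻¹ = (c : ℍ[ℝ]) + d • (q * v * q⁻¹) := by
  rw [mul_add, add_mul, ← coe_commutes, mul_inv_cancel_right₀ hq, mul_smul_comm, smul_mul_assoc]

theorem cla_smul {q : ℍ[ℝ]} (d : ℝ) (v : ℍ[ℝ]) : q * (d • v) * q⁻¹ = d • (q * v * q⁻¹) := by
  rw [mul_smul_comm, smul_mul_assoc]

/-- the matrices of `t` and `u` in normal form -/
theorem cla_std {t u : ℍ[ℝ]} {a : ℝ} (ht : t ≠ 0) (hu : u ≠ 0) (h10 : Real.sin (10 * a) ≠ 0)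
    (h6 : Real.sin (6 * a) ≠ 0) (h2 : t * claQ 0 1 0 0 * t⁻¹ = claE a ^ 15)
    (h3 : u * ((claE a ^ 7)⁻¹ * (claQ 0 1 0 0)⁻¹ * claE a ^ 8) * u⁻¹ = claE a ^ 15)
    (h4 : claQ 0 1 0 0 * (t * claE a ^ 10 * t⁻¹) = t * claE a ^ 10 * t⁻¹ * claQ 0 1 0 0)
    (h5 : claE a ^ 6 * (u⁻¹ * (t * claE a ^ 10 * t⁻¹) * u) = u⁻¹ * (t * claE a ^ 10 * t⁻¹) * u * claE a ^ 6) :
    ∃ s₁ s₂ s₄ : ℝ, (s₁ = 1 ∨ s₁ = -1) ∧ (s₂ = 1 ∨ s₂ = -1) ∧ (s₄ = 1 ∨ s₄ = -1) ∧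
      Ad t = stdT s₁ s₂ ∧ Ad u = stdU 1 s₄ := by
  have nI : ‖claQ 0 1 0 0‖ = 1 := cla_norm_one (by simp [claQ])
  have nK : ‖claQ 0 0 0 1‖ = 1 := cla_norm_one (by simp [claQ])
  rw [cla_wsp] at h3
  rw [claE_pow] at h2 h3 h4 h5
  rw [claE_pow] at h5
  push_cast at h2 h3 h4 h5
  have c15 : Real.cos (15 * a) = 0 := by
    have := cla_conj_re t (a := claQ 0 1 0 0) rfl
    rw [h2] at this
    exact this
  have s15 : Real.sin (15 * a) ^ 2 = 1 := by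
    have := Real.sin_sq_add_cos_sq (15 * a)
    rw [c15] at this
    linarith
  have s15' : Real.sin (15 * a) ≠ 0 := fun h => by simp [h] at s15
  have eE : ∀ y, claE y = ((Real.cos y : ℝ) : ℍ[ℝ]) + Real.sin y • claQ 0 0 0 1 := fun y => by
    ext <;> simp [claE, claQ]
  -- `t k t⁻¹ = ± i`
  have nv : ‖t * claQ 0 0 0 1 * t⁻¹‖ = 1 := (cla_conj_norm ht _).trans nK
  have rv := cla_conj_re t (a := claQ 0 0 0 1) rfl
  rw [eE (10 * a), cla_lin ht] at h4 h5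
  obtain ⟨s₂, hs₂, hv⟩ : ∃ s₂ : ℝ, s₂ ^ 2 = 1 ∧ t * claQ 0 0 0 1 * t⁻¹ = claQ 0 s₂ 0 0 := by
    have sv := qu_sq nv
    generalize t * claQ 0 0 0 1 * t⁻¹ = v at sv rv h4 ⊢
    have k1 := congrArg QuaternionAlgebra.imJ h4
    have k2 := congrArg QuaternionAlgebra.imK h4
    simp [claQ] at k1 k2
    have vK : v.imK = 0 := mul_left_cancel₀ h10 (by linarith)
    have vJ : v.imJ = 0 := mul_left_cancel₀ h10 (by linarith)
    refine ⟨v.imI, by rw [rv, vJ, vK] at sv; linarith, ?_⟩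
    ext <;> simp [claQ, rv, vJ, vK]
  have tI : t * claQ 0 1 0 0 * t⁻¹ = claQ 0 0 0 (Real.sin (15 * a)) := by
    rw [h2]
    ext <;> simp [claQ, claE, c15]
  have eJ : claQ 0 0 1 0 = claQ 0 0 0 1 * claQ 0 1 0 0 := by ext <;> simp [claQ]
  have eI : claQ 0 1 0 0 = claQ 0 0 1 0 * claQ 0 0 0 1 := by ext <;> simp [claQ]
  have tJ : t * claQ 0 0 1 0 * t⁻¹ = claQ 0 0 (-(Real.sin (15 * a) * s₂)) 0 := by
    rw [eJ, ← cla_conj_mul ht, hv, tI]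
    ext <;> simp [claQ]
    ring
  -- `u j u⁻¹ = k`
  have uJ : u * claQ 0 0 1 0 * u⁻¹ = claQ 0 0 0 1 := by
    have e1 : claQ 0 (-Real.cos (15 * a)) (Real.sin (15 * a)) 0 = Real.sin (15 * a) • claQ 0 0 1 0 := by
      ext <;> simp [claQ, c15]
    have e2 : claE (15 * a) = Real.sin (15 * a) • claQ 0 0 0 1 := by
      ext <;> simp [claQ, claE, c15]
    rw [e1, e2, cla_smul] at h3
    exact smul_right_injective _ s15' h3
  -- `u⁻¹ i u = ± k`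
  have hu' : u⁻¹ ≠ 0 := inv_ne_zero hu
  have e3 : claQ 0 s₂ 0 0 = s₂ • claQ 0 1 0 0 := by ext <;> simp [claQ]
  have s2' : s₂ ≠ 0 := fun h => by simp [h] at hs₂
  have e4 := cla_lin hu' (Real.cos (10 * a)) (Real.sin (10 * a) * s₂) (claQ 0 1 0 0)
  have nw : ‖u⁻¹ * claQ 0 1 0 0 * u⁻¹⁻¹‖ = 1 := (cla_conj_norm hu' _).trans nI
  have rw' := cla_conj_re u⁻¹ (a := claQ 0 1 0 0) rfl
  rw [inv_inv] at e4 nw rw'
  rw [hv, e3, smul_smul, e4] at h5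
  obtain ⟨s₄, hs₄, hw⟩ : ∃ s₄ : ℝ, s₄ ^ 2 = 1 ∧ u⁻¹ * claQ 0 1 0 0 * u = claQ 0 0 0 s₄ := by
    have sv := qu_sq nw
    generalize u⁻¹ * claQ 0 1 0 0 * u = v at sv rw' h5 ⊢
    have k1 := congrArg QuaternionAlgebra.imI h5
    have k2 := congrArg QuaternionAlgebra.imJ h5
    simp [claE] at k1 k2
    have hne : Real.sin (6 * a) * (Real.sin (10 * a) * s₂) ≠ 0 := mul_ne_zero h6 (mul_ne_zero h10 s2')
    have vJ : v.imJ = 0 := mul_left_cancel₀ hne (by linarith)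
    have vI : v.imI = 0 := mul_left_cancel₀ hne (by linarith)
    refine ⟨v.imK, by rw [rw', vJ, vI] at sv; linarith, ?_⟩
    ext <;> simp [claQ, rw', vJ, vI]
  have uK : u * claQ 0 0 0 1 * u⁻¹ = claQ 0 s₄ 0 0 := by
    have e1 : claQ 0 0 0 1 = s₄ • claQ 0 0 0 s₄ := by
      ext <;> simp [claQ]
      linarith
    rw [e1, cla_smul, ← hw]
    simp only [mul_assoc, mul_inv_cancel_left₀ hu, mul_inv_cancel₀ hu, mul_one]
    ext <;> simp [claQ]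
  have uI : u * claQ 0 1 0 0 * u⁻¹ = claQ 0 0 s₄ 0 := by
    rw [eI, ← cla_conj_mul hu, uJ, uK]
    ext <;> simp [claQ]
  refine ⟨Real.sin (15 * a), s₂, s₄, cla_sign s15, cla_sign hs₂, cla_sign hs₄, ?_, ?_⟩
  · rw [cla_Ad_cols tI tJ hv]
    rfl
  · rw [cla_Ad_cols uI uJ uK, stdU, one_mul]
    rfl

/-- an explicit solution -/
theorem cla_exists : ∃ t u : ℍ[ℝ], ‖t‖ = 1 ∧ ‖u‖ = 1 ∧ t * claQ 0 1 0 0 * t⁻¹ = claQ 0 0 0 1 ∧
    u * claQ 0 0 1 0 * u⁻¹ = claQ 0 0 0 1 ∧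
    (∀ y, t * claE y * t⁻¹ = claQ (Real.cos y) (Real.sin y) 0 0) ∧
    ∀ y, u⁻¹ * claQ (Real.cos y) (Real.sin y) 0 0 * u = claE y := by
  obtain ⟨c, hc⟩ : ∃ c : ℝ, c ^ 2 = 1 / 2 := ⟨√(1 / 2), Real.sq_sqrt (by norm_num)⟩
  have nt : ‖claQ 0 c 0 c‖ = 1 := cla_norm_one (by simp only [claQ]; linarith)
  have nu : ‖claQ (1 / 2) (1 / 2) (1 / 2) (1 / 2)‖ = 1 := cla_norm_one (by simp only [claQ]; norm_num)
  refine ⟨_, _, nt, nu, qu_conj (qu_ne nt) ?_, qu_conj (qu_ne nu) ?_, fun y => qu_conj (qu_ne nt) ?_,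
    fun y => ?_⟩
  · ext <;> simp [claQ]
  · ext <;> simp [claQ]
  · ext <;> simp [claQ, claE] <;> ring
  · rw [mul_assoc, inv_mul_eq_iff_eq_mul₀ (qu_ne nu)]
    ext <;> simp [claQ, claE] <;> ring

end Crest.Agent.R251
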