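import Crest.Agent.R251.Quat

/-!
# Row 251: a two-cycle gives a linear relation between the relators up to second order

Write `m = Σ_k ε_k π(f_k) e_{j_k}` (induction on `m`, or `exists` a list), `W = ∏ f_k rl_{j_k}^{ε_k} f_k⁻¹`, `m̃ j = Σ_{j_k = j} ε_k f_k`;
`fox π W = m ᵥ* foxM = 0`, so `W ∈ ⁅N, N⁆` (`magnus`).  Words `n` with `∃ C, ∀ y δ, (hyp) → ‖ev y n - 1‖ ≤ C δ ∨ ‖ev y n + 1‖ ≤ C δ`
form a normal subgroup containing the relators; a commutator of two of them satisfies `‖ev y ⁅n, n'⁆ - 1‖ ≤ 2 C C' δ²`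
(`p q - q p = (p - ς)(q - ς') - (q - ς')(p - ς)`), and the words with `‖ev y n - 1‖ ≤ C δ²` form a subgroup.  By induction on the list,
`‖ς • ev y W - 1 - of3 (Σ …)‖ ≤ C δ²` with `ς = ∏ η`; a unit `q` has `1 - re q = ‖q - 1‖² / 2` and `q⁻¹ = star q`.  Compare imaginary parts.
-/

set_option autoImplicit false

open Matrix Quaternion

namespace Crest.Agent.R251

open Crest.Agent.Lib.GR

theorem est_inv {p : ℍ[ℝ]} (hp : ‖p‖ = 1) : p⁻¹ = star p := by
  rw [qu_inv, qu_normSq hp, inv_one, one_smul]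

theorem est_mul {p : ℍ[ℝ]} (hp : ‖p‖ = 1) (q : ℍ[ℝ]) : ‖p * q - 1‖ ≤ ‖p - 1‖ + ‖q - 1‖ := by
  rw [show p * q - 1 = p - 1 + p * (q - 1) by noncomm_ring]
  exact (norm_add_le _ _).trans_eq (by rw [norm_mul, hp, one_mul])

theorem est_star (ς : ℝ) (p : ℍ[ℝ]) : ‖ς • star p - 1‖ = ‖ς • p - 1‖ := by
  rw [← Quaternion.norm_star (ς • p - 1), star_sub, star_one, Quaternion.star_smul]

theorem est_conj {F : ℍ[ℝ]} (hF : ‖F‖ = 1) (x : ℍ[ℝ]) : ‖F * x * F⁻¹‖ = ‖x‖ := by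
  rw [norm_mul, norm_mul, norm_inv, hF, inv_one, one_mul, mul_one]

theorem est_sgn {ς : ℝ} (h : ς = 1 ∨ ς = -1) (p : ℍ[ℝ]) : ‖ς • p‖ = ‖p‖ := by
  rcases h with rfl | rfl <;> simp

theorem est_sgn_mul {a b : ℝ} (ha : a = 1 ∨ a = -1) (hb : b = 1 ∨ b = -1) : a * b = 1 ∨ a * b = -1 := by
  rcases ha with rfl | rfl <;> rcases hb with rfl | rfl <;> simp

theorem est_comm {p q : ℍ[ℝ]} (hp : ‖p‖ = 1) (hq : ‖q‖ = 1) {a b : ℝ} (ha : a = 1 ∨ a = -1)
    (hb : b = 1 ∨ b = -1) : ‖p * q * p⁻¹ * q⁻¹ - 1‖ ≤ 2 * (‖a • p - 1‖ * ‖b • q - 1‖) := by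
  have e1 : p * q * p⁻¹ * q⁻¹ - 1 = (p * q - q * p) * p⁻¹ * q⁻¹ := by
    rw [sub_mul, sub_mul, mul_inv_cancel_right₀ (qu_ne hp), mul_inv_cancel₀ (qu_ne hq)]
  have e2 : (a * b) • (p * q - q * p) = (a • p - 1) * (b • q - 1) - (b • q - 1) * (a • p - 1) := by
    rw [smul_sub, ← smul_mul_smul_comm, mul_comm a b, ← smul_mul_smul_comm]
    generalize a • p = x
    generalize b • q = z
    noncomm_ring
  rw [e1, norm_mul, norm_mul, norm_inv, norm_inv, hp, hq, inv_one, mul_one, mul_one,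
    ← est_sgn (est_sgn_mul ha hb), e2]
  exact (norm_sub_le _ _).trans_eq (by rw [norm_mul, norm_mul]; ring)

theorem est_star_of3 (v : Fin 3 → ℝ) : star (of3 v) = -of3 v := by
  ext <;> simp [of3]

theorem est_re {q : ℍ[ℝ]} (hq : ‖q‖ = 1) : ‖q - 1 - of3 (im3 q)‖ ≤ ‖q - 1‖ ^ 2 := by
  have e : q - 1 - of3 (im3 q) = ((q.re - 1 : ℝ) : ℍ[ℝ]) := by
    ext <;> simp [of3, im3]
  have h1 := qu_sq hq
  have h2 : ‖q - 1‖ ^ 2 = 2 * (1 - q.re) := by
    rw [sq, ← normSq_eq_norm_mul_self, normSq_def']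
    simp
    linarith
  have h3 := sq_nonneg ‖q - 1‖
  rw [e, norm_coe, Real.norm_eq_abs, abs_le]
  constructor <;> linarith

section
variable {S : Type} (Hy : (S → ℍ[ℝ]) → ℝ → Prop) (hu : ∀ y δ, Hy y δ → UnitT y ∧ 0 ≤ δ)

/-- words that are `± 1` to first order -/
def est1 : Subgroup (FreeGroup S) where
  carrier := {n | ∃ C, ∀ y δ, Hy y δ → ∃ ς : ℝ, (ς = 1 ∨ ς = -1) ∧ ‖ς • ev y n - 1‖ ≤ C * δ}
  one_mem' := ⟨0, fun y δ _ => ⟨1, .inl rfl, by simp [ev_one]⟩⟩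
  mul_mem' := fun {n n'} ⟨C, h⟩ ⟨C', h'⟩ => ⟨C + C', fun y δ H => by
    obtain ⟨a, ha, h1⟩ := h y δ H
    obtain ⟨b, hb, h2⟩ := h' y δ H
    refine ⟨a * b, est_sgn_mul ha hb, ?_⟩
    rw [ev_mul, ← smul_mul_smul_comm, add_mul]
    exact (est_mul ((est_sgn ha _).trans (norm_ev_of_unitT (hu y δ H).1 n)) _).trans
      (add_le_add h1 h2)⟩
  inv_mem' := fun {n} ⟨C, h⟩ => ⟨C, fun y δ H => (h y δ H).imp fun a ha => ⟨ha.1, by
    rw [ev_inv, est_inv (norm_ev_of_unitT (hu y δ H).1 n), est_star]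
    exact ha.2⟩⟩

theorem est1_normal : (est1 Hy hu).Normal :=
  ⟨fun n ⟨C, h⟩ f => ⟨C, fun y δ H => (h y δ H).imp fun a ha => ⟨ha.1, by
    have hf := norm_ev_of_unitT (hu y δ H).1 f
    refine le_of_eq_of_le ?_ ha.2
    rw [← est_conj hf (a • ev y n - 1), ev_mul, ev_mul, ev_inv, mul_sub, sub_mul, mul_one,
      mul_inv_cancel₀ (qu_ne hf), mul_smul_comm, smul_mul_assoc]⟩⟩⟩

/-- words that are `1` to second order -/
def est2 : Subgroup (FreeGroup S) where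
  carrier := {n | ∃ C, ∀ y δ, Hy y δ → ‖ev y n - 1‖ ≤ C * δ ^ 2}
  one_mem' := ⟨0, fun y δ _ => by simp [ev_one]⟩
  mul_mem' := fun {n n'} ⟨C, h⟩ ⟨C', h'⟩ => ⟨C + C', fun y δ H => by
    rw [ev_mul, add_mul]
    exact (est_mul (norm_ev_of_unitT (hu y δ H).1 n) _).trans (add_le_add (h y δ H) (h' y δ H))⟩
  inv_mem' := fun {n} ⟨C, h⟩ => ⟨C, fun y δ H => by
    have := est_star 1 (ev y n)
    rw [one_smul, one_smul] at this
    rw [ev_inv, est_inv (norm_ev_of_unitT (hu y δ H).1 n), this]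
    exact h y δ H⟩

theorem est_le : ⁅est1 Hy hu, est1 Hy hu⁆ ≤ est2 Hy hu :=
  Subgroup.commutator_le.2 fun n ⟨C, h⟩ n' ⟨C', h'⟩ => ⟨2 * (C * C'), fun y δ H => by
    obtain ⟨a, ha, h1⟩ := h y δ H
    obtain ⟨b, hb, h2⟩ := h' y δ H
    rw [commutatorElement_def, ev_mul, ev_mul, ev_mul, ev_inv, ev_inv]
    refine (est_comm (norm_ev_of_unitT (hu y δ H).1 n) (norm_ev_of_unitT (hu y δ H).1 n') ha hb).trans ?_
    linarith [mul_le_mul h1 h2 (norm_nonneg _) ((norm_nonneg _).trans h1)]⟩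

end

theorem second_order {Γ S R : Type} [Group Γ] [Fintype S] [DecidableEq S] [Fintype R] (π : S → Γ)
    (hs : Function.Surjective (FreeGroup.lift π)) (rl : R → FreeGroup S)
    (hk : (FreeGroup.lift π).ker = Subgroup.normalClosure (Set.range rl))
    (m : R → ZG Γ) (hm : m ᵥ* foxM π rl = 0) (η : R → ℝ) (hη : ∀ j, η j = 1 ∨ η j = -1) :
    ∃ (mt : R → ZG (FreeGroup S)) (C : ℝ), (∀ j, mapZ (FreeGroup.lift π) (mt j) = m j) ∧
      ∀ (y : S → ℍ[ℝ]) (δ : ℝ), UnitT y → 0 ≤ δ → (∀ j, ‖η j • ev y (rl j) - 1‖ ≤ δ) →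
        ‖of3 (∑ j, rz (AdW y) (mt j) *ᵥ im3 (η j • ev y (rl j)))‖ ≤ C * δ ^ 2 := by
  classical
  let Hy : (S → ℍ[ℝ]) → ℝ → Prop := fun y δ =>
    (UnitT y ∧ 0 ≤ δ) ∧ ∀ j, ‖η j • ev y (rl j) - 1‖ ≤ δ
  have hu : ∀ y δ, Hy y δ → UnitT y ∧ 0 ≤ δ := fun _ _ h => h.1
  have hN : (FreeGroup.lift π).ker ≤ est1 Hy hu := by
    have := est1_normal Hy hu
    rw [hk]
    refine Subgroup.normalClosure_le_normal ?_
    rintro _ ⟨j, rfl⟩
    exact ⟨1, fun y δ H => ⟨η j, hη j, by rw [one_mul]; exact H.2 j⟩⟩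
  let K : AddSubgroup (R → ZG Γ) :=
    { carrier := {m | ∃ (W : FreeGroup S) (mt : R → ZG (FreeGroup S)) (C C' : ℝ),
        FreeGroup.lift π W = 1 ∧ fox π W = m ᵥ* foxM π rl ∧
        (∀ j, mapZ (FreeGroup.lift π) (mt j) = m j) ∧ ∀ y δ, Hy y δ → ∃ ς : ℝ, (ς = 1 ∨ ς = -1) ∧
          ‖ς • ev y W - 1‖ ≤ C * δ ∧ ‖ς • ev y W - 1 -
            of3 (∑ j, rz (AdW y) (mt j) *ᵥ im3 (η j • ev y (rl j)))‖ ≤ C' * δ ^ 2}
      zero_mem' := ⟨1, 0, 0, 0, map_one _, by simp [fox_one], fun j => map_zero _,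
        fun y δ _ => ⟨1, .inl rfl, by simp [ev_one], by simp [ev_one, of3_zero]⟩⟩
      add_mem' := by
        rintro m m' ⟨W, mt, C, D, h1, h2, h3, h4⟩ ⟨W', mt', C', D', h1', h2', h3', h4'⟩
        refine ⟨W * W', mt + mt', C + C', D + D' + C * C', by rw [map_mul, h1, h1', mul_one],
          by rw [fox_mul, h1, fox_og_one, one_smul, h2, h2', add_vecMul],
          fun j => by rw [Pi.add_apply, map_add, h3, h3', Pi.add_apply], fun y δ H => ?_⟩
        obtain ⟨a, ha, a1, a2⟩ := h4 y δ H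
        obtain ⟨b, hb, b1, b2⟩ := h4' y δ H
        refine ⟨a * b, est_sgn_mul ha hb, ?_⟩
        rw [ev_mul, ← smul_mul_smul_comm, add_mul]
        refine ⟨(est_mul ((est_sgn ha _).trans (norm_ev_of_unitT H.1.1 W)) _).trans
          (add_le_add a1 b1), ?_⟩
        simp only [Pi.add_apply, map_add, add_mulVec, Finset.sum_add_distrib, of3_add]
        have c := (norm_mul_le _ _).trans (mul_le_mul a1 b1 (norm_nonneg _) ((norm_nonneg _).trans a1))
        refine le_trans (le_of_eq (congrArg norm ?_)) (((norm_add_le _ _).trans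
          (add_le_add ((norm_add_le _ _).trans (add_le_add a2 b2)) c)).trans_eq (by ring))
        generalize a • ev y W = x
        generalize b • ev y W' = z
        noncomm_ring
      neg_mem' := by
        rintro m ⟨W, mt, C, D, h1, h2, h3, h4⟩
        refine ⟨W⁻¹, -mt, C, D, by rw [map_inv, h1, inv_one],
          by rw [fox_inv, h1, inv_one, fox_og_one, one_smul, h2, neg_vecMul],
          fun j => by rw [Pi.neg_apply, map_neg, h3, Pi.neg_apply],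
          fun y δ H => (h4 y δ H).imp fun a ha => ⟨ha.1, ?_⟩⟩
        rw [ev_inv, est_inv (norm_ev_of_unitT H.1.1 W), est_star]
        refine ⟨ha.2.1, le_of_eq_of_le ?_ ha.2.2⟩
        simp only [Pi.neg_apply, map_neg, neg_mulVec, Finset.sum_neg_distrib, of3_neg]
        rw [← Quaternion.norm_star, star_sub, star_sub, star_neg, est_star_of3, neg_neg, star_one,
          Quaternion.star_smul, star_star] }
  have hK : m ∈ K := by
    rw [← Finset.univ_sum_single m]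
    refine sum_mem fun j _ => foxb_mem K (AddMonoidHom.single (fun _ : R => ZG Γ) j) (fun g => ?_) _
    obtain ⟨f, rfl⟩ := hs g
    have hj : FreeGroup.lift π (rl j) = 1 := by
      rw [← MonoidHom.mem_ker, hk]
      exact Subgroup.subset_normalClosure ⟨j, rfl⟩
    refine ⟨f * rl j * f⁻¹, Pi.single j (og f), 1, 1, by simp [hj], ?_, fun i => ?_,
      fun y δ H => ⟨η j, hη j, ?_⟩⟩
    · rw [fox_conj π f _ hj, AddMonoidHom.single_apply, single_vecMul]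
      rfl
    · rw [AddMonoidHom.single_apply, Pi.apply_single (fun _ => mapZ (FreeGroup.lift π))
        fun _ => map_zero _, mapZ_og]
    · have hf := norm_ev_of_unitT H.1.1 f
      have e : η j • ev y (f * rl j * f⁻¹) - 1 = ev y f * (η j • ev y (rl j) - 1) * (ev y f)⁻¹ := by
        rw [ev_mul, ev_mul, ev_inv, mul_sub, sub_mul, mul_one, mul_inv_cancel₀ (qu_ne hf),
          mul_smul_comm, smul_mul_assoc]
      rw [e, est_conj hf, one_mul, one_mul, Finset.sum_eq_single j (fun i _ hi => by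
        rw [Pi.single_eq_of_ne hi, map_zero, zero_mulVec]) fun h => absurd (Finset.mem_univ j) h,
        Pi.single_eq_same, rz_og, AdW_apply, of3_Ad_mulVec, ← sub_mul, ← mul_sub, est_conj hf]
      exact ⟨H.2 j, (est_re ((est_sgn (hη j) _).trans (norm_ev_of_unitT H.1.1 _))).trans
        (pow_le_pow_left₀ (norm_nonneg _) (H.2 j) 2)⟩
  obtain ⟨W, mt, C, D, h1, h2, h3, h4⟩ := hK
  obtain ⟨E, hE⟩ := est_le Hy hu (Subgroup.commutator_mono hN hN (magnus π hs W h1 (h2.trans hm)))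
  refine ⟨mt, D + E, h3, fun y δ a b c => ?_⟩
  obtain ⟨ς, hς, -, h5⟩ := h4 y δ ⟨⟨a, b⟩, c⟩
  have h6 := (est_sgn hς _).trans_le (hE y δ ⟨⟨a, b⟩, c⟩)
  generalize ∑ j, rz (AdW y) (mt j) *ᵥ im3 (η j • ev y (rl j)) = v at h5 ⊢
  have e : (2 : ℝ) • of3 v = ς • (ev y W - 1) - star (ς • (ev y W - 1)) -
      (ς • ev y W - 1 - of3 v - star (ς • ev y W - 1 - of3 v)) := by
    simp only [star_sub, Quaternion.star_smul, star_one, est_star_of3, smul_sub, two_smul]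
    abel
  have h7 := (norm_sub_le _ _).trans (add_le_add ((norm_sub_le _ _).trans
    (add_le_add h6 ((Quaternion.norm_star _).trans_le h6))) ((norm_sub_le _ _).trans
    (add_le_add h5 ((Quaternion.norm_star _).trans_le h5))))
  rw [← e, norm_smul, Real.norm_two] at h7
  linarith

end Crest.Agent.R251
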