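import Crest.Agent.R251.Grp

/-!
# Row 251: a reflective normaliser for `ℤ[G]`

`Ex.isZero` computes normal forms in the graph of groups; only soundness is proved.  Use: `Ex.eq_zero e (by decide +kernel)`.

Suggested implementation.  Vertices `A, B, Z` with rotations `ρ` (order 30), `σ b'` (6), `z` (15) and reflections `σ`, `c`, `σ'`;
an element of a vertex group is `(k, e) = rot^k refl^e`.  Directed edges with stable letters: `v : A → B` and `f : A → Z` (letter 1),
`t : B → A` (letter `t`), `u : B → Z` (letter `u`) and their inverses.  Edge groups `⟨rot^d, rot^m refl⟩`: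
`v`: in `A` `d = 15, m = 0` (`c ↦ refl_B`, `σ ↦ rot_B^3`), in `B` `d = 3, m = 0` (`rot_B^3 ↦ σ`, `refl_B ↦ ρ^15`);
`f`: in `A` `d = 6, m = 15` (`a ↦ z^6`, `ρ^15 σ ↦ refl_Z`), in `Z` `d = 3, m = 0` (`z^3 ↦ a^3 = ρ^18`);
`t`: in `B` `d = 2, m = 0` (`rot_B^2 = b'⁻¹ ↦ ρ^20`, `c ↦ σ`: `h t = t h'`), in `A` `d = 10, m = 0` (`ρ^10 ↦ b' = rot_B^4`);
`u`: in `B` `d = 2, m = 0` (`b'⁻¹ ↦ bZ⁻¹ = z^5`, `c ↦ σ'`), in `Z` `d = 5, m = 0` (`z^5 ↦ rot_B^2`).
Coset representatives are `rot^i`, `i < d`: `rot^k refl^e = rot^((k - e m) % d) * (rot^d)^((k - e m) / d) * (rot^m refl)^e`.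
A normal form is a prefix of pairs `(i, edge)` and a last element; crossing an edge with `i = 0` right after the inverse edge pops
the prefix.  Code a normal form by one natural number (base 256 digits for the prefix, `2 k + e` for the last element), polynomials
as lists of (key, coefficient) normalised by a merge sort with `Nat.blt`/`Nat.beq` (structural recursion, fuel = a literal or the
list length).  `t = v·t`, `u = v·u·f⁻¹`, `b' = v·rot_B^4·v⁻¹`, `bZ = f·z^10·f⁻¹`.  For products keep the right factor as words.
-/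

set_option autoImplicit false

namespace Crest.Agent.R251

/-- letters: `0..29` powers of `ρ`, `30 σ`, `31 t`, `32 t⁻¹`, `33 u`, `34 u⁻¹`, `35 b'`, `36 b'⁻¹`, `37 bZ`, `38 bZ⁻¹` -/
noncomputable def letter (n : ℕ) : G :=
  if n < 30 then gr ^ n else if n = 30 then gs else if n = 31 then gt else if n = 32 then gt⁻¹
  else if n = 33 then gu else if n = 34 then gu⁻¹ else if n = 35 then gbB else if n = 36 then gbB⁻¹
  else if n = 37 then gbZ else if n = 38 then gbZ⁻¹ else 1

/-- the element of a word -/
noncomputable def wordG (w : List ℕ) : G := (w.map letter).prod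

/-- ring expressions -/
inductive Ex
  | w (l : List ℕ)
  | z (n : ℤ)
  | lit (L : List (ℤ × List ℕ))
  | add (a b : Ex)
  | sub (a b : Ex)
  | neg (a : Ex)
  | mul (a b : Ex)
  | pow (a : Ex) (k : ℕ)
  | geo (a : Ex) (k : ℕ)

instance : Add Ex := ⟨.add⟩
instance : Sub Ex := ⟨.sub⟩
instance : Neg Ex := ⟨.neg⟩
instance : Mul Ex := ⟨.mul⟩
instance (n : ℕ) : OfNat Ex n := ⟨.z n⟩

/-- the value of an expression -/
noncomputable def Ex.ev : Ex → ZG G
  | .w l => og (wordG l)
  | .z n => (n : ZG G)
  | .lit L => (L.map fun p => (p.1 : ZG G) * og (wordG p.2)).sum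
  | .add a b => a.ev + b.ev
  | .sub a b => a.ev - b.ev
  | .neg a => -a.ev
  | .mul a b => a.ev * b.ev
  | .pow a k => a.ev ^ k
  | .geo a k => ∑ i ∈ Finset.range k, a.ev ^ i

namespace NF

/-! ### vertex groups -/

/-- rotations -/
noncomputable def rotG (v : ℕ) : G := if v = 0 then gr else if v = 1 then gs * gbB else gz

/-- reflections -/
noncomputable def reflG (v : ℕ) : G := if v = 0 then gs else if v = 1 then gc else gsp

/-- orders of the rotations -/
def ordv (v : ℕ) : ℕ := if v = 0 then 30 else if v = 1 then 6 else 15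

/-- the element coded by `c = 2 k + e` -/
noncomputable def elt (v c : ℕ) : G := rotG v ^ (c / 2) * reflG v ^ (c % 2)

theorem comB : Commute gs gbB := gs_gbB
theorem comZ : Commute ga gbZ := ga_gbZ

theorem gs_pow_two : gs ^ 2 = 1 := by rw [pow_two, gs_sq]

theorem rotB_two : (gs * gbB) ^ 2 = gbB⁻¹ := by
  rw [comB.mul_pow, gs_pow_two, one_mul, eq_inv_iff_mul_eq_one, ← pow_succ, gbB_pow]

theorem rotB_three : (gs * gbB) ^ 3 = gs := by
  rw [comB.mul_pow, gbB_pow, mul_one, pow_succ, gs_pow_two, one_mul]

theorem rotB_four : (gs * gbB) ^ 4 = gbB := by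
  rw [pow_succ, rotB_three, ← mul_assoc, gs_sq, one_mul]

theorem rotZ_three : gz ^ 3 = gr ^ 18 := by
  rw [gz, comZ.mul_pow, gbZ_pow, mul_one, ga, ← pow_mul]

theorem rotZ_five : gz ^ 5 = gbZ⁻¹ := by
  rw [gz, comZ.mul_pow, ga_pow, one_mul, eq_inv_iff_mul_eq_one, ← pow_succ,
    show 5 + 1 = 3 * 2 from rfl, pow_mul, gbZ_pow, one_pow]

theorem rotZ_six : gz ^ 6 = ga := by
  rw [gz, comZ.mul_pow, show 6 = 3 * 2 from rfl, pow_mul gbZ, gbZ_pow, one_pow, mul_one,
    show 3 * 2 = 5 + 1 from rfl, pow_succ, ga_pow, one_mul]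

theorem rotZ_ten : gz ^ 10 = gbZ := by
  rw [show 10 = 5 * 2 from rfl, pow_mul, rotZ_five, inv_pow, inv_eq_iff_mul_eq_one, ← pow_succ,
    gbZ_pow]

theorem rot_pow (v : ℕ) : rotG v ^ ordv v = 1 := by
  unfold rotG ordv
  split_ifs
  · exact gr_pow
  · rw [show 6 = 3 * 2 from rfl, pow_mul, rotB_three, gs_pow_two]
  · rw [show 15 = 5 * 3 from rfl, pow_mul, rotZ_five, inv_pow, gbZ_pow, inv_one]

theorem refl_sq (v : ℕ) : reflG v * reflG v = 1 := by
  unfold reflG
  split_ifs
  exacts [gs_sq, gc_sq, gsp_sq]

theorem refl_rot (v : ℕ) : reflG v * rotG v = (rotG v)⁻¹ * reflG v := by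
  unfold reflG rotG
  split_ifs
  · exact gs_gr
  · rw [← mul_assoc, ← gs_gc, mul_assoc, gc_gbB, _root_.mul_inv_rev,
      inv_eq_of_mul_eq_one_right gs_sq, ← mul_assoc, comB.inv_right.eq]
  · rw [gz, ← mul_assoc, gsp_ga, mul_assoc, gsp_gbZ, _root_.mul_inv_rev, ← mul_assoc,
      comZ.inv_inv.eq]

theorem ordv_pos (v : ℕ) : 0 < ordv v := by
  unfold ordv
  split_ifs <;> norm_num

theorem ordv_le (v : ℕ) : 2 * ordv v ≤ 64 := by
  unfold ordv
  split_ifs <;> norm_num

theorem elt_mk (v k e : ℕ) (he : e < 2) : elt v (2 * k + e) = rotG v ^ k * reflG v ^ e := by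
  rw [elt, show (2 * k + e) / 2 = k by omega, show (2 * k + e) % 2 = e by omega]

theorem elt_mod (v c : ℕ) : elt v (c % (2 * ordv v)) = elt v c := by
  rw [elt, elt, Nat.mod_mul_right_div_self, Nat.mod_mul_right_mod, ← pow_eq_pow_mod _ (rot_pow v)]

theorem elt_add (v k c : ℕ) : elt v (2 * k + c) = rotG v ^ k * elt v c := by
  rw [elt, elt, show (2 * k + c) / 2 = k + c / 2 by omega, show (2 * k + c) % 2 = c % 2 by omega,
    pow_add, mul_assoc]

/-- multiplication in a vertex group of order `n2` -/
def mulc (n2 c c' : ℕ) : ℕ :=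
  Bool.rec (motive := fun _ => ℕ) (Nat.mod (Nat.add c (Nat.mul (Nat.pred n2) c')) n2)
    (Nat.mod (Nat.add c c') n2) (Nat.beq (Nat.mod c 2) 0)

theorem mulc_lt (v c c' : ℕ) : mulc (2 * ordv v) c c' < 64 := by
  have h1 := ordv_pos v
  have h2 := ordv_le v
  unfold mulc
  cases Nat.beq (Nat.mod c 2) 0 <;> exact (Nat.mod_lt _ (by omega)).trans_le h2

theorem elt_mulc (v c c' : ℕ) : elt v (mulc (2 * ordv v) c c') = elt v c * elt v c' := by
  unfold mulc
  cases h : Nat.beq (Nat.mod c 2) 0
  · have h1 : c % 2 = 1 := by
      have : ¬ c % 2 = 0 := Nat.ne_of_beq_eq_false h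
      omega
    change elt v ((c + (2 * ordv v - 1) * c') % (2 * ordv v)) = _
    obtain ⟨n, hn⟩ : ∃ n, ordv v = n + 1 := ⟨ordv v - 1, by have := ordv_pos v; omega⟩
    have hr : rotG v ^ (n + 1) = 1 := hn ▸ rot_pow v
    have hinv : ∀ k, rotG v ^ ((2 * n + 1) * k) = (rotG v ^ k)⁻¹ := fun k => by
      rw [eq_inv_iff_mul_eq_one, ← pow_add, show (2 * n + 1) * k + k = (n + 1) * (2 * k) by ring,
        pow_mul, hr, one_pow]
    obtain ⟨k, rfl⟩ : ∃ k, c = 2 * k + 1 := ⟨c / 2, by omega⟩
    rw [elt_mod, hn, show 2 * (n + 1) - 1 = 2 * n + 1 by omega, elt_mk v k 1 one_lt_two, pow_one]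
    rcases Nat.even_or_odd' c' with ⟨k', rfl | rfl⟩
    · rw [show 2 * k + 1 + (2 * n + 1) * (2 * k') = 2 * (k + (2 * n + 1) * k') + 1 by ring,
        elt_mk _ _ 1 one_lt_two, ← add_zero (2 * k'), elt_mk _ _ 0 two_pos, pow_add, hinv, pow_zero,
        pow_one, mul_one, mul_assoc, mul_assoc, refl_pow_aux_pa (refl_rot v)]
    · rw [show 2 * k + 1 + (2 * n + 1) * (2 * k' + 1) = 2 * (k + (2 * n + 1) * k' + (n + 1)) + 0 by
          ring, elt_mk _ _ 0 two_pos, elt_mk _ _ 1 one_lt_two, pow_add, pow_add, hinv, hr, pow_zero,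
        pow_one, mul_one, mul_one, mul_assoc, ← mul_assoc (reflG v), refl_pow_aux_pa (refl_rot v),
        mul_assoc, refl_sq, mul_one]
  · have h1 : c % 2 = 0 := Nat.eq_of_beq_eq_true h
    change elt v ((c + c') % (2 * ordv v)) = _
    obtain ⟨k, rfl⟩ : ∃ k, c = 2 * k := ⟨c / 2, by omega⟩
    rw [elt_mod, elt_add, ← add_zero (2 * k), elt_mk _ _ 0 two_pos, pow_zero, mul_one]

/-- powers in a vertex group -/
def powc (n2 c : ℕ) : ℕ → ℕ
  | 0 => 0
  | q + 1 => mulc n2 (powc n2 c q) c

theorem elt_zero (v : ℕ) : elt v 0 = 1 := by simp [elt]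

theorem elt_powc (v c q : ℕ) : elt v (powc (2 * ordv v) c q) = elt v c ^ q := by
  induction q with
  | zero => rw [powc, elt_zero, pow_zero]
  | succ q ih => rw [powc, elt_mulc, ih, pow_succ]

/-! ### edges: `1 v, 2 f, 3 t, 4 u` and the inverse of `ε` is `9 - ε` -/

/-- source -/
def src (ε : ℕ) : ℕ :=
  if ε = 1 ∨ ε = 2 ∨ ε = 6 then 0 else if ε = 3 ∨ ε = 4 ∨ ε = 8 then 1 else 2

/-- stable letter -/
noncomputable def st (ε : ℕ) : G :=
  if ε = 3 then gt else if ε = 6 then gt⁻¹ else if ε = 4 then gu else if ε = 5 then gu⁻¹ else 1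

/-- value of a digit -/
noncomputable def dval (x : ℕ) : G := rotG (src (x % 16)) ^ (x / 16) * st (x % 16)

/-- value of a prefix -/
noncomputable def valP (p : ℕ) : G :=
  if _h : p = 0 then 1 else valP (p / 256) * dval (p % 256)
decreasing_by omega

/-- value of a key at the vertex `v` -/
noncomputable def valK (v key : ℕ) : G := valP (key / 64) * elt v (key % 64)

theorem valK_mk (v p c : ℕ) (hc : c < 64) : valK v (p * 64 + c) = valP p * elt v c := by
  rw [valK, show (p * 64 + c) / 64 = p by omega, show (p * 64 + c) % 64 = c by omega]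

/-- right multiplication of a key by an element of the vertex group -/
def mulK (n2 c key : ℕ) : ℕ := Nat.add (Nat.mul (Nat.div key 64) 64) (mulc n2 (Nat.mod key 64) c)

theorem valK_mulK (v c key : ℕ) : valK v (mulK (2 * ordv v) c key) = valK v key * elt v c := by
  change valK v (key / 64 * 64 + mulc (2 * ordv v) (key % 64) c) = _
  rw [valK_mk _ _ _ (mulc_lt _ _ _), elt_mulc, valK, mul_assoc]

/-- table lookup -/
def look (T c : ℕ) : ℕ := Nat.mod (Nat.shiftRight T (Nat.mul 16 c)) 65536

/-- force a natural number -/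
def forceN {α : Type} (n : ℕ) (f : ℕ → α) : α :=
  Nat.rec (motive := fun _ => α) (f 0) (fun m _ => f m) (Nat.succ n)

theorem forceN_eq {α : Type} (n : ℕ) (f : ℕ → α) : forceN n f = f n := rfl

/-- crossing an edge -/
def cross (T ε n2 key₀ : ℕ) : ℕ :=
  forceN key₀ fun key => forceN (look T (Nat.mod key 64)) fun y =>
    Bool.rec (motive := fun _ => ℕ) (Nat.add (Nat.mul (Nat.div key 64) 16384) y)
      (Bool.rec (motive := fun _ => ℕ) (Nat.add (Nat.mul (Nat.div key 64) 16384) y)
        (Nat.add (Nat.mul (Nat.div key 16384) 64)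
          (Nat.mod (Nat.add (Nat.mul 2 (Nat.mod (Nat.div key 1024) 16)) (Nat.mod y 64)) n2))
        (Nat.beq (Nat.add (Nat.mod (Nat.div key 64) 16) ε) 9))
      (Nat.ble y 1023)

/-- the table is correct -/
def TabOK (T ε d m R S : ℕ) : Prop :=
  ∀ c < 64, look T c < 16384 ∧ look T c / 64 % 16 = ε ∧
    look T c / 1024 = (c / 2 + c % 2 * (ordv (src ε) - m)) % d ∧
    look T c % 64 = mulc (2 * ordv (src (9 - ε)))
      (powc (2 * ordv (src (9 - ε))) R ((c / 2 + c % 2 * (ordv (src ε) - m)) / d))
      (powc (2 * ordv (src (9 - ε))) S (c % 2))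

instance (T ε d m R S : ℕ) : Decidable (TabOK T ε d m R S) := by
  unfold TabOK
  infer_instance

theorem valK_cross {T ε d m R S : ℕ} (hT : TabOK T ε d m R S) (h0 : 0 < ε) (h8 : ε < 9)
    (hm : m ≤ ordv (src ε)) (hst : st (9 - ε) * st ε = 1)
    (hR : rotG (src ε) ^ d * st ε = st ε * elt (src (9 - ε)) R)
    (hS : rotG (src ε) ^ m * reflG (src ε) * st ε = st ε * elt (src (9 - ε)) S) (key : ℕ) :
    valK (src (9 - ε)) (cross T ε (2 * ordv (src (9 - ε))) key) = valK (src ε) key * st ε := by
  obtain ⟨h1, h2, h3, h4⟩ := hT (key % 64) (Nat.mod_lt _ (by norm_num))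
  set y := look T (key % 64) with hy
  set c := key % 64 with hc
  have key1 : elt (src ε) c * st ε = rotG (src ε) ^ (y / 1024) * st ε * elt (src (9 - ε)) (y % 64) := by
    have sR : SemiconjBy (st ε) (elt (src (9 - ε)) R) (rotG (src ε) ^ d) := hR.symm
    have sS : SemiconjBy (st ε) (elt (src (9 - ε)) S) (rotG (src ε) ^ m * reflG (src ε)) := hS.symm
    rw [h3, h4, elt_mulc, elt_powc, elt_powc, mul_assoc, ← mul_assoc (st ε), (sR.pow_right _).eq,
      mul_assoc, (sS.pow_right _).eq, ← pow_mul, ← mul_assoc, ← mul_assoc, ← pow_add,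
      Nat.mod_add_div, elt]
    congr 1
    rcases Nat.mod_two_eq_zero_or_one c with h | h <;> rw [h]
    · simp
    · rw [one_mul, pow_one, pow_one, ← mul_assoc, ← pow_add,
        show c / 2 + (ordv (src ε) - m) + m = c / 2 + ordv (src ε) by omega, pow_add, rot_pow,
        mul_one]
  have push : valK (src (9 - ε)) (key / 64 * 16384 + y) = valK (src ε) key * st ε := by
    rw [show key / 64 * 16384 + y = (key / 64 * 256 + y / 64) * 64 + y % 64 by omega,
      valK_mk _ _ _ (Nat.mod_lt _ (by norm_num)), valP, dif_neg (by omega),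
      show (key / 64 * 256 + y / 64) / 256 = key / 64 by omega,
      show (key / 64 * 256 + y / 64) % 256 = y / 64 by omega, dval, h2,
      show y / 64 / 16 = y / 1024 by omega, valK, ← hc, mul_assoc (valP _) (elt _ c), key1,
      mul_assoc]
  unfold cross
  rw [forceN_eq, forceN_eq]
  cases hb : Nat.ble (look T (Nat.mod key 64)) 1023
  · exact push
  cases hb' : Nat.beq (Nat.add (Nat.mod (Nat.div key 64) 16) ε) 9
  · exact push
  have hb1 : y ≤ 1023 := Nat.le_of_ble_eq_true hb
  have hb2 : key / 64 % 16 + ε = 9 := Nat.eq_of_beq_eq_true hb'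
  change valK _ (key / 16384 * 64 + (2 * (key / 1024 % 16) + y % 64) % (2 * ordv (src (9 - ε)))) = _
  have h5 := ordv_pos (src (9 - ε))
  have h6 := ordv_le (src (9 - ε))
  rw [valK_mk _ _ _ ((Nat.mod_lt _ (by omega)).trans_le h6), elt_mod, elt_add, valK,
    valP.eq_1 (key / 64), dif_neg (by omega), show key / 64 / 256 = key / 16384 by omega, dval,
    show key / 64 % 256 % 16 = 9 - ε by omega, show key / 64 % 256 / 16 = key / 1024 % 16 by omega,
    mul_assoc, mul_assoc, mul_assoc, ← hc, key1, show y / 1024 = 0 by omega, pow_zero, one_mul,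
    ← mul_assoc (st _), hst, one_mul]

/-- crossing table of the edge `1` -/
def tab1 : ℕ := 3000955404790660574878189827332707571769137886605824662480389545779286416923230586345826487698265821016319774061913529258664747972409299892630768846761898465788653945572836073664585147990419835284583547520585273558655881733116617640411642512438008790293635841230699967829964796105043464102020414407333773376

/-- crossing table of the edge `2` -/
def tab2 : ℕ := 11655318804099223436774007919795132101569184602110557500627821521480892618247432866365320214108446662579496463821559740872194381126253149728131716184064316832580588688810931935163693512247727813709656410325092309286951733787086728171439778181049686476953933818034189865748323299585449171419510619647055036544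

/-- crossing table of the edge `3` -/
def tab3 : ℕ := 3338357392643065880260083539484603706326402869104743955967069705665235348447866266681910792967115684048829976425737868371476120077187726399800274565312517110571630570975995496912708508627845208935737374591558742057914858388667371907521616894237846681070480307372219795186162014667244490436007442153440608448

/-- crossing table of the edge `4` -/
def tab4 : ℕ := 3513916041656857317041460715360849350564431461907012852100583311641659396699832830872500083393986251095306202069922919623403702371408381475706663183980260395394413238325790603264022951169372636228062161402001107336086890008407433415450090508188336130515970123075160339340222430559492907819342339130987184384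

/-- crossing table of the edge `5` -/
def tab5 : ℕ := 3689474690670648754277872008500908181417559386186777138736065799022814734009411556660214056311080043607151759795939559661196229802319865054489206289030972954699779447315493677529007992725637244807431755100483340065517419769038552443786747325779838338732523289381876164949845913220171350530577227072892109120

/-- crossing table of the edge `6` -/
def tab6 : ℕ := 3865033339684440191820018643175084630494281091559482188922108399122255280239207203888849068576797420439006209811766047356835543272924973587112054751796148485921209386167764076678057802255853932889871199012203425670286669561847836632428783676782750820825494294487809219567480330638037116586053840683543888256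

/-- crossing table of the edge `7` -/
def tab7 : ℕ := 4122883849749297024763293318442826427963077148958177667445924677252239052611011445810255374278439231515803716742492399324439029527541735507621607473749314717598930222518915893248787544953580585786985548734859391605184728964791780013188365218886177880446382426936110026502493847519431810046764546704780755392

/-- crossing table of the edge `8` -/
def tab8 : ℕ := 4295699436728052948300422523085392922030308029070518135640194334723048827120867317921689314575565230107259545543202765464569434010445659897852755163567346372436676315986815320632002355238372003706170805322873825439188669266396484345471603688636232594566924384452200796534326036406976895821434071213854818816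

theorem elt_one (v : ℕ) : elt v 1 = reflG v := by simp [elt]

theorem elt_rot (v k : ℕ) : elt v (2 * k) = rotG v ^ k := by
  rw [← add_zero (2 * k), elt_mk _ _ 0 two_pos, pow_zero, mul_one]

theorem cross1 (key : ℕ) : valK 1 (cross tab1 1 12 key) = valK 0 key := by
  refine (valK_cross (T := tab1) (ε := 1) (d := 15) (m := 0) (R := 1) (S := 6) (by decide +kernel)
    (by norm_num) (by norm_num) (by norm_num) (mul_one _) ?_ ?_ key).trans (mul_one _)
  · change gr ^ 15 * 1 = 1 * elt 1 1
    rw [elt_one, mul_one, one_mul]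
    rfl
  · change gr ^ 0 * gs * 1 = 1 * elt 1 (2 * 3)
    rw [elt_rot, pow_zero, one_mul, mul_one, one_mul]
    exact rotB_three.symm

theorem cross8 (key : ℕ) : valK 0 (cross tab8 8 60 key) = valK 1 key := by
  refine (valK_cross (T := tab8) (ε := 8) (d := 3) (m := 0) (R := 1) (S := 30) (by decide +kernel)
    (by norm_num) (by norm_num) (by norm_num) (mul_one _) ?_ ?_ key).trans (mul_one _)
  · change (gs * gbB) ^ 3 * 1 = 1 * elt 0 1
    rw [elt_one, mul_one, one_mul]
    exact rotB_three
  · change (gs * gbB) ^ 0 * gc * 1 = 1 * elt 0 (2 * 15)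
    rw [elt_rot, pow_zero, one_mul, mul_one, one_mul]
    rfl

theorem cross2 (key : ℕ) : valK 2 (cross tab2 2 30 key) = valK 0 key := by
  refine (valK_cross (T := tab2) (ε := 2) (d := 6) (m := 15) (R := 12) (S := 1) (by decide +kernel)
    (by norm_num) (by norm_num) (by decide) (mul_one _) ?_ ?_ key).trans (mul_one _)
  · change gr ^ 6 * 1 = 1 * elt 2 (2 * 6)
    rw [elt_rot, mul_one, one_mul]
    exact rotZ_six.symm
  · change gc * gs * 1 = 1 * elt 2 1
    rw [elt_one, mul_one, one_mul]
    exact gs_gc.symm

theorem cross7 (key : ℕ) : valK 0 (cross tab7 7 60 key) = valK 2 key := by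
  refine (valK_cross (T := tab7) (ε := 7) (d := 3) (m := 0) (R := 36) (S := 31) (by decide +kernel)
    (by norm_num) (by norm_num) (by norm_num) (mul_one _) ?_ ?_ key).trans (mul_one _)
  · change gz ^ 3 * 1 = 1 * elt 0 (2 * 18)
    rw [elt_rot, mul_one, one_mul]
    exact rotZ_three
  · change gz ^ 0 * gsp * 1 = 1 * elt 0 (2 * 15 + 1)
    rw [elt_mk _ _ _ one_lt_two, pow_zero, one_mul, mul_one, one_mul, pow_one]
    exact gs_gc

theorem cross3 (key : ℕ) : valK 0 (cross tab3 3 60 key) = valK 1 key * gt := by
  refine valK_cross (T := tab3) (ε := 3) (d := 2) (m := 0) (R := 40) (S := 1) (by decide +kernel)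
    (by norm_num) (by norm_num) (by norm_num) (inv_mul_cancel gt) ?_ ?_ key
  · change (gs * gbB) ^ 2 * gt = gt * elt 0 (2 * 20)
    have h : gr ^ 20 = gb⁻¹ := by
      rw [eq_inv_iff_mul_eq_one, gb, ← pow_add]
      exact gr_pow
    rw [elt_rot, rotB_two, show rotG 0 = gr from rfl, h, gbB]
    group
  · change (gs * gbB) ^ 0 * gc * gt = gt * elt 0 1
    rw [elt_one, pow_zero, one_mul]
    exact gt_gs.symm

theorem cross6 (key : ℕ) : valK 1 (cross tab6 6 12 key) = valK 0 key * gt⁻¹ := by
  refine valK_cross (T := tab6) (ε := 6) (d := 10) (m := 0) (R := 8) (S := 1) (by decide +kernel)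
    (by norm_num) (by norm_num) (by norm_num) (mul_inv_cancel gt) ?_ ?_ key
  · change gb * gt⁻¹ = gt⁻¹ * elt 1 (2 * 4)
    rw [elt_rot, show rotG 1 = gs * gbB from rfl, rotB_four, gbB]
    group
  · change gr ^ 0 * gs * gt⁻¹ = gt⁻¹ * elt 1 1
    rw [elt_one, pow_zero, one_mul, show reflG 1 = gc from rfl, ← gt_conj_pa]
    group

theorem cross4 (key : ℕ) : valK 2 (cross tab4 4 30 key) = valK 1 key * gu := by
  refine valK_cross (T := tab4) (ε := 4) (d := 2) (m := 0) (R := 10) (S := 1) (by decide +kernel)
    (by norm_num) (by norm_num) (by norm_num) (inv_mul_cancel gu) ?_ ?_ key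
  · change (gs * gbB) ^ 2 * gu = gu * elt 2 (2 * 5)
    rw [elt_rot, rotB_two, show rotG 2 = gz from rfl, rotZ_five, gbZ]
    group
  · change (gs * gbB) ^ 0 * gc * gu = gu * elt 2 1
    rw [elt_one, pow_zero, one_mul]
    exact gu_gsp.symm

theorem cross5 (key : ℕ) : valK 1 (cross tab5 5 12 key) = valK 2 key * gu⁻¹ := by
  refine valK_cross (T := tab5) (ε := 5) (d := 5) (m := 0) (R := 4) (S := 1) (by decide +kernel)
    (by norm_num) (by norm_num) (by norm_num) (mul_inv_cancel gu) ?_ ?_ key
  · change gz ^ 5 * gu⁻¹ = gu⁻¹ * elt 1 (2 * 2)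
    rw [elt_rot, show rotG 1 = gs * gbB from rfl, rotB_two, rotZ_five, gbZ]
    group
  · change gz ^ 0 * gsp * gu⁻¹ = gu⁻¹ * elt 1 1
    rw [elt_one, pow_zero, one_mul, show reflG 1 = gc from rfl, ← gu_conj_pa]
    group

/-- right multiplication of a key by a letter -/
def mulL (key l : ℕ) : ℕ :=
  Bool.rec (motive := fun _ => ℕ)
    (Bool.rec (motive := fun _ => ℕ)
      (Bool.rec (motive := fun _ => ℕ)
        (Bool.rec (motive := fun _ => ℕ)
          (Bool.rec (motive := fun _ => ℕ) key (cross tab7 7 60 (mulK 30 10 (cross tab2 2 30 key)))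
            (Nat.beq l 38))
          (cross tab7 7 60 (mulK 30 20 (cross tab2 2 30 key))) (Nat.beq l 37))
        (Bool.rec (motive := fun _ => ℕ) (cross tab8 8 60 (mulK 12 4 (cross tab1 1 12 key)))
          (cross tab8 8 60 (mulK 12 8 (cross tab1 1 12 key))) (Nat.beq l 35))
        (Nat.ble l 36))
      (Bool.rec (motive := fun _ => ℕ)
        (Bool.rec (motive := fun _ => ℕ) (cross tab8 8 60 (cross tab5 5 12 (cross tab2 2 30 key)))
          (cross tab7 7 60 (cross tab4 4 30 (cross tab1 1 12 key))) (Nat.beq l 33))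
        (Bool.rec (motive := fun _ => ℕ)
          (Bool.rec (motive := fun _ => ℕ) (cross tab8 8 60 (cross tab6 6 12 key))
            (cross tab3 3 60 (cross tab1 1 12 key)) (Nat.beq l 31))
          (mulK 60 1 key) (Nat.beq l 30))
        (Nat.ble l 32))
      (Nat.ble l 34))
    (mulK 60 (Nat.mul 2 l) key) (Nat.ble l 29)

theorem valK_mulL (key l : ℕ) : valK 0 (mulL key l) = valK 0 key * letter l := by
  have hA : ∀ c key, valK 0 (mulK 60 c key) = valK 0 key * elt 0 c := valK_mulK 0
  have hB : ∀ c key, valK 1 (mulK 12 c key) = valK 1 key * elt 1 c := valK_mulK 1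
  have hZ : ∀ c key, valK 2 (mulK 30 c key) = valK 2 key * elt 2 c := valK_mulK 2
  by_cases h : l < 30
  · have : Nat.ble l 29 = true := Nat.ble_eq_true_of_le (by omega)
    rw [mulL, this, letter, if_pos h]
    exact (hA (2 * l) key).trans (by rw [elt_rot]; rfl)
  by_cases h' : 39 ≤ l
  · have e1 : Nat.ble l 29 = false := Bool.eq_false_iff.2 fun h => by
      have := Nat.le_of_ble_eq_true h; omega
    have e2 : Nat.ble l 34 = false := Bool.eq_false_iff.2 fun h => by
      have := Nat.le_of_ble_eq_true h; omega
    have e3 : Nat.ble l 36 = false := Bool.eq_false_iff.2 fun h => by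
      have := Nat.le_of_ble_eq_true h; omega
    have e4 : Nat.beq l 37 = false := Bool.eq_false_iff.2 fun h => by
      have := Nat.eq_of_beq_eq_true h; omega
    have e5 : Nat.beq l 38 = false := Bool.eq_false_iff.2 fun h => by
      have := Nat.eq_of_beq_eq_true h; omega
    rw [mulL, e1, e2, e3, e4, e5, letter, if_neg h, if_neg (by omega), if_neg (by omega),
      if_neg (by omega), if_neg (by omega), if_neg (by omega), if_neg (by omega), if_neg (by omega),
      if_neg (by omega), if_neg (by omega), mul_one]
  obtain rfl | rfl | rfl | rfl | rfl | rfl | rfl | rfl | rfl :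
    l = 30 ∨ l = 31 ∨ l = 32 ∨ l = 33 ∨ l = 34 ∨ l = 35 ∨ l = 36 ∨ l = 37 ∨ l = 38 := by omega
  · change valK 0 (mulK 60 1 key) = _ * gs
    rw [hA, elt_one]
    rfl
  · change valK 0 (cross tab3 3 60 (cross tab1 1 12 key)) = _ * gt
    rw [cross3, cross1]
  · change valK 0 (cross tab8 8 60 (cross tab6 6 12 key)) = _ * gt⁻¹
    rw [cross8, cross6]
  · change valK 0 (cross tab7 7 60 (cross tab4 4 30 (cross tab1 1 12 key))) = _ * gu
    rw [cross7, cross4, cross1]
  · change valK 0 (cross tab8 8 60 (cross tab5 5 12 (cross tab2 2 30 key))) = _ * gu⁻¹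
    rw [cross8, cross5, cross2]
  · change valK 0 (cross tab8 8 60 (mulK 12 (2 * 4) (cross tab1 1 12 key))) = _ * gbB
    rw [cross8, hB, cross1, elt_rot]
    exact congrArg _ rotB_four
  · change valK 0 (cross tab8 8 60 (mulK 12 (2 * 2) (cross tab1 1 12 key))) = _ * gbB⁻¹
    rw [cross8, hB, cross1, elt_rot]
    exact congrArg _ rotB_two
  · change valK 0 (cross tab7 7 60 (mulK 30 (2 * 10) (cross tab2 2 30 key))) = _ * gbZ
    rw [cross7, hZ, cross2, elt_rot]
    exact congrArg _ rotZ_ten
  · change valK 0 (cross tab7 7 60 (mulK 30 (2 * 5) (cross tab2 2 30 key))) = _ * gbZ⁻¹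
    rw [cross7, hZ, cross2, elt_rot]
    exact congrArg _ rotZ_five

/-- right multiplication of a key by a word -/
noncomputable def runW (l : List ℕ) : ℕ → ℕ :=
  List.rec (motive := fun _ => ℕ → ℕ) (fun key => key)
    (fun x _ ih key => forceN (mulL key x) ih) l

theorem valK_runW (l : List ℕ) (key : ℕ) : valK 0 (runW l key) = valK 0 key * wordG l := by
  induction l generalizing key with
  | nil => exact (mul_one _).symm
  | cons x t ih =>
    change valK 0 (runW t (mulL key x)) = valK 0 key * (letter x * wordG t)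
    rw [ih, valK_mulL, mul_assoc]

/-! ### polynomials -/

/-- lists of terms -/
inductive PL
  | nil
  | cons (k : ℕ) (c : ℤ) (t : PL)

/-- value of a list of terms -/
noncomputable def PL.val : PL → ZG G
  | .nil => 0
  | .cons k c t => (c : ZG G) * og (valK 0 k) + t.val

/-- force an integer -/
noncomputable def forceI {α : Type} (z : ℤ) (f : ℤ → α) : α :=
  Int.rec (motive := fun _ => α) (fun n => forceN n fun n => f (Int.ofNat n))
    (fun n => forceN n fun n => f (Int.negSucc n)) z

theorem forceI_eq {α : Type} (z : ℤ) (f : ℤ → α) : forceI z f = f z := by cases z <;> rfl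

/-- force a list of terms -/
noncomputable def forceL {α : Type} (P : PL) (f : PL → α) : α :=
  PL.rec (motive := fun _ => α) (f .nil) (fun k c t _ => f (.cons k c t)) P

theorem forceL_eq {α : Type} (P : PL) (f : PL → α) : forceL P f = f P := by cases P <;> rfl

/-- `acc + s * P * l` -/
noncomputable def mapW (l : List ℕ) (s : ℤ) (P : PL) : PL → PL :=
  PL.rec (motive := fun _ => PL → PL) (fun acc => acc)
    (fun k c _ ih acc => forceN (runW l k) fun k' => forceI (Int.mul s c) fun c' =>
      ih (.cons k' c' acc)) P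

theorem val_mapW (l : List ℕ) (s : ℤ) (P acc : PL) :
    (mapW l s P acc).val = acc.val + (s : ZG G) * P.val * og (wordG l) := by
  induction P generalizing acc with
  | nil =>
    change acc.val = acc.val + (s : ZG G) * 0 * _
    simp
  | cons k c t ih =>
    change (forceI (s * c) fun c' => mapW l s t (.cons (runW l k) c' acc)).val = _
    rw [forceI_eq, ih, PL.val, PL.val, valK_runW, og_mul_pa, Int.cast_mul]
    noncomm_ring

/-- reverse append -/
noncomputable def revApp (P : PL) : PL → PL :=
  PL.rec (motive := fun _ => PL → PL) (fun acc => acc)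
    (fun k c _ ih acc => forceL (.cons k c acc) ih) P

theorem val_revApp (P acc : PL) : (revApp P acc).val = P.val + acc.val := by
  induction P generalizing acc with
  | nil => exact (zero_add _).symm
  | cons k c t ih =>
    change (revApp t (.cons k c acc)).val = _
    rw [ih, PL.val, PL.val]
    abel

/-- push a term unless its coefficient vanishes -/
noncomputable def pushT (k : ℕ) (c : ℤ) (acc : PL) (f : PL → PL) : PL :=
  Int.rec (motive := fun _ => PL)
    (fun n => forceN n fun n =>
      Bool.rec (motive := fun _ => PL) (f (.cons k (Int.ofNat n) acc)) (f acc) (Nat.beq n 0))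
    (fun n => forceN n fun n => f (.cons k (Int.negSucc n) acc)) c

theorem val_pushT (k : ℕ) (c : ℤ) (acc : PL) (f : PL → PL) (x : ZG G)
    (hf : ∀ a, (f a).val = x + a.val) :
    (pushT k c acc f).val = x + ((c : ZG G) * og (valK 0 k) + acc.val) := by
  cases c with
  | ofNat n =>
    cases n with
    | zero =>
      change (f acc).val = x + (((0 : ℤ) : ZG G) * _ + _)
      rw [hf, Int.cast_zero, zero_mul, zero_add]
    | succ n => exact hf _
  | negSucc n => exact hf _

/-- one step of the merge -/
noncomputable def mstep (le : ℕ → ℕ → Bool) (a : ℕ) (c : ℤ) (ih₁ : PL → PL → PL) (b : ℕ) (d : ℤ)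
    (t₂ : PL) (ih₂ : PL → PL) (acc : PL) : PL :=
  Bool.rec (motive := fun _ => PL) (ih₂ (.cons b d acc))
    (Bool.rec (motive := fun _ => PL) (ih₁ (.cons b d t₂) (.cons a c acc))
      (pushT a (Int.add c d) acc (ih₁ t₂)) (Nat.beq a b))
    (le a b)

/-- merge two sorted lists onto an accumulator -/
noncomputable def merge (le : ℕ → ℕ → Bool) (P : PL) : PL → PL → PL :=
  PL.rec (motive := fun _ => PL → PL → PL) revApp
    (fun a c t₁ ih₁ Q => PL.rec (motive := fun _ => PL → PL) (revApp (.cons a c t₁))
      (fun b d t₂ ih₂ => mstep le a c ih₁ b d t₂ ih₂) Q) P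

theorem val_merge (le : ℕ → ℕ → Bool) (P Q acc : PL) :
    (merge le P Q acc).val = P.val + Q.val + acc.val := by
  induction P generalizing Q acc with
  | nil =>
    change (revApp Q acc).val = 0 + _ + _
    rw [val_revApp, zero_add]
  | cons a c t₁ ih₁ =>
    induction Q generalizing acc with
    | nil =>
      change (revApp (.cons a c t₁) acc).val = _ + 0 + _
      rw [val_revApp, add_zero]
    | cons b d t₂ ih₂ =>
      change (mstep le a c (merge le t₁) b d t₂ (merge le (.cons a c t₁) t₂) acc).val = _
      unfold mstep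
      cases le a b
      · change (merge le (.cons a c t₁) t₂ (.cons b d acc)).val = _
        rw [ih₂, PL.val, PL.val, PL.val]
        abel
      · cases h : Nat.beq a b
        · change (merge le t₁ (.cons b d t₂) (.cons a c acc)).val = _
          rw [ih₁, PL.val, PL.val, PL.val]
          abel
        · obtain rfl : a = b := Nat.eq_of_beq_eq_true h
          change (pushT a (c + d) acc (merge le t₁ t₂)).val = _
          rw [val_pushT _ _ _ _ _ (ih₁ t₂), PL.val, PL.val, Int.cast_add, add_mul]
          abel

/-- lists of runs -/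
inductive LL
  | nil
  | cons (P : PL) (t : LL)

/-- value of a list of runs -/
noncomputable def LL.val : LL → ZG G
  | .nil => 0
  | .cons P t => P.val + t.val

/-- split into singletons -/
noncomputable def runs (P : PL) : LL → LL :=
  PL.rec (motive := fun _ => LL → LL) (fun acc => acc)
    (fun k c _ ih acc => forceL (.cons k c .nil) fun R => ih (.cons R acc)) P

theorem val_runs (P : PL) (acc : LL) : (runs P acc).val = P.val + acc.val := by
  induction P generalizing acc with
  | nil => exact (zero_add _).symm
  | cons k c t ih =>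
    change (runs t (.cons (.cons k c .nil) acc)).val = _
    rw [ih, LL.val, PL.val, PL.val, PL.val]
    abel

/-- merge the runs in pairs; the state is the pending run, if any -/
noncomputable def pass (le : ℕ → ℕ → Bool) (L : LL) : Option PL → LL → LL :=
  LL.rec (motive := fun _ => Option PL → LL → LL)
    (fun o acc => Option.rec (motive := fun _ => LL) acc
      (fun P => forceL (revApp P .nil) fun R => .cons R acc) o)
    (fun Q _ ih o acc => Option.rec (motive := fun _ => LL) (ih (some Q) acc)
      (fun P => forceL (merge le P Q .nil) fun R => ih none (.cons R acc)) o) L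

theorem val_pass (le : ℕ → ℕ → Bool) (L : LL) (acc : LL) :
    (pass le L none acc).val = L.val + acc.val ∧
      ∀ P, (pass le L (some P) acc).val = P.val + L.val + acc.val := by
  induction L generalizing acc with
  | nil =>
    refine ⟨(zero_add _).symm, fun P => ?_⟩
    change (forceL (revApp P .nil) fun R => LL.cons R acc).val = _
    rw [forceL_eq, LL.val, LL.val, val_revApp, PL.val]
  | cons Q t ih =>
    refine ⟨(ih acc).2 Q, fun P => ?_⟩
    change (forceL (merge le P Q .nil) fun R => pass le t none (.cons R acc)).val = _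
    rw [forceL_eq, (ih _).1, LL.val, LL.val, val_merge, PL.val]
    abel

/-- concatenate the runs -/
noncomputable def flat (L : LL) : PL :=
  LL.rec (motive := fun _ => PL) .nil (fun P _ ih => revApp P ih) L

theorem val_flat (L : LL) : (flat L).val = L.val := by
  induction L with
  | nil => rfl
  | cons P t ih =>
    change (revApp P (flat t)).val = _
    rw [val_revApp, ih, LL.val]

/-- repeated passes, alternating the direction -/
noncomputable def passes (n : ℕ) : (ℕ → ℕ → Bool) → (ℕ → ℕ → Bool) → LL → PL :=
  Nat.rec (motive := fun _ => (ℕ → ℕ → Bool) → (ℕ → ℕ → Bool) → LL → PL) (fun _ _ L => flat L)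
    (fun _ ih le ge L => LL.rec (motive := fun _ => PL) .nil
      (fun P t _ => LL.rec (motive := fun _ => PL) P
        (fun Q t' _ => ih ge le (pass le (.cons Q t') (some P) .nil)) t) L) n

theorem val_passes (n : ℕ) (le ge : ℕ → ℕ → Bool) (L : LL) : (passes n le ge L).val = L.val := by
  induction n generalizing le ge L with
  | zero => exact val_flat L
  | succ n ih =>
    rcases L with _ | ⟨P, _ | ⟨Q, t⟩⟩
    · rfl
    · exact (add_zero _).symm
    · change (passes n ge le (pass le (.cons Q t) (some P) .nil)).val = _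
      rw [ih, (val_pass _ _ _).2]
      exact add_zero _

/-- sort and collect -/
noncomputable def norm (P : PL) : PL :=
  passes 40 Nat.ble (fun a b => Nat.ble b a) (runs P .nil)

theorem val_norm (P : PL) : (norm P).val = P.val := by
  rw [norm, val_passes, val_runs, LL.val, add_zero]

/-- normalise unless the last factor was a word -/
noncomputable def nrm : Ex → PL → PL
  | .w _, P => P
  | _, P => norm P

theorem val_nrm (e : Ex) (P : PL) : (nrm e P).val = P.val := by
  cases e <;> first | rfl | exact val_norm P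

/-- `acc + s * P * L` -/
noncomputable def actLit (L : List (ℤ × List ℕ)) (s : ℤ) (P : PL) : PL → PL :=
  List.rec (motive := fun _ => PL → PL) (fun acc => acc)
    (fun p _ ih acc => forceI (Int.mul s p.1) fun s' => forceL (mapW p.2 s' P acc) ih) L

theorem cast_comm (n : ℤ) (x : ZG G) : x * (n : ZG G) = (n : ZG G) * x := (Int.cast_comm n x).symm

theorem val_actLit (L : List (ℤ × List ℕ)) (s : ℤ) (P acc : PL) :
    (actLit L s P acc).val = acc.val + (s : ZG G) * P.val * (Ex.lit L).ev := by
  induction L generalizing acc with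
  | nil =>
    change acc.val = acc.val + _ * 0
    simp
  | cons p t ih =>
    change (forceI (s * p.1) fun s' => forceL (mapW p.2 s' P acc) (actLit t s P)).val =
      acc.val + (s : ZG G) * P.val * ((p.1 : ZG G) * og (wordG p.2) + (Ex.lit t).ev)
    rw [forceI_eq, forceL_eq, ih, val_mapW, Int.cast_mul, mul_add, ← mul_assoc _ (p.1 : ZG G),
      mul_assoc _ P.val (p.1 : ZG G), cast_comm _ P.val, ← mul_assoc, add_assoc]

/-- `P * x ^ k` -/
noncomputable def iter (f : PL → PL) (k : ℕ) : PL → PL :=
  Nat.rec (motive := fun _ => PL → PL) (fun P => P) (fun _ ih P => forceL (f P) ih) k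

theorem val_iter (f : PL → PL) (x : ZG G) (hf : ∀ P, (f P).val = P.val * x) (k : ℕ) (P : PL) :
    (iter f k P).val = P.val * x ^ k := by
  induction k generalizing P with
  | zero => exact (mul_one _).symm
  | succ k ih =>
    change (forceL (f P) (iter f k)).val = _
    rw [forceL_eq, ih, hf, pow_succ', mul_assoc]

/-- `acc + s * P * (1 + x + ⋯)` -/
noncomputable def geoI (f : PL → PL) (s : ℤ) (k : ℕ) : PL → PL → PL :=
  Nat.rec (motive := fun _ => PL → PL → PL) (fun _ acc => acc)
    (fun _ ih P acc => forceL (mapW [] s P acc) fun acc' => forceL (f P) fun Q => ih Q acc') k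

theorem wordG_nil : og (wordG []) = 1 := map_one _

theorem val_geoI (f : PL → PL) (x : ZG G) (hf : ∀ P, (f P).val = P.val * x) (s : ℤ) (k : ℕ)
    (P acc : PL) :
    (geoI f s k P acc).val = acc.val + (s : ZG G) * P.val * ∑ i ∈ Finset.range k, x ^ i := by
  induction k generalizing P acc with
  | zero =>
    change acc.val = _
    simp
  | succ k ih =>
    change (forceL (mapW [] s P acc) fun acc' => forceL (f P) fun Q => geoI f s k Q acc').val = _
    rw [forceL_eq, forceL_eq, ih, val_mapW, hf, wordG_nil, Finset.sum_range_succ']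
    simp only [pow_succ', pow_zero, ← Finset.mul_sum]
    noncomm_ring

/-- `acc + s * P * e` -/
noncomputable def act (e : Ex) : ℤ → PL → PL → PL :=
  Ex.rec (motive := fun _ => ℤ → PL → PL → PL)
    (fun l s P acc => mapW l s P acc)
    (fun n s P acc => forceI (Int.mul s n) fun s' =>
      Bool.rec (motive := fun _ => PL) (mapW [] s' P acc) acc (Nat.beq s'.natAbs 0))
    (fun L s P acc => actLit L s P acc)
    (fun _ _ fa fb s P acc => forceL (fa s P acc) (fb s P))
    (fun _ _ fa fb s P acc => forceI (Int.neg s) fun s' => forceL (fa s P acc) (fb s' P))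
    (fun _ fa s P acc => forceI (Int.neg s) fun s' => fa s' P acc)
    (fun a _ fa fb s P acc => forceL (nrm a (fa 1 P .nil)) fun Q => fb s Q acc)
    (fun a k fa s P acc => mapW [] s (iter (fun Q => nrm a (fa 1 Q .nil)) k P) acc)
    (fun a k fa s P acc => geoI (fun Q => nrm a (fa 1 Q .nil)) s k P acc) e

theorem val_act (e : Ex) (s : ℤ) (P acc : PL) :
    (act e s P acc).val = acc.val + (s : ZG G) * P.val * e.ev := by
  have h1 : ∀ a : Ex, (∀ s P acc, (act a s P acc).val = acc.val + (s : ZG G) * P.val * a.ev) →
      ∀ Q, (nrm a (act a 1 Q .nil)).val = Q.val * a.ev := fun a ha Q => by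
    rw [val_nrm, ha, PL.val, zero_add, Int.cast_one, one_mul]
  induction e generalizing s P acc with
  | w l => exact val_mapW l s P acc
  | z n =>
    change (forceI (s * n) fun s' =>
      Bool.rec (motive := fun _ => PL) (mapW [] s' P acc) acc (Nat.beq s'.natAbs 0)).val =
        acc.val + (s : ZG G) * P.val * (n : ZG G)
    rw [forceI_eq, mul_assoc, cast_comm, ← mul_assoc, ← Int.cast_mul]
    cases h : Nat.beq (s * n).natAbs 0
    · exact (val_mapW _ _ _ _).trans (by rw [wordG_nil, mul_one])
    · rw [Int.natAbs_eq_zero.1 (Nat.eq_of_beq_eq_true h), Int.cast_zero, zero_mul, add_zero]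
  | lit L => exact val_actLit L s P acc
  | add a b ha hb =>
    change (forceL (act a s P acc) (act b s P)).val = _ + _ * (a.ev + b.ev)
    rw [forceL_eq, hb, ha, mul_add, add_assoc]
  | sub a b ha hb =>
    change (forceI (-s) fun s' => forceL (act a s P acc) (act b s' P)).val = _ + _ * (a.ev - b.ev)
    rw [forceI_eq, forceL_eq, hb, ha, Int.cast_neg]
    noncomm_ring
  | neg a ha =>
    change (forceI (-s) fun s' => act a s' P acc).val = _ + _ * (-a.ev)
    rw [forceI_eq, ha, Int.cast_neg]
    noncomm_ring
  | mul a b ha hb =>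
    change (forceL (nrm a (act a 1 P .nil)) fun Q => act b s Q acc).val = _ + _ * (a.ev * b.ev)
    rw [forceL_eq, hb, h1 a ha]
    noncomm_ring
  | pow a k ha =>
    change (mapW [] s (iter (fun Q => nrm a (act a 1 Q .nil)) k P) acc).val = _ + _ * a.ev ^ k
    rw [val_mapW, val_iter _ _ (h1 a ha), wordG_nil, mul_one, mul_assoc]
  | geo a k ha => exact val_geoI _ _ (h1 a ha) s k P acc

/-- the list is empty -/
noncomputable def isNil (P : PL) : Bool :=
  PL.rec (motive := fun _ => Bool) true (fun _ _ _ _ => false) P

theorem valK_zero : valK 0 0 = 1 := by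
  rw [valK, valP, dif_pos rfl, one_mul, elt_zero]

end NF

/-- the normal form of the expression is empty -/
noncomputable def Ex.isZero (e : Ex) : Bool := NF.isNil (NF.norm (NF.act e 1 (.cons 0 1 .nil) .nil))

theorem Ex.eq_zero (e : Ex) (h : e.isZero = true) : e.ev = 0 := by
  have h1 := NF.val_norm (NF.act e 1 (.cons 0 1 .nil) .nil)
  unfold Ex.isZero at h
  generalize NF.norm (NF.act e 1 (.cons 0 1 .nil) .nil) = P at h h1
  cases P with
  | nil =>
    rw [NF.val_act, NF.PL.val, NF.PL.val, NF.PL.val, NF.valK_zero, og_one_pa] at h1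
    simpa using h1.symm
  | cons k c t => exact absurd h Bool.false_ne_true

end Crest.Agent.R251
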