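import Crest.Agent.R251.Grp

/-!
# Row 251: exactness at the two spheres, by certificates in `ℤ[D₆]` and `ℤ[D₁₅]`

A certificate is a pair of additive maps `U`, `V` with `g = λ U(g) + V(w g)` for all group elements.
-/

set_option autoImplicit false

namespace Crest.Agent.R251.Exa

open DihedralGroup

/-- `2 k ↦ r k`, `2 k + 1 ↦ sr k` -/
def dec (n a : ℕ) : DihedralGroup n :=
  if a % 2 = 0 then r ((a / 2 : ℕ) : ZMod n) else .sr ((a / 2 : ℕ) : ZMod n)

def enc {n : ℕ} : DihedralGroup n → ℕ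
  | r i => 2 * i.val
  | .sr i => 2 * i.val + 1

def mulN (n a b : ℕ) : ℕ :=
  2 * ((b / 2 + (if b % 2 = 0 then 1 else n - 1) * (a / 2)) % n) + (a + b) % 2

def nm (n a : ℕ) : ℕ := 2 * (a / 2 % n) + a % 2

theorem dec_even (n k : ℕ) : dec n (2 * k) = r (k : ZMod n) := by
  rw [dec, if_pos (by omega), show 2 * k / 2 = k by omega]

theorem dec_odd (n k : ℕ) : dec n (2 * k + 1) = .sr (k : ZMod n) := by
  rw [dec, if_neg (by omega), show (2 * k + 1) / 2 = k by omega]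

theorem dec_enc {n : ℕ} [NeZero n] (g : DihedralGroup n) : dec n (enc g) = g := by
  cases g with
  | r i => rw [enc, dec_even, ZMod.natCast_zmod_val]
  | sr i => rw [enc, dec_odd, ZMod.natCast_zmod_val]

theorem enc_lt {n : ℕ} [NeZero n] (g : DihedralGroup n) : enc g < 2 * n := by
  cases g with
  | r i => have := i.val_lt; rw [enc]; omega
  | sr i => have := i.val_lt; rw [enc]; omega

theorem enc_dec (n a : ℕ) : enc (dec n a) = nm n a := by
  rw [dec, nm]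
  split_ifs with h
  · rw [enc, ZMod.val_natCast, h, add_zero]
  · rw [enc, ZMod.val_natCast, show a % 2 = 1 by omega]

theorem dec_mulN {n : ℕ} [NeZero n] (a b : ℕ) : dec n (mulN n a b) = dec n a * dec n b := by
  have hn : ((n - 1 : ℕ) : ZMod n) = -1 := by
    rw [Nat.cast_sub (NeZero.one_le), ZMod.natCast_self, Nat.cast_one, zero_sub]
  rcases Nat.mod_two_eq_zero_or_one a with ha | ha <;>
    rcases Nat.mod_two_eq_zero_or_one b with hb | hb
  · rw [mulN, show (a + b) % 2 = 0 by omega, add_zero, dec_even, if_pos hb, dec, dec, if_pos ha,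
      if_pos hb, r_mul_r, ZMod.natCast_mod]
    push_cast
    rw [one_mul, add_comm]
  · rw [mulN, show (a + b) % 2 = 1 by omega, dec_odd, if_neg (by omega), dec, dec, if_pos ha,
      if_neg (by omega), r_mul_sr, ZMod.natCast_mod, Nat.cast_add, Nat.cast_mul, hn, neg_one_mul,
      sub_eq_add_neg]
  · rw [mulN, show (a + b) % 2 = 1 by omega, dec_odd, if_pos hb, dec, dec, if_neg (by omega),
      if_pos hb, sr_mul_r, ZMod.natCast_mod]
    push_cast
    rw [one_mul, add_comm]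
  · rw [mulN, show (a + b) % 2 = 0 by omega, add_zero, dec_even, if_neg (by omega), dec, dec,
      if_neg (by omega), if_neg (by omega), sr_mul_sr, ZMod.natCast_mod, Nat.cast_add, Nat.cast_mul,
      hn, neg_one_mul, sub_eq_add_neg]

/-- the value of a list -/
noncomputable def ev (n : ℕ) (L : List (ℤ × ℕ)) : ZG (DihedralGroup n) :=
  (L.map fun p => (p.1 : ZG (DihedralGroup n)) * og (dec n p.2)).sum

theorem ev_nil (n : ℕ) : ev n [] = 0 := rfl

theorem ev_cons (n : ℕ) (p : ℤ × ℕ) (L : List (ℤ × ℕ)) :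
    ev n (p :: L) = (p.1 : ZG (DihedralGroup n)) * og (dec n p.2) + ev n L := by
  rw [ev, List.map_cons, List.sum_cons, ev]

theorem ev_append (n : ℕ) (A B : List (ℤ × ℕ)) : ev n (A ++ B) = ev n A + ev n B := by
  rw [ev, List.map_append, List.sum_append, ev, ev]

def sc (c : ℤ) (A : List (ℤ × ℕ)) : List (ℤ × ℕ) := A.map fun q => (c * q.1, q.2)

theorem ev_sc (n : ℕ) (c : ℤ) (A : List (ℤ × ℕ)) :
    ev n (sc c A) = (c : ZG (DihedralGroup n)) * ev n A := by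
  induction A with
  | nil => rw [sc, List.map_nil, ev_nil, mul_zero]
  | cons q A ih =>
    rw [sc, List.map_cons, ev_cons, ev_cons, ← sc, ih, mul_add, Int.cast_mul, mul_assoc]

def mul1 (n : ℕ) (p : ℤ × ℕ) (B : List (ℤ × ℕ)) : List (ℤ × ℕ) :=
  B.map fun q => (p.1 * q.1, mulN n p.2 q.2)

def mulL (n : ℕ) : List (ℤ × ℕ) → List (ℤ × ℕ) → List (ℤ × ℕ)
  | [], _ => []
  | p :: A, B => mul1 n p B ++ mulL n A B

theorem ev_mul1 {n : ℕ} [NeZero n] (p : ℤ × ℕ) (B : List (ℤ × ℕ)) :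
    ev n (mul1 n p B) = (p.1 : ZG (DihedralGroup n)) * og (dec n p.2) * ev n B := by
  induction B with
  | nil => rw [mul1, List.map_nil, ev_nil, mul_zero]
  | cons q B ih =>
    rw [mul1, List.map_cons, ev_cons, ev_cons, ← mul1, ih, mul_add, Int.cast_mul, dec_mulN, og,
      map_mul, mul_assoc, mul_assoc, ← mul_assoc (q.1 : ZG (DihedralGroup n)),
      (Int.cast_commute q.1 _).eq]
    simp only [mul_assoc]

theorem ev_mulL {n : ℕ} [NeZero n] (A B : List (ℤ × ℕ)) :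
    ev n (mulL n A B) = ev n A * ev n B := by
  induction A with
  | nil => rw [mulL, ev_nil, zero_mul]
  | cons p A ih => rw [mulL, ev_append, ev_mul1, ih, ev_cons, add_mul]

/-- insertion with merging -/
def ins (c : ℤ) (a : ℕ) : List (ℤ × ℕ) → List (ℤ × ℕ)
  | [] => [(c, a)]
  | q :: L => if a = q.2 then (c + q.1, q.2) :: L else q :: ins c a L

theorem ev_ins (n : ℕ) (c : ℤ) (a : ℕ) (L : List (ℤ × ℕ)) :
    ev n (ins c a L) = (c : ZG (DihedralGroup n)) * og (dec n a) + ev n L := by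
  induction L with
  | nil => rw [ins, ev_cons]
  | cons q L ih =>
    rw [ins]
    split_ifs with h
    · rw [ev_cons, ev_cons, h, Int.cast_add, add_mul, add_assoc]
    · rw [ev_cons, ev_cons, ih, add_left_comm]

def nrm : List (ℤ × ℕ) → List (ℤ × ℕ)
  | [] => []
  | p :: L => ins p.1 p.2 (nrm L)

theorem ev_nrm (n : ℕ) (L : List (ℤ × ℕ)) : ev n (nrm L) = ev n L := by
  induction L with
  | nil => rfl
  | cons p L ih => rw [nrm, ev_ins, ih, ev_cons]

def isZ (L : List (ℤ × ℕ)) : Bool := (nrm L).all fun p => p.1 == 0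

theorem ev_isZ (n : ℕ) {L : List (ℤ × ℕ)} (h : isZ L = true) : ev n L = 0 := by
  rw [← ev_nrm]
  rw [isZ, List.all_eq_true] at h
  refine List.sum_eq_zero fun x hx => ?_
  obtain ⟨p, hp, rfl⟩ := List.mem_map.1 hx
  rw [beq_iff_eq.1 (h p hp), Int.cast_zero, zero_mul]

/-- the additive map given by a table -/
noncomputable def tab (n : ℕ) (T : List (List (ℤ × ℕ))) :
    ZG (DihedralGroup n) →+ ZG (DihedralGroup n) :=
  MonoidAlgebra.liftNC (Int.castAddHom _) fun g => ev n (T.getD (enc g) [])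

theorem tab_og (n : ℕ) (T : List (List (ℤ × ℕ))) (g : DihedralGroup n) :
    tab n T (og g) = ev n (T.getD (enc g) []) := by
  rw [tab, og, MonoidAlgebra.of_apply, MonoidAlgebra.liftNC_single]
  simp

def bindL (n : ℕ) (T : List (List (ℤ × ℕ))) : List (ℤ × ℕ) → List (ℤ × ℕ)
  | [] => []
  | p :: L => sc p.1 (T.getD (nm n p.2) []) ++ bindL n T L

theorem ev_bindL (n : ℕ) (T : List (List (ℤ × ℕ))) (L : List (ℤ × ℕ)) :
    ev n (bindL n T L) = tab n T (ev n L) := by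
  induction L with
  | nil => rw [bindL, ev_nil, map_zero]
  | cons p L ih =>
    rw [bindL, ev_append, ev_sc, ih, ev_cons, map_add, ← zsmul_eq_mul, ← zsmul_eq_mul, map_zsmul,
      tab_og, enc_dec]

/-- the check -/
def chk (n : ℕ) (l w : List (ℤ × ℕ)) (U V : List (List (ℤ × ℕ))) : Bool :=
  (List.range (2 * n)).all fun a =>
    isZ ((-1, a) :: (mulL n l (U.getD a []) ++ bindL n V (mulL n w [(1, a)])))

theorem exact_of_chk {n : ℕ} [NeZero n] {l w : List (ℤ × ℕ)} {U V : List (List (ℤ × ℕ))}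
    (h : chk n l w U V = true) (x : ZG (DihedralGroup n)) (hx : ev n w * x = 0) :
    ∃ q, x = ev n l * q := by
  have key : ∀ y : ZG (DihedralGroup n), y = ev n l * tab n U y + tab n V (ev n w * y) := by
    intro y
    induction y using MonoidAlgebra.induction_on with
    | of g =>
      have h1 := ev_isZ n (List.all_eq_true.1 h (enc g) (List.mem_range.2 (enc_lt g)))
      rw [ev_cons, ev_append, ev_mulL, ev_bindL, ev_mulL, ev_cons, ev_nil, ← tab_og] at h1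
      simp only [dec_enc, Int.cast_neg, Int.cast_one, neg_mul, one_mul, add_zero] at h1
      exact neg_add_eq_zero.1 h1
    | add a b ha hb =>
      rw [map_add, mul_add, mul_add, map_add, add_add_add_comm, ← ha, ← hb]
    | smul c a ha =>
      rw [mul_smul_comm, map_zsmul, map_zsmul, mul_smul_comm, ← smul_add, ← ha]
  have h1 := key x
  rw [hx, map_zero, add_zero] at h1
  exact ⟨tab n U x, h1⟩

def UB : List (List (ℤ × ℕ)) := [
  [(-1, 7), (1, 4), (1, 2)],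
  [(1, 5), (1, 4)],
  [(1, 10), (1, 11), (-1, 3), (1, 0)],
  [(1, 6), (1, 5), (1, 7), (-1, 2)],
  [(1, 1), (1, 0)],
  [(-1, 10), (1, 1), (1, 3)],
  [(1, 3)],
  [(1, 3), (-1, 0)],
  [],
  [],
  [(-1, 5), (1, 2)],
  [(1, 2)]]

def VB : List (List (ℤ × ℕ)) := [
  [(1, 9)],
  [],
  [],
  [],
  [],
  [(1, 8)],
  [],
  [],
  [],
  [],
  [],
  []]

def UZ : List (List (ℤ × ℕ)) := [
  [(1, 6), (1, 13)],
  [(1, 4), (-1, 15), (-1, 16), (1, 6), (1, 5), (1, 25), (-1, 17), (1, 28)],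
  [(-1, 0), (-1, 7), (-1, 16), (1, 5), (1, 19), (1, 28)],
  [],
  [(1, 0), (1, 26), (1, 7), (1, 10), (-1, 2), (-1, 6), (-1, 5), (-1, 18), (-1, 19), (1, 12),
   (1, 25), (-1, 20), (1, 11), (-1, 22)],
  [],
  [(-1, 26), (-1, 10), (1, 2), (1, 6), (1, 5), (1, 3), (1, 19), (-1, 25), (-1, 11), (-1, 24)],
  [],
  [(1, 4), (1, 25), (1, 11)],
  [(1, 6), (1, 13), (1, 22)],
  [(1, 4), (1, 11)],
  [(1, 26), (1, 4), (-1, 7), (-1, 16), (-1, 6), (1, 25), (-1, 13), (1, 11), (1, 24), (1, 28)],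
  [],
  [(1, 0), (1, 26), (1, 7), (-1, 15), (1, 10), (-1, 18), (-1, 19), (-1, 20)],
  [],
  [(-1, 26), (-1, 10), (1, 2), (1, 6), (1, 5), (1, 19), (-1, 25), (-1, 17), (-1, 11), (1, 28)],
  [(-1, 0), (-1, 26), (-1, 4), (1, 6), (1, 5), (1, 19), (-1, 25), (1, 13), (-1, 11), (1, 22)],
  [],
  [(1, 26), (1, 15), (-1, 2), (-2, 6), (-1, 5), (1, 12), (1, 25), (-1, 13), (1, 11), (1, 24),
   (-1, 22)],
  [],
  [(-1, 4), (1, 7), (1, 16), (1, 3), (-1, 25), (1, 17), (-1, 11), (-1, 24), (-1, 28)],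
  [(-1, 4), (1, 15), (1, 16), (-1, 6), (-1, 5), (1, 18), (1, 17), (-1, 11), (-1, 28)],
  [(-1, 26), (1, 15), (-1, 10), (1, 16), (1, 18), (1, 19), (1, 20)],
  [(1, 15), (1, 16), (-1, 5), (1, 18), (1, 17), (1, 20), (-1, 28)],
  [(1, 15), (1, 16), (-1, 6), (-1, 5), (1, 18), (1, 17), (1, 20), (1, 11), (-1, 28)],
  [(-1, 0), (-1, 7), (1, 18), (1, 19), (1, 17), (1, 20), (1, 22)],
  [(1, 4), (1, 20), (1, 11)],
  [(1, 0), (2, 26), (1, 4), (1, 10), (-1, 2), (-2, 6), (-2, 5), (-1, 19), (1, 12), (2, 25),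
   (-1, 13), (2, 11), (1, 24), (-1, 22)],
  [],
  [(-1, 15), (1, 2), (1, 6), (1, 5), (1, 3), (-1, 25), (-1, 11), (-1, 24)]]

def VZ : List (List (ℤ × ℕ)) := [
  [(1, 19), (1, 28)],
  [],
  [],
  [],
  [(-1, 12), (-1, 19)],
  [],
  [],
  [],
  [(1, 7), (1, 12), (1, 19)],
  [],
  [],
  [],
  [(-1, 5)],
  [],
  [],
  [],
  [],
  [],
  [(-1, 3), (1, 7), (1, 17), (1, 19), (1, 28)],
  [],
  [],
  [(1, 19)],
  [],
  [(-1, 5), (-1, 14)],
  [(-1, 3), (-1, 12), (1, 28)],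
  [],
  [],
  [],
  [],
  []]

def lB : List (ℤ × ℕ) := mulL 6 ((1, 10) :: mulL 6 [(1, 0), (-1, 2)] [(1, 1)]) [(1, 8)]

def wB : List (ℤ × ℕ) :=
  mulL 6 (mulL 6 [(1, 0), (-1, 6)] [(1, 0), (-1, 8)]) ((1, 0) :: mulL 6 [(-1, 8)] [(1, 1)])

def lZ : List (ℤ × ℕ) :=
  mulL 15 (mulL 15 [(1, 22)] [(1, 16), (-1, 14), (1, 10), (-1, 8), (1, 6), (-1, 2), (1, 0)] ++
    sc (-1) (mulL 15 [(1, 2), (1, 28), (-1, 0)] [(1, 0), (-1, 1)])) [(1, 14)]

def wZ : List (ℤ × ℕ) :=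
  mulL 15 (mulL 15 [(1, 12), (-1, 18)] [(1, 20), (-1, 10)]) [(1, 0), (1, 1)]

theorem chkB : chk 6 lB wB UB VB = true := by decide +kernel

theorem chkZ : chk 15 lZ wZ UZ VZ = true := by decide +kernel

theorem map_dec {n : ℕ} (ι : DihedralGroup n →* G) (k : ℕ) :
    ι (dec n (2 * k)) = ι (r 1) ^ k := by
  rw [dec_even, ← r_one_pow, map_pow]

theorem map_dec_one {n : ℕ} (ι : DihedralGroup n →* G) : ι (dec n 1) = ι (.sr 0) := by
  rw [show (1 : ℕ) = 2 * 0 + 1 from rfl, dec_odd, Nat.cast_zero]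

theorem exactB (x : ZG G) (h : (1 - og gs) * (1 - og gbB) * (1 - og gbB * og gc) * x = 0) :
    ∃ q, x = (og (gs * gbB)⁻¹ + (1 - og (gs * gbB)) * og gc) * og gbB * q := by
  obtain ⟨ι, h1, h2, hι⟩ := exists_homB
  have hc : Commute gs gbB := gs_gbB
  have e0 : ι (dec 6 0) = 1 := (map_dec ι 0).trans (pow_zero _)
  have e1 : ι (dec 6 1) = gc := (map_dec_one ι).trans h2
  have e2 : ι (dec 6 2) = gs * gbB := (map_dec ι 1).trans (by rw [h1, pow_one])
  have e6 : ι (dec 6 6) = gs := (map_dec ι 3).trans (by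
    rw [h1, hc.mul_pow, gbB_pow, mul_one, pow_succ, sq, gs_sq, one_mul])
  have e8 : ι (dec 6 8) = gbB := (map_dec ι 4).trans (by
    rw [h1, hc.mul_pow, pow_succ gbB, gbB_pow, show 4 = 2 * 2 from rfl, pow_mul, sq gs, gs_sq,
      one_pow, one_mul, one_mul])
  have e10 : ι (dec 6 10) = (gs * gbB)⁻¹ := by
    rw [← e2, ← map_inv]
    congr 1
  have hl : mapZ ι (ev 6 lB) = (og (gs * gbB)⁻¹ + (1 - og (gs * gbB)) * og gc) * og gbB := by
    simp only [lB, ev_mulL, ev_cons, ev_nil, map_mul, map_add, map_neg, mapZ_og, e0, e1, e2, e8, e10,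
      Int.cast_one, Int.cast_neg, one_mul, neg_mul, add_zero, og_one_pa, sub_eq_add_neg]
  have hw : mapZ ι (ev 6 wB) = (1 - og gs) * (1 - og gbB) * (1 - og gbB * og gc) := by
    simp only [wB, ev_mulL, ev_cons, ev_nil, map_mul, map_add, map_neg, mapZ_og, e0, e1, e6, e8,
      Int.cast_one, Int.cast_neg, one_mul, neg_mul, add_zero, og_one_pa, sub_eq_add_neg]
  rw [← hl]
  exact exact_of_subgroup ι hι _ _ (exact_of_chk chkB) x (hw ▸ h)

theorem exactZ (x : ZG G) (h : (og ga - og ga⁻¹) * (og gbZ - og gbZ⁻¹) * (1 + og gsp) * x = 0) :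
    ∃ q, x = (og gz⁻¹ ^ 4 * (og gz ^ 8 - og gz ^ 7 + og gz ^ 5 - og gz ^ 4 + og gz ^ 3 - og gz + 1) -
      (og gz + og gz⁻¹ - 1) * (1 - og gsp)) * og gz ^ 7 * q := by
  obtain ⟨ι, h1, h2, hι⟩ := exists_homZ
  have hc : Commute ga gbZ := ga_gbZ
  have e (k : ℕ) : ι (dec 15 (2 * k)) = gz ^ k := by rw [map_dec, h1]
  have e0 : ι (dec 15 0) = 1 := (e 0).trans (pow_zero _)
  have e1 : ι (dec 15 1) = gsp := (map_dec_one ι).trans h2
  have e2 : ι (dec 15 2) = gz := (e 1).trans (pow_one _)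
  have e6 : ι (dec 15 6) = gz ^ 3 := e 3
  have e8 : ι (dec 15 8) = gz ^ 4 := e 4
  have e10 : ι (dec 15 10) = gz ^ 5 := e 5
  have e14 : ι (dec 15 14) = gz ^ 7 := e 7
  have e16 : ι (dec 15 16) = gz ^ 8 := e 8
  have e28 : ι (dec 15 28) = gz⁻¹ := by
    rw [← e2, ← map_inv]
    congr 1
  have e22 : ι (dec 15 22) = gz⁻¹ ^ 4 := by
    rw [inv_pow, ← e8, ← map_inv]
    congr 1
  have e12 : ι (dec 15 12) = ga := (e 6).trans (by
    rw [gz, hc.mul_pow, pow_succ ga, ga_pow, show 6 = 3 * 2 from rfl, pow_mul, gbZ_pow, one_pow,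
      one_mul, mul_one])
  have e20 : ι (dec 15 20) = gbZ := (e 10).trans (by
    rw [gz, hc.mul_pow, pow_succ gbZ, show 9 = 3 * 3 from rfl, pow_mul gbZ, gbZ_pow,
      show 10 = 5 * 2 from rfl, pow_mul, ga_pow, one_pow, one_pow, one_mul, one_mul])
  have e18 : ι (dec 15 18) = ga⁻¹ := by
    rw [← e12, ← map_inv]
    congr 1
  have e10' : ι (dec 15 10) = gbZ⁻¹ := by
    rw [← e20, ← map_inv]
    congr 1
  have hl : mapZ ι (ev 15 lZ) =
      (og gz⁻¹ ^ 4 * (og gz ^ 8 - og gz ^ 7 + og gz ^ 5 - og gz ^ 4 + og gz ^ 3 - og gz + 1) -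
        (og gz + og gz⁻¹ - 1) * (1 - og gsp)) * og gz ^ 7 := by
    simp only [lZ, ev_mulL, ev_append, ev_sc, ev_cons, ev_nil, map_mul, map_add, map_neg, mapZ_og,
      e0, e1, e2, e6, e8, e10, e14, e16, e22, e28, Int.cast_one, Int.cast_neg, one_mul, neg_mul,
      add_zero, og_one_pa, map_pow, sub_eq_add_neg, add_assoc]
  have hw : mapZ ι (ev 15 wZ) = (og ga - og ga⁻¹) * (og gbZ - og gbZ⁻¹) * (1 + og gsp) := by
    simp only [wZ, ev_mulL, ev_cons, ev_nil, map_mul, map_add, map_neg, mapZ_og, e0, e1, e12, e18,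
      e20, e10', Int.cast_one, Int.cast_neg, one_mul, neg_mul, add_zero, og_one_pa,
      sub_eq_add_neg]
  rw [← hl]
  exact exact_of_subgroup ι hι _ _ (exact_of_chk chkZ) x (hw ▸ h)

end Crest.Agent.R251.Exa
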