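import Crest.Agent.Lib.CWComb.Defs

/-!
# Row 251: Fox calculus over `ℤ[G]`, Magnus embedding, free modules over subgroups

Left `ℤ[G]`-modules are row vectors `S → ZG G`, maps are right multiplications `ᵥ*` by matrices.

Recipes.
* `fox_*`: unfold to `hol_mul`, `hol_inv`, `hol_translate` (translation by `h` multiplies the chain by `og h`;
  prove first `toAdd (hol π lab g w) = og g • fox π w` by induction on `w`).
* `fox_fund`, `fox_lift`: `FreeGroup.induction_on`.
* `magnus`: choose a section `s : G → FreeGroup S` with `s 1 = 1`; the `ℤ`-linear map `θ : (S → ZG G) → Additive (Abelianization N)`,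
  `single x (og g) ↦ [s g * x * (s (g * π x))⁻¹]` satisfies `θ (og g • fox w) = [s g * w * (s (g * lift π w))⁻¹]`
  (induction on `w`); so for `w ∈ N = ker` with `fox w = 0` the class of `w` in `Abelianization N` is trivial, and
  `(commutator N).map N.subtype = ⁅N, N⁆`.
* `exists_of_cycle`: the same kind of argument or directly: modulo the additive subgroup `K` generated by `fox n`, `n ∈ N`
  (it is `G`-stable: `og (lift π f) • fox n = fox (f n f⁻¹)`), `single x (og g) ≡ fox (s (g * π x)) - fox (s g)`, so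
  `x ≡ Σ (ℤ-linear extension of g ↦ fox (s g)) (Σ x_s (og (π s) - 1)) = 0`; `K` consists of values `fox n` (`fox` is additive on `N`).
* `exact_of_subgroup`: choose representatives of the right cosets `ι(H) g`; write `z = Σ_i mapZ ι (z_i) * og (g_i)`
  (finite sum, `z_i` determined by the coefficients of `z` on the coset); `w z = 0 ⇒ w z_i = 0` for all `i` by comparing coefficients.
-/

set_option autoImplicit false

open Matrix

namespace Crest.Agent.R251

open Crest.Agent.Lib.CWComb

/-- the integral group ring -/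
abbrev ZG (G : Type) [Group G] : Type := MonoidAlgebra ℤ G

/-- a group element in the group ring -/
noncomputable abbrev og {G : Type} [Group G] (g : G) : ZG G := MonoidAlgebra.of ℤ G g

/-- the ring homomorphism out of the group ring given by a multiplicative map -/
noncomputable def rz {G M : Type} [Group G] [Ring M] (θ : G →* M) : ZG G →+* M :=
  (MonoidAlgebra.lift ℤ M G θ).toRingHom

theorem rz_og {G M : Type} [Group G] [Ring M] (θ : G →* M) (g : G) : rz θ (og g) = θ g := by
  simp [rz]

/-- the augmentation -/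
noncomputable def eps (G : Type) [Group G] : ZG G →+* ℤ := rz (1 : G →* ℤ)

theorem eps_og {G : Type} [Group G] (g : G) : eps G (og g) = 1 := by
  simp [eps, rz]

/-- the ring map induced by a group homomorphism -/
noncomputable def mapZ {H G : Type} [Group H] [Group G] (ι : H →* G) : ZG H →+* ZG G :=
  rz ((MonoidAlgebra.of ℤ G).comp ι)

theorem mapZ_og {H G : Type} [Group H] [Group G] (ι : H →* G) (h : H) : mapZ ι (og h) = og (ι h) := by
  simp [mapZ, rz]

variable {S G : Type} [DecidableEq S] [Group G]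

/-- the Fox derivative (the one-chain of the edge path of `w` in the Cayley graph) -/
noncomputable def fox (π : S → G) (w : FreeGroup S) : S → ZG G :=
  Multiplicative.toAdd
    (hol π (fun g s => Multiplicative.ofAdd (Pi.single s (og g) : S → ZG G)) 1 w)

theorem fox_og_one : og (1 : G) = 1 := map_one (MonoidAlgebra.of ℤ G)

theorem fox_og_mul (g h : G) : og (g * h) = og g * og h := map_mul (MonoidAlgebra.of ℤ G) g h

theorem toAdd_hol (π : S → G) (g : G) (w : FreeGroup S) :
    Multiplicative.toAdd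
      (hol π (fun g s => Multiplicative.ofAdd (Pi.single s (og g) : S → ZG G)) g w) = og g • fox π w := by
  have h1 := map_hol (AddMonoidHom.toMultiplicative
      (DistribSMul.toAddMonoidHom (S → ZG G) (og g))) π
    (fun g s => Multiplicative.ofAdd (Pi.single s (og g) : S → ZG G)) 1 w
  have h2 := hol_translate π (fun g s => Multiplicative.ofAdd (Pi.single s (og g) : S → ZG G)) g 1 w
  rw [mul_one] at h2
  rw [← h2]
  have h3 : (fun (g' : G) (s : S) => Multiplicative.ofAdd (Pi.single s (og (g * g')) : S → ZG G)) =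
      fun g' s => (AddMonoidHom.toMultiplicative (DistribSMul.toAddMonoidHom (S → ZG G) (og g)))
        (Multiplicative.ofAdd (Pi.single s (og g') : S → ZG G)) := by
    funext g' s
    simp only [AddMonoidHom.toMultiplicative_apply_apply, toAdd_ofAdd, DistribSMul.toAddMonoidHom_apply]
    rw [← Pi.single_smul', smul_eq_mul, fox_og_mul]
  rw [h3, ← h1]
  rfl

theorem fox_of (π : S → G) (s : S) : fox π (FreeGroup.of s) = Pi.single s 1 := by
  simp only [fox, hol_of, toAdd_ofAdd, map_one]

theorem fox_one (π : S → G) : fox π 1 = 0 := by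
  simp only [fox, hol_one, toAdd_one]

theorem fox_mul (π : S → G) (w w' : FreeGroup S) :
    fox π (w * w') = fox π w + og (FreeGroup.lift π w) • fox π w' := by
  rw [← toAdd_hol]
  simp only [fox, hol_mul, toAdd_mul, one_mul]

theorem fox_inv (π : S → G) (w : FreeGroup S) :
    fox π w⁻¹ = -(og (FreeGroup.lift π w)⁻¹ • fox π w) := by
  rw [← toAdd_hol]
  simp only [fox, hol_inv, toAdd_inv, one_mul]

theorem fox_pow (π : S → G) (w : FreeGroup S) (k : ℕ) :
    fox π (w ^ k) = (∑ i ∈ Finset.range k, og (FreeGroup.lift π w ^ i)) • fox π w := by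
  induction k with
  | zero => simp [fox_one]
  | succ k ih => rw [pow_succ, fox_mul, ih, Finset.sum_range_succ, add_smul, map_pow]

theorem fox_conj (π : S → G) (f n : FreeGroup S) (hn : FreeGroup.lift π n = 1) :
    fox π (f * n * f⁻¹) = og (FreeGroup.lift π f) • fox π n := by
  rw [fox_mul, fox_mul, fox_inv, map_mul, hn, mul_one, smul_neg, smul_smul, ← map_mul, mul_inv_cancel,
    map_one, one_smul]
  abel

theorem fox_zpow (π : S → G) (n : FreeGroup S) (hn : FreeGroup.lift π n = 1) (k : ℤ) :
    fox π (n ^ k) = k • fox π n := by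
  have hp : ∀ m : ℕ, fox π (n ^ m) = m • fox π n := by
    intro m
    induction m with
    | zero => simp [fox_one]
    | succ m ih => rw [pow_succ, fox_mul, ih, map_pow, hn, one_pow, fox_og_one, one_smul, succ_nsmul]
  obtain ⟨m, rfl | rfl⟩ := Int.eq_nat_or_neg k
  · rw [zpow_natCast, hp, natCast_zsmul]
  · rw [_root_.zpow_neg, zpow_natCast, fox_inv, hp, map_pow, hn, one_pow, inv_one, fox_og_one, one_smul,
      neg_smul,
      natCast_zsmul]

/-- the fundamental formula -/
theorem fox_fund [Fintype S] (π : S → G) (w : FreeGroup S) :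
    ∑ s, fox π w s * (og (π s) - 1) = og (FreeGroup.lift π w) - 1 := by
  induction w using FreeGroup.induction_on with
  | C1 => rw [map_one, fox_og_one, fox_one]; simp
  | of s =>
    rw [fox_of, Finset.sum_eq_single s]
    · simp
    · intro b _ hb
      simp [Pi.single_eq_of_ne hb]
    · simp
  | inv_of s ih =>
    rw [fox_inv, map_inv]
    simp only [Pi.neg_apply, Pi.smul_apply, smul_eq_mul, neg_mul, mul_assoc, Finset.sum_neg_distrib]
    rw [← Finset.mul_sum, ih, mul_sub, ← map_mul, inv_mul_cancel, map_one, mul_one, neg_sub]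
  | mul u v ihu ihv =>
    rw [fox_mul]
    simp only [Pi.add_apply, Pi.smul_apply, smul_eq_mul, add_mul, mul_assoc, Finset.sum_add_distrib]
    rw [← Finset.mul_sum, ihu, ihv, map_mul, fox_og_mul, mul_sub, mul_one]
    abel

/-- the chain rule -/
theorem fox_lift [Fintype S] {S' : Type} [DecidableEq S'] (π' : S' → G) (β : S → FreeGroup S')
    (w : FreeGroup S) :
    fox π' (FreeGroup.lift β w) =
      fox (fun s => FreeGroup.lift π' (β s)) w ᵥ* (Matrix.of fun s => fox π' (β s)) := by
  have hl : ∀ w : FreeGroup S, FreeGroup.lift π' (FreeGroup.lift β w) =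
      FreeGroup.lift (fun s => FreeGroup.lift π' (β s)) w := by
    intro w
    have : (FreeGroup.lift π').comp (FreeGroup.lift β) =
        FreeGroup.lift (fun s => FreeGroup.lift π' (β s)) := by
      ext s; simp
    exact DFunLike.congr_fun this w
  induction w using FreeGroup.induction_on with
  | C1 => simp [fox_one]
  | of s =>
    rw [fox_of, FreeGroup.lift_apply_of, Matrix.single_one_vecMul]
    rfl
  | inv_of s ih => rw [map_inv, fox_inv, fox_inv, ih, hl, Matrix.neg_vecMul, Matrix.smul_vecMul]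
  | mul u v ihu ihv =>
    rw [map_mul, fox_mul, fox_mul, ihu, ihv, hl, Matrix.add_vecMul, Matrix.smul_vecMul]

/-- change of the group -/
theorem fox_mapZ {H : Type} [Group H] (ι : H →* G) (π : S → H) (w : FreeGroup S) (s : S) :
    mapZ ι (fox π w s) = fox (fun s => ι (π s)) w s := by
  have hl : ∀ w : FreeGroup S, ι (FreeGroup.lift π w) = FreeGroup.lift (fun s => ι (π s)) w := by
    intro w
    have : ι.comp (FreeGroup.lift π) = FreeGroup.lift (fun s => ι (π s)) := by
      ext s; simp
    exact DFunLike.congr_fun this w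
  induction w using FreeGroup.induction_on with
  | C1 => simp [fox_one]
  | of a =>
    rw [fox_of, fox_of]
    by_cases h : s = a
    · subst h; simp
    · simp [Pi.single_eq_of_ne h]
  | inv_of a ih =>
    rw [fox_inv, fox_inv]
    simp only [Pi.neg_apply, Pi.smul_apply, smul_eq_mul, map_neg, map_mul]
    rw [ih, mapZ_og, map_inv, hl]
  | mul u v ihu ihv =>
    rw [fox_mul, fox_mul]
    simp only [Pi.add_apply, Pi.smul_apply, smul_eq_mul, map_add, map_mul]
    rw [ihu, ihv, mapZ_og, hl]

/-- the augmentation of the Fox derivative is the exponent sum -/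
theorem eps_fox (π : S → G) (w : FreeGroup S) (s : S) :
    eps G (fox π w s) =
      (FreeGroup.lift (fun a => if a = s then Multiplicative.ofAdd (1 : ℤ) else 1) w).toAdd := by
  induction w using FreeGroup.induction_on with
  | C1 => simp [fox_one]
  | of a =>
    rw [fox_of, FreeGroup.lift_apply_of]
    by_cases h : a = s
    · subst h; simp
    · simp [h]
  | inv_of a ih =>
    rw [fox_inv, map_inv (FreeGroup.lift fun a => if a = s then Multiplicative.ofAdd (1 : ℤ) else 1),
      toAdd_inv, ← ih]
    simp only [Pi.neg_apply, Pi.smul_apply, smul_eq_mul, map_neg, map_mul, eps_og, one_mul]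
  | mul u v ihu ihv =>
    rw [fox_mul, map_mul (FreeGroup.lift fun a => if a = s then Multiplicative.ofAdd (1 : ℤ) else 1),
      toAdd_mul, ← ihu, ← ihv]
    simp only [Pi.add_apply, Pi.smul_apply, smul_eq_mul, map_add, map_mul, eps_og, one_mul]

/-- a word with all exponent sums zero lies in the commutator subgroup -/
theorem mem_commutator_of_eps [Fintype S] (π : S → G) (w : FreeGroup S)
    (h : ∀ s, eps G (fox π w s) = 0) : w ∈ commutator (FreeGroup S) := by
  have key : ∀ w : FreeGroup S, Abelianization.of w =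
      ∏ s, Abelianization.of (FreeGroup.of s) ^ eps G (fox π w s) := by
    intro w
    induction w using FreeGroup.induction_on with
    | C1 => simp [fox_one]
    | of a =>
      rw [fox_of, Finset.prod_eq_single a]
      · simp
      · intro b _ hb
        simp [Pi.single_eq_of_ne hb]
      · simp
    | inv_of a ih =>
      rw [map_inv, ih, fox_inv, ← Finset.prod_inv_distrib]
      simp only [Pi.neg_apply, Pi.smul_apply, smul_eq_mul, map_neg, map_mul, eps_og, one_mul,
        _root_.zpow_neg]
    | mul u v ihu ihv =>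
      rw [map_mul, ihu, ihv, fox_mul, ← Finset.prod_mul_distrib]
      simp only [Pi.add_apply, Pi.smul_apply, smul_eq_mul, map_add, map_mul, eps_og, one_mul,
        _root_.zpow_add]
  rw [← Abelianization.ker_of, MonoidHom.mem_ker, key]
  simp [h]

omit [DecidableEq S] in
theorem foxb_lin {A : Type} [AddCommGroup A] (f : G → A) :
    ∃ L : ZG G →+ A, ∀ g, L (og g) = f g :=
  ⟨((MonoidAlgebra.basis G ℤ).constr ℤ f).toAddMonoidHom, fun g => by
    have := (MonoidAlgebra.basis G ℤ).constr_basis ℤ f g
    rwa [MonoidAlgebra.basis_apply] at this⟩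

theorem foxb_mem {A : Type} [AddCommGroup A] (K : AddSubgroup A) (f : ZG G →+ A)
    (h : ∀ g, f (og g) ∈ K) (z : ZG G) : f z ∈ K := by
  induction z using MonoidAlgebra.induction_on with
  | of g => exact h g
  | add x y hx hy => rw [map_add]; exact K.add_mem hx hy
  | smul r x hx => rw [map_zsmul]; exact K.zsmul_mem hx r

theorem foxb_ext {A : Type} [AddCommGroup A] (f f' : ZG G →+ A)
    (h : ∀ g, f (og g) = f' (og g)) (z : ZG G) : f z = f' z := by
  have := foxb_mem ⊥ (f - f') (fun g => by
    rw [AddMonoidHom.sub_apply, h g, sub_self]; exact zero_mem _) z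
  simpa [sub_eq_zero] using this

theorem foxb_og_mul (g h : G) : og (g * h) = og g * og h := map_mul _ _ _

theorem foxb_og_one : og (1 : G) = 1 := map_one _

/-- Magnus embedding -/
theorem magnus (π : S → G) (hs : Function.Surjective (FreeGroup.lift π)) (n : FreeGroup S)
    (hn : FreeGroup.lift π n = 1) (h : fox π n = 0) :
    n ∈ ⁅(FreeGroup.lift π).ker, (FreeGroup.lift π).ker⁆ := by
  choose σ hσ using hs
  set N := (FreeGroup.lift π).ker with hN
  let κ : G → FreeGroup S → N := fun g w =>
    ⟨σ g * w * (σ (g * FreeGroup.lift π w))⁻¹, by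
      rw [hN, MonoidHom.mem_ker, map_mul, map_mul, map_inv, hσ, hσ, mul_inv_cancel]⟩
  have κ1 : ∀ g, κ g 1 = 1 := fun g => Subtype.ext (by simp [κ])
  have κm : ∀ g w w', κ g (w * w') = κ g w * κ (g * FreeGroup.lift π w) w' := fun g w w' =>
    Subtype.ext (by simp [κ, mul_assoc])
  choose L hL using fun x : S => foxb_lin (G := G)
    fun g => Additive.ofMul (Abelianization.of (κ g (FreeGroup.of x)))
  let θ : (S →₀ ZG G) →+ Additive (Abelianization N) := Finsupp.liftAddHom L
  have key : ∀ w : FreeGroup S, ∃ c : S →₀ ZG G, ⇑c = fox π w ∧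
      ∀ g, θ (og g • c) = Additive.ofMul (Abelianization.of (κ g w)) := by
    intro w
    induction w using FreeGroup.induction_on with
    | C1 => exact ⟨0, by rw [fox_one]; rfl, fun g => by rw [smul_zero, map_zero, κ1, map_one]; rfl⟩
    | of x =>
      refine ⟨Finsupp.single x 1, by rw [fox_of, Finsupp.single_eq_pi_single], fun g => ?_⟩
      rw [Finsupp.smul_single, smul_eq_mul, mul_one, ← hL]
      exact Finsupp.liftAddHom_apply_single _ _ _
    | inv_of x ih =>
      obtain ⟨c, h1, h2⟩ := ih
      refine ⟨-(og (FreeGroup.lift π (FreeGroup.of x))⁻¹ • c), by rw [fox_inv, ← h1]; rfl,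
        fun g => ?_⟩
      have e := κm g (FreeGroup.of x)⁻¹ (FreeGroup.of x)
      rw [inv_mul_cancel, κ1, eq_comm, mul_eq_one_iff_eq_inv] at e
      rw [smul_neg, smul_smul, ← foxb_og_mul, map_neg, h2, e, map_inv Abelianization.of, ofMul_inv,
        map_inv (FreeGroup.lift π)]
    | mul w w' ih ih' =>
      obtain ⟨c, h1, h2⟩ := ih
      obtain ⟨c', h1', h2'⟩ := ih'
      refine ⟨c + og (FreeGroup.lift π w) • c', by rw [fox_mul, ← h1, ← h1']; rfl, fun g => ?_⟩
      rw [smul_add, smul_smul, ← foxb_og_mul, map_add, h2, h2', κm, map_mul, ofMul_mul]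
  obtain ⟨c, h1, h2⟩ := key n
  obtain rfl : c = 0 := DFunLike.coe_injective (h1.trans h)
  have h3 := h2 1
  rw [smul_zero, map_zero, eq_comm, ofMul_eq_zero] at h3
  have h4 : κ 1 n ∈ commutator N := (QuotientGroup.eq_one_iff _).1 h3
  have h5 : (κ 1 n : FreeGroup S) ∈ ⁅N, N⁆ := by
    have := Subgroup.mem_map_of_mem N.subtype h4
    rwa [commutator, Subgroup.map_commutator, ← MonoidHom.range_eq_map, Subgroup.range_subtype]
      at this
  have h6 := (Subgroup.commutator_normal N N).conj_mem _ h5 (σ 1)⁻¹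
  simpa [κ, hn, mul_assoc] using h6

/-- exactness of the Cayley complex in degree one, first half -/
theorem exists_of_cycle [Fintype S] (π : S → G) (hs : Function.Surjective (FreeGroup.lift π))
    (x : S → ZG G) (hx : ∑ s, x s * (og (π s) - 1) = 0) :
    ∃ n : FreeGroup S, FreeGroup.lift π n = 1 ∧ fox π n = x := by
  choose σ hσ using hs
  let K : AddSubgroup (S → ZG G) :=
    { carrier := {x | ∃ n : FreeGroup S, FreeGroup.lift π n = 1 ∧ fox π n = x}
      zero_mem' := ⟨1, map_one _, fox_one π⟩
      add_mem' := by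
        rintro _ _ ⟨n, h1, rfl⟩ ⟨n', h2, rfl⟩
        exact ⟨n * n', by rw [map_mul, h1, h2, mul_one], by rw [fox_mul, h1, foxb_og_one, one_smul]⟩
      neg_mem' := by
        rintro _ ⟨n, h1, rfl⟩
        exact ⟨n⁻¹, by rw [map_inv, h1, inv_one],
          by rw [fox_inv, h1, inv_one, foxb_og_one, one_smul]⟩ }
  obtain ⟨L, hL⟩ := foxb_lin (G := G) fun g => fox π (σ g)
  have key : ∀ s (a : ZG G), Pi.single s a - L (a * (og (π s) - 1)) ∈ K := by
    intro s a
    refine foxb_mem K (AddMonoidHom.single (fun _ : S => ZG G) s -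
      L.comp (AddMonoidHom.mulRight (og (π s) - 1))) (fun g => ?_) a
    refine ⟨σ g * FreeGroup.of s * (σ (g * π s))⁻¹, by simp [hσ], ?_⟩
    change _ = Pi.single s (og g) - L (og g * (og (π s) - 1))
    rw [mul_sub, mul_one, ← foxb_og_mul, map_sub, hL, hL, fox_mul, fox_mul, fox_inv, fox_of,
      map_mul, hσ, hσ, FreeGroup.lift_apply_of, smul_neg, smul_smul, ← foxb_og_mul, mul_inv_cancel,
      foxb_og_one, one_smul, ← Pi.single_smul', smul_eq_mul, mul_one]
    abel
  have h1 := K.sum_mem fun s (_ : s ∈ Finset.univ) => key s (x s)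
  rwa [Finset.sum_sub_distrib, ← map_sum, hx, map_zero, sub_zero, Finset.univ_sum_single] at h1

/-- exactness of the Cayley complex in degree one, second half -/
theorem exists_of_mem_normalClosure {R : Type} [Fintype R] (π : S → G) (rel : R → FreeGroup S)
    (hr : ∀ r, FreeGroup.lift π (rel r) = 1) (n : FreeGroup S)
    (hn : n ∈ Subgroup.normalClosure (Set.range rel)) :
    ∃ x : R → ZG G, fox π n = x ᵥ* (Matrix.of fun r => fox π (rel r)) := by
  classical
  have key : ∀ n ∈ Subgroup.normalClosure (Set.range rel), FreeGroup.lift π n = 1 ∧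
      ∃ x : R → ZG G, fox π n = x ᵥ* (Matrix.of fun r => fox π (rel r)) := by
    intro n hn
    induction hn using Subgroup.closure_induction with
    | mem y hy =>
      obtain ⟨a, ⟨r, rfl⟩, ha⟩ := Group.mem_conjugatesOfSet_iff.1 hy
      obtain ⟨c, rfl⟩ := isConj_iff.1 ha
      refine ⟨by simp [hr r], og (FreeGroup.lift π c) • Pi.single r 1, ?_⟩
      rw [fox_conj π c _ (hr r), Matrix.smul_vecMul, Matrix.single_one_vecMul]
      rfl
    | one => exact ⟨map_one _, 0, by simp [fox_one]⟩
    | mul a b _ _ iha ihb =>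
      obtain ⟨ha, x, hx⟩ := iha
      obtain ⟨hb, y, hy⟩ := ihb
      refine ⟨by rw [map_mul, ha, hb, one_mul], x + y, ?_⟩
      rw [fox_mul, ha, fox_og_one, one_smul, hx, hy, Matrix.add_vecMul]
    | inv a _ iha =>
      obtain ⟨ha, x, hx⟩ := iha
      refine ⟨by rw [map_inv, ha, inv_one], -x, ?_⟩
      rw [fox_inv, ha, inv_one, fox_og_one, one_smul, hx, Matrix.neg_vecMul]
  exact (key n hn).2

/-- the augmentation ideal is generated by the `π s - 1` -/
theorem exists_of_eps_zero [Fintype S] (π : S → G) (hs : Function.Surjective (FreeGroup.lift π))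
    (z : ZG G) (hz : eps G z = 0) : ∃ x : S → ZG G, ∑ s, x s * (og (π s) - 1) = z := by
  have key : ∀ z : ZG G, ∃ x : S → ZG G, ∑ s, x s * (og (π s) - 1) = z - (eps G z : ZG G) := by
    intro z
    induction z using MonoidAlgebra.induction_on with
    | of g =>
      obtain ⟨w, rfl⟩ := hs g
      refine ⟨fox π w, ?_⟩
      rw [fox_fund, eps_og, Int.cast_one]
    | add a b iha ihb =>
      obtain ⟨x, hx⟩ := iha
      obtain ⟨y, hy⟩ := ihb
      refine ⟨x + y, ?_⟩
      simp only [Pi.add_apply, add_mul, Finset.sum_add_distrib, hx, hy, map_add, Int.cast_add]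
      abel
    | smul k a iha =>
      obtain ⟨x, hx⟩ := iha
      refine ⟨k • x, ?_⟩
      simp only [Pi.smul_apply, smul_mul_assoc]
      rw [← Finset.smul_sum, hx, map_zsmul, smul_sub, smul_eq_mul, Int.cast_mul]
      simp only [zsmul_eq_mul]
  obtain ⟨x, hx⟩ := key z
  exact ⟨x, by rw [hx, hz, Int.cast_zero, sub_zero]⟩

/-- a conjugation invariant homomorphism on the relation subgroup is a linear function of the augmented two-chain -/
theorem char_eq_prod {R A : Type} [Fintype R] [CommGroup A] (π : S → G)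
    (hs : Function.Surjective (FreeGroup.lift π)) (rel : R → FreeGroup S)
    (hr : ∀ r, FreeGroup.lift π (rel r) = 1) (η : FreeGroup S → A)
    (hmul : ∀ n n', FreeGroup.lift π n = 1 → FreeGroup.lift π n' = 1 → η (n * n') = η n * η n')
    (hconj : ∀ f n, FreeGroup.lift π n = 1 → η (f * n * f⁻¹) = η n)
    (n : FreeGroup S) (hn : FreeGroup.lift π n = 1) (x : R → ZG G)
    (hx : fox π n = x ᵥ* (Matrix.of fun r => fox π (rel r))) :
    η n = ∏ r, η (rel r) ^ eps G (x r) := by
  classical
  let ηN : (FreeGroup.lift π).ker →* A := MonoidHom.mk' (fun m => η m) fun a b => hmul a b a.2 b.2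
  let M : Matrix R S (ZG G) := Matrix.of fun r => fox π (rel r)
  let P : (R → ZG G) → Prop := fun x => ∃ m : (FreeGroup.lift π).ker,
    fox π m = x ᵥ* M ∧ ηN m = ∏ r, η (rel r) ^ eps G (x r)
  have P0 : P 0 := ⟨1, by simp [fox_one], by simp⟩
  have Padd : ∀ x y, P x → P y → P (x + y) := by
    rintro x y ⟨a, ha, ha'⟩ ⟨b, hb, hb'⟩
    refine ⟨a * b, ?_, ?_⟩
    · rw [Subgroup.coe_mul, fox_mul, MonoidHom.mem_ker.1 a.2, fox_og_one, one_smul, ha, hb,
        Matrix.add_vecMul]
    · rw [map_mul, ha', hb', ← Finset.prod_mul_distrib]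
      simp only [Pi.add_apply, map_add, _root_.zpow_add]
  have Psmul : ∀ (k : ℤ) x, P x → P (k • x) := by
    rintro k x ⟨a, ha, ha'⟩
    refine ⟨a ^ k, ?_, ?_⟩
    · rw [Subgroup.coe_zpow, fox_zpow π _ (MonoidHom.mem_ker.1 a.2), ha, Matrix.smul_vecMul]
    · rw [map_zpow, ha', ← Finset.prod_zpow]
      simp only [Pi.smul_apply, map_zsmul, smul_eq_mul, ← _root_.zpow_mul, mul_comm]
  have Psingle : ∀ r z, P (Pi.single r z) := by
    intro r z
    induction z using MonoidAlgebra.induction_on with
    | of g =>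
      obtain ⟨c, rfl⟩ := hs g
      refine ⟨⟨c * rel r * c⁻¹, by simp [MonoidHom.mem_ker, hr r]⟩, ?_, ?_⟩
      · have : (Pi.single r (og (FreeGroup.lift π c)) : R → ZG G) =
            og (FreeGroup.lift π c) • Pi.single r 1 := by
          rw [← Pi.single_smul', smul_eq_mul, mul_one]
        rw [this, Matrix.smul_vecMul, Matrix.single_one_vecMul]
        exact fox_conj π c _ (hr r)
      · rw [Finset.prod_eq_single r]
        · rw [Pi.single_eq_same, eps_og, zpow_one]
          exact hconj c _ (hr r)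
        · intro b _ hb
          simp [Pi.single_eq_of_ne hb]
        · simp
    | add a b iha ihb => rw [Pi.single_add]; exact Padd _ _ iha ihb
    | smul k a iha => rw [Pi.single_smul']; exact Psmul _ _ iha
  have Px : P x := by
    rw [← Finset.univ_sum_single x]
    exact Finset.sum_induction _ P Padd P0 fun r _ => Psingle r (x r)
  obtain ⟨m, hm, hm'⟩ := Px
  rw [← hm']
  have hm1 : FreeGroup.lift π (m : FreeGroup S) = 1 := m.2
  have h1 : FreeGroup.lift π (n * (m : FreeGroup S)⁻¹) = 1 := by
    rw [map_mul, map_inv, hn, hm1, inv_one, one_mul]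
  have h2 : fox π (n * (m : FreeGroup S)⁻¹) = 0 := by
    rw [fox_mul, fox_inv, hn, hm1, inv_one, fox_og_one, one_smul, one_smul, hm, hx, add_neg_cancel]
  have h3 := magnus π hs _ h1 h2
  rw [← Subgroup.map_subtype_commutator] at h3
  obtain ⟨y, hy, hy'⟩ := h3
  have h4 : ηN y = 1 := Abelianization.commutator_subset_ker ηN hy
  have h5 : y = (⟨n, hn⟩ : (FreeGroup.lift π).ker) * m⁻¹ := Subtype.ext hy'
  rw [h5, map_mul, map_inv, mul_inv_eq_one] at h4
  exact h4

/-- `ℤ[G]` is free over the group ring of a subgroup: exactness of left multiplications passes to `G` -/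
theorem exact_of_subgroup {H : Type} [Group H] (ι : H →* G) (hι : Function.Injective ι) (w l : ZG H)
    (h : ∀ x : ZG H, w * x = 0 → ∃ q, x = l * q) (z : ZG G) (hz : mapZ ι w * z = 0) :
    ∃ q, z = mapZ ι l * q := by
  classical
  let T := Quotient (QuotientGroup.rightRel ι.range)
  have h1 : ∀ x : G, ∃ a : H, ι a * (Quotient.mk'' x : T).out = x := by
    intro x
    obtain ⟨a, ha⟩ := QuotientGroup.rightRel_apply.1 (Quotient.exact' (Quotient.out_eq' (Quotient.mk'' x : T)))
    exact ⟨a, by rw [ha, inv_mul_cancel_right]⟩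
  choose η hη using h1
  have h2 : ∀ a x, (Quotient.mk'' (ι a * x) : T) = Quotient.mk'' x := fun a x =>
    Quotient.sound' (QuotientGroup.rightRel_apply.2 ⟨a⁻¹, by simp⟩)
  have h3 : ∀ a x, η (ι a * x) = a * η x := fun a x => hι (by
    have e := hη (ι a * x)
    rw [h2] at e
    refine mul_right_cancel (b := (Quotient.mk'' x : T).out) ?_
    rw [e, map_mul, mul_assoc, hη])
  obtain ⟨Φ, hΦ⟩ := foxb_lin (G := G) fun x => Finsupp.single (Quotient.mk'' x : T) (og (η x))
  let Ψ : (T →₀ ZG H) →+ ZG G := Finsupp.liftAddHom fun t =>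
    (AddMonoidHom.mulRight (og t.out)).comp (mapZ ι).toAddMonoidHom
  have h4 : ∀ z, Ψ (Φ z) = z := foxb_ext (Ψ.comp Φ) (AddMonoidHom.id _) fun x => by
    change Ψ (Φ (og x)) = og x
    rw [hΦ]
    refine (Finsupp.liftAddHom_apply_single _ _ _).trans ?_
    change mapZ ι (og (η x)) * _ = _
    rw [mapZ_og, ← foxb_og_mul, hη]
  have h5 : ∀ (w : ZG H) z, Φ (mapZ ι w * z) = w • Φ z := by
    intro w z
    refine foxb_ext (Φ.comp ((AddMonoidHom.mulRight z).comp (mapZ ι).toAddMonoidHom))
      ((smulAddHom (ZG H) (T →₀ ZG H)).flip (Φ z)) (fun a => ?_) w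
    refine foxb_ext (Φ.comp (AddMonoidHom.mulLeft (mapZ ι (og a))))
      ((smulAddHom (ZG H) (T →₀ ZG H) (og a)).comp Φ) (fun x => ?_) z
    change Φ (mapZ ι (og a) * og x) = og a • Φ (og x)
    rw [mapZ_og, ← foxb_og_mul, hΦ, hΦ, h2, h3, Finsupp.smul_single, smul_eq_mul, foxb_og_mul]
  have h6 : ∀ t, ∃ q, Φ z t = l * q := fun t => h _ (by
    have := congrArg (fun f : T →₀ ZG H => f t) (h5 w z)
    rw [hz, map_zero] at this
    exact this.symm)
  choose q hq using h6
  refine ⟨∑ t ∈ (Φ z).support, mapZ ι (q t) * og t.out, ?_⟩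
  rw [Finset.mul_sum]
  refine (h4 z).symm.trans (Finset.sum_congr rfl fun t _ => ?_)
  change mapZ ι (Φ z t) * og t.out = _
  rw [hq, map_mul, mul_assoc]

/-- the involution `g ↦ g⁻¹` of the group ring -/
noncomputable def foxb_bar (G : Type) [Group G] : ZG G →+ ZG G :=
  MulOpposite.opAddEquiv.symm.toAddMonoidHom.comp
    (rz ((MonoidHom.op (MonoidAlgebra.of ℤ G)).comp (MulEquiv.inv' G).toMonoidHom)).toAddMonoidHom

theorem foxb_bar_og (g : G) : foxb_bar G (og g) = og g⁻¹ := by
  change MulOpposite.unop (rz _ (og g)) = _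
  rw [rz_og]
  rfl

theorem foxb_bar_mul (a b : ZG G) : foxb_bar G (a * b) = foxb_bar G b * foxb_bar G a := by
  change MulOpposite.unop (rz _ (a * b)) = _
  rw [map_mul]
  rfl

theorem foxb_bar_bar (a : ZG G) : foxb_bar G (foxb_bar G a) = a :=
  foxb_ext ((foxb_bar G).comp (foxb_bar G)) (AddMonoidHom.id _) (fun g => by
    change foxb_bar G (foxb_bar G (og g)) = og g
    rw [foxb_bar_og, foxb_bar_og, inv_inv]) a

theorem foxb_bar_mapZ {H : Type} [Group H] (ι : H →* G) (a : ZG H) :
    foxb_bar G (mapZ ι a) = mapZ ι (foxb_bar H a) :=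
  foxb_ext ((foxb_bar G).comp (mapZ ι).toAddMonoidHom)
    ((mapZ ι).toAddMonoidHom.comp (foxb_bar H)) (fun g => by
    change foxb_bar G (mapZ ι (og g)) = mapZ ι (foxb_bar H (og g))
    rw [foxb_bar_og, mapZ_og, mapZ_og, foxb_bar_og, map_inv]) a

/-- the same for right multiplications -/
theorem exact_of_subgroup' {H : Type} [Group H] (ι : H →* G) (hι : Function.Injective ι) (w l : ZG H)
    (h : ∀ x : ZG H, x * w = 0 → ∃ q, x = q * l) (z : ZG G) (hz : z * mapZ ι w = 0) :
    ∃ q, z = q * mapZ ι l := by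
  obtain ⟨q, hq⟩ := exact_of_subgroup ι hι (foxb_bar H w) (foxb_bar H l) (fun x hx => by
    obtain ⟨q, hq⟩ := h (foxb_bar H x) (by
      rw [← foxb_bar_bar w, ← foxb_bar_mul, hx, map_zero])
    exact ⟨foxb_bar H q, by rw [← foxb_bar_mul, ← hq, foxb_bar_bar]⟩) (foxb_bar G z) (by
      rw [← foxb_bar_mapZ, ← foxb_bar_mul, hz, map_zero])
  exact ⟨foxb_bar G q, by rw [← foxb_bar_bar z, hq, foxb_bar_mul, foxb_bar_mapZ, foxb_bar_bar]⟩

/-- cyclic subgroups: the kernel of the norm element -/
theorem exists_of_mul_norm (g : G) (n : ℕ) (hn : 0 < n) (hg : orderOf g = n) (z : ZG G)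
    (hz : z * ∑ i ∈ Finset.range n, og (g ^ i) = 0) : ∃ y, z = y * (og g - 1) := by
  let g' : Subgroup.zpowers g := ⟨g, Subgroup.mem_zpowers g⟩
  have hfin : IsOfFinOrder g := orderOf_pos_iff.1 (hg ▸ hn)
  obtain ⟨q, hq⟩ := exact_of_subgroup' (Subgroup.zpowers g).subtype Subtype.val_injective
    (∑ i ∈ Finset.range n, og (g' ^ i)) (og g' - 1) (fun x hx => by
      have h1 := congrArg (eps _) hx
      simp only [map_mul, map_sum, eps_og, map_zero, Finset.sum_const, Finset.card_range,
        nsmul_eq_mul, mul_one, mul_eq_zero, Nat.cast_eq_zero, hn.ne', or_false] at h1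
      have h2 := foxb_mem (Ideal.span {og g' - 1}).toAddSubgroup
        (AddMonoidHom.id (ZG (Subgroup.zpowers g)) - (Int.castAddHom (ZG (Subgroup.zpowers g))).comp
          (eps (Subgroup.zpowers g)).toAddMonoidHom) (fun a => by
          obtain ⟨k, hk⟩ := (hfin.mem_powers_iff_mem_zpowers).2 a.2
          obtain rfl : a = g' ^ k := Subtype.ext hk.symm
          change og (g' ^ k) - ((eps _ (og (g' ^ k)) : ℤ) : ZG _) ∈ Ideal.span {og g' - 1}
          rw [eps_og, Int.cast_one, show og (g' ^ k) = og g' ^ k from map_pow _ _ _, ← geom_sum_mul]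
          exact Ideal.mul_mem_left _ _ (Ideal.mem_span_singleton_self _)) x
      change x - ((eps _ x : ℤ) : ZG _) ∈ Ideal.span {og g' - 1} at h2
      rw [h1, Int.cast_zero, sub_zero] at h2
      obtain ⟨q, hq⟩ := Ideal.mem_span_singleton'.1 h2
      exact ⟨q, hq.symm⟩) z (by
      rw [map_sum, ← hz]
      congr 1
      exact Finset.sum_congr rfl fun i _ => mapZ_og _ _)
  exact ⟨q, by rw [hq, map_sub, map_one, mapZ_og]; rfl⟩

/-- the matrix of Fox derivatives of a family of words (second boundary of the Cayley complex) -/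
noncomputable def foxM {R : Type} (π : S → G) (rl : R → FreeGroup S) : Matrix R S (ZG G) :=
  Matrix.of fun r => fox π (rl r)

/-- `(π, rl)` is a finite presentation of `G` whose Cayley complex is chain equivalent to the Cayley complex of the
presentation `(gen, rel)` with three-cells attached along the rows of `s`. -/
structure Realises {S₀ R₀ J : Type} [Fintype S₀] [DecidableEq S₀] [Fintype R₀] [Fintype J]
    (gen : S₀ → G) (rel : R₀ → FreeGroup S₀) (s : Matrix J R₀ (ZG G))
    {S R : Type} [Fintype S] [DecidableEq S] [Fintype R] (π : S → G) (rl : R → FreeGroup S) : Prop where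
  surj : Function.Surjective (FreeGroup.lift π)
  ker_eq : (FreeGroup.lift π).ker = Subgroup.normalClosure (Set.range rl)
  chain : ∃ (ψ₁ : Matrix S S₀ (ZG G)) (ψ₂ : Matrix R R₀ (ZG G)),
    (∀ e, ∑ x, ψ₁ e x * (og (gen x) - 1) = og (π e) - 1) ∧
    foxM π rl * ψ₁ = ψ₂ * foxM gen rel ∧
    (∀ x : R → ZG G, x ᵥ* foxM π rl = 0 → ∀ κ : J → ZG G, x ᵥ* ψ₂ = κ ᵥ* s → x = 0) ∧
    (∀ z : R₀ → ZG G, z ᵥ* foxM gen rel = 0 → ∃ (x : R → ZG G) (κ : J → ZG G),
      x ᵥ* foxM π rl = 0 ∧ z = x ᵥ* ψ₂ + κ ᵥ* s)

end Crest.Agent.R251
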