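import Crest.Agent.R251.Fox

/-!
# Row 251: the group `G`

`G = ⟨t, u, σ, ρ | ρ^30, t σ t⁻¹ ρ^-15, u σ' u⁻¹ ρ^-15, [σ, b'], [a, bZ]⟩` with `a = ρ^6`, `b = ρ^10`, `c = ρ^15`,
`σ' = ρ^-7 σ⁻¹ ρ^8`, `b' = t b t⁻¹`, `bZ = u⁻¹ b' u`: a graph of the groups `A = D₃₀ = ⟨σ, ρ⟩`, `B = D₆ = ⟨b', σ, c⟩`,
`Z = D₁₅ = ⟨a, bZ, σ'⟩`.

Recipes. Relations: `c² = 1` gives `σ² = 1` and `σ'² = 1`, so `(σ⁻¹ ρ)² = 1` (`σ⁻¹ ρ` is conjugate to `σ'`), i.e. `σ ρ σ⁻¹ = ρ⁻¹`.
`d2_*`: `fox_mul`, `fox_inv`, `fox_pow`, `fox_of`, then `funext`/`cases`.  `orderOf_gr`, `homB_inj`, `homZ_inj`: use `mkRep` into a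
finite permutation or matrix group, e.g. the monomial `6 × 6` representation of `KBend` over `ZMod 31` (`α = 2`, `β = 5`;
`2^5 = 32 = 1`, `5^3 = 125 = 1`; type `AZ`), or any other; injectivity of a homomorphism out of a finite group is
`injective_iff_map_eq_one` + `decide`.
-/

set_option autoImplicit false

open Matrix

namespace Crest.Agent.R251

/-- generators -/
inductive Gen | t | u | s | r
  deriving DecidableEq, Fintype

/-- relators -/
inductive Rel | r | t | u | B | Z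
  deriving DecidableEq, Fintype

def wt : FreeGroup Gen := .of .t
def wu : FreeGroup Gen := .of .u
def ws : FreeGroup Gen := .of .s
def wr : FreeGroup Gen := .of .r
def wsp : FreeGroup Gen := (wr ^ 7)⁻¹ * ws⁻¹ * wr ^ 8
def wbB : FreeGroup Gen := wt * wr ^ 10 * wt⁻¹
def wbZ : FreeGroup Gen := wu⁻¹ * wbB * wu

/-- the relators -/
def rel : Rel → FreeGroup Gen
  | .r => wr ^ 30
  | .t => wt * ws * wt⁻¹ * (wr ^ 15)⁻¹
  | .u => wu * wsp * wu⁻¹ * (wr ^ 15)⁻¹
  | .B => ws * wbB * ws⁻¹ * wbB⁻¹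
  | .Z => wr ^ 6 * wbZ * (wr ^ 6)⁻¹ * wbZ⁻¹

/-- the group -/
abbrev G : Type := PresentedGroup (Set.range rel)

/-- the generators in the group -/
def gen (x : Gen) : G := PresentedGroup.of x

def gt : G := gen .t
def gu : G := gen .u
def gs : G := gen .s
def gr : G := gen .r
def ga : G := gr ^ 6
def gb : G := gr ^ 10
def gc : G := gr ^ 15
def gsp : G := gs * gc
def gbB : G := gt * gb * gt⁻¹
def gbZ : G := gu⁻¹ * gbB * gu
def gz : G := ga * gbZ

theorem lift_gen (w : FreeGroup Gen) :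
    FreeGroup.lift gen w = PresentedGroup.mk (Set.range rel) w := by
  have h : (FreeGroup.lift gen : FreeGroup Gen →* G) = PresentedGroup.mk (Set.range rel) := by
    ext x
    rw [FreeGroup.lift_apply_of]
    rfl
  rw [h]

theorem lift_gen_surj : Function.Surjective (FreeGroup.lift gen) := by
  intro g
  obtain ⟨w, rfl⟩ := PresentedGroup.mk_surjective (Set.range rel) g
  exact ⟨w, lift_gen w⟩

theorem ker_lift_gen : (FreeGroup.lift gen).ker = Subgroup.normalClosure (Set.range rel) := by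
  ext w
  rw [MonoidHom.mem_ker, lift_gen]
  exact PresentedGroup.mk_eq_one_iff

theorem lift_gen_rel (r : Rel) : FreeGroup.lift gen (rel r) = 1 := by
  rw [← MonoidHom.mem_ker, ker_lift_gen]
  exact Subgroup.subset_normalClosure ⟨r, rfl⟩

theorem lift_wt_pa : FreeGroup.lift gen wt = gt := FreeGroup.lift_apply_of
theorem lift_wu_pa : FreeGroup.lift gen wu = gu := FreeGroup.lift_apply_of
theorem lift_ws_pa : FreeGroup.lift gen ws = gs := FreeGroup.lift_apply_of
theorem lift_wr_pa : FreeGroup.lift gen wr = gr := FreeGroup.lift_apply_of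
theorem lift_wbB_pa : FreeGroup.lift gen wbB = gbB := by
  simp only [wbB, gbB, gb, map_mul, map_inv, map_pow, lift_wt_pa, lift_wr_pa]
theorem lift_wbZ_pa : FreeGroup.lift gen wbZ = gbZ := by
  simp only [wbZ, gbZ, map_mul, map_inv, lift_wu_pa, lift_wbB_pa]

/-- a reflection inverts all powers of the rotation -/
theorem refl_pow_aux_pa {H : Type} [Group H] {s r : H} (h : s * r = r⁻¹ * s) (k : ℕ) :
    s * r ^ k = (r ^ k)⁻¹ * s := by
  induction k with
  | zero => simp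
  | succ k ih => rw [pow_succ, ← mul_assoc, ih, mul_assoc, h, ← mul_assoc, ← pow_succ, pow_succ',
      _root_.mul_inv_rev]

theorem wsp_aux_pa {H : Type} [Group H] {s r : H} (hs : s * s = 1) (h : s * r = r⁻¹ * s) :
    (r ^ 7)⁻¹ * s⁻¹ * r ^ 8 = s * r ^ 15 := by
  rw [inv_eq_of_mul_eq_one_right hs, ← refl_pow_aux_pa h 7, mul_assoc, ← pow_add]

theorem gr_pow : gr ^ 30 = 1 := by
  have h := lift_gen_rel .r
  simpa only [rel, map_pow, lift_wr_pa] using h

theorem gc_sq_aux_pa : gc * gc = 1 := by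
  rw [gc, ← pow_add]; exact gr_pow

theorem gt_conj_pa : gt * gs * gt⁻¹ = gc := by
  have h := lift_gen_rel .t
  simp only [rel, map_mul, map_inv, map_pow, lift_wr_pa, lift_wt_pa, lift_ws_pa] at h
  exact mul_inv_eq_one.mp h

theorem gu_conj_aux_pa : gu * ((gr ^ 7)⁻¹ * gs⁻¹ * gr ^ 8) * gu⁻¹ = gc := by
  have h := lift_gen_rel .u
  simp only [rel, wsp, map_mul, map_inv, map_pow, lift_wr_pa, lift_wu_pa, lift_ws_pa] at h
  exact mul_inv_eq_one.mp h

theorem gs_sq : gs * gs = 1 := by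
  have h : gt * (gs * gs) * gt⁻¹ = 1 := by
    rw [← gc_sq_aux_pa, ← gt_conj_pa]; group
  simpa using h
theorem gs_gr : gs * gr = gr⁻¹ * gs := by
  have h : (gu * (gr ^ 7)⁻¹) * ((gs⁻¹ * gr) * (gs⁻¹ * gr)) * (gu * (gr ^ 7)⁻¹)⁻¹ = 1 := by
    rw [← gc_sq_aux_pa, ← gu_conj_aux_pa]; group
  have h2 : (gs⁻¹ * gr) * (gs⁻¹ * gr) = 1 := by
    have := mul_inv_eq_one.mp h
    exact mul_eq_left.mp this
  have h3 : gs⁻¹ = gs := inv_eq_of_mul_eq_one_right gs_sq
  rw [h3] at h2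
  have h4 : gs * gr = (gs * gr)⁻¹ := eq_inv_of_mul_eq_one_left h2
  rw [h4, _root_.mul_inv_rev, h3]
theorem gs_gr_pow_pa (k : ℕ) : gs * gr ^ k = (gr ^ k)⁻¹ * gs := refl_pow_aux_pa gs_gr k
theorem gs_inv_pa : gs⁻¹ = gs := inv_eq_of_mul_eq_one_right gs_sq
theorem lift_wsp : FreeGroup.lift gen wsp = gsp := by
  simp only [wsp, map_mul, map_inv, map_pow, lift_wr_pa, lift_ws_pa]
  exact wsp_aux_pa gs_sq gs_gr
theorem gt_gs : gt * gs = gc * gt := by
  rw [← gt_conj_pa]; group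
theorem gu_conj_pa : gu * gsp * gu⁻¹ = gc := by
  rw [← gu_conj_aux_pa, wsp_aux_pa gs_sq gs_gr]; rfl
theorem gu_gsp : gu * gsp = gc * gu := by
  rw [← gu_conj_pa]; group
theorem gs_gbB : gs * gbB = gbB * gs := by
  have h := lift_gen_rel .B
  simp only [rel, map_mul, map_inv, lift_ws_pa, lift_wbB_pa] at h
  exact mul_inv_eq_iff_eq_mul.mp (mul_inv_eq_one.mp h)
theorem ga_gbZ : ga * gbZ = gbZ * ga := by
  have h := lift_gen_rel .Z
  simp only [rel, map_mul, map_inv, map_pow, lift_wr_pa, lift_wbZ_pa] at h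
  exact mul_inv_eq_iff_eq_mul.mp (mul_inv_eq_one.mp h)
theorem gc_sq : gc * gc = 1 := gc_sq_aux_pa
theorem gc_inv_pa : gc⁻¹ = gc := inv_eq_of_mul_eq_one_right gc_sq
theorem gs_gc_aux_pa : gs * gc = gc * gs := by
  have h := gs_gr_pow_pa 15
  rw [show gr ^ 15 = gc from rfl, gc_inv_pa] at h
  exact h
theorem gsp_sq : gsp * gsp = 1 := by
  calc gsp * gsp = gs * (gc * gs) * gc := by simp only [gsp, mul_assoc]
    _ = (gs * gs) * (gc * gc) := by rw [← gs_gc_aux_pa]; simp only [mul_assoc]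
    _ = 1 := by rw [gs_sq, gc_sq, one_mul]
theorem gs_gc : gs * gc = gc * gs := gs_gc_aux_pa
theorem ga_pow : ga ^ 5 = 1 := by
  rw [ga, ← pow_mul]; exact gr_pow
theorem gb_pow : gb ^ 3 = 1 := by
  rw [gb, ← pow_mul]; exact gr_pow
theorem gbB_pow : gbB ^ 3 = 1 := by
  rw [gbB, conj_pow, gb_pow]; simp
theorem gbZ_pow : gbZ ^ 3 = 1 := by
  have h : gbZ = gu⁻¹ * gbB * gu⁻¹⁻¹ := by rw [inv_inv]; rfl
  rw [h, conj_pow, gbB_pow]; simp
theorem gc_gbB : gc * gbB = gbB⁻¹ * gc := by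
  have h : gs * gb = gb⁻¹ * gs := gs_gr_pow_pa 10
  calc gc * gbB = gt * (gs * gb) * gt⁻¹ := by rw [← gt_conj_pa, gbB]; group
    _ = gbB⁻¹ * gc := by rw [h, ← gt_conj_pa, gbB]; group
theorem gsp_gbZ : gsp * gbZ = gbZ⁻¹ * gsp := by
  have h : gsp = gu⁻¹ * gc * gu := by rw [← gu_conj_pa]; group
  calc gsp * gbZ = gu⁻¹ * (gc * gbB) * gu := by rw [h, gbZ]; group
    _ = gbZ⁻¹ * gsp := by rw [gc_gbB, h, gbZ]; group
theorem gsp_ga : gsp * ga = ga⁻¹ * gsp := by
  have h : gs * ga = ga⁻¹ * gs := gs_gr_pow_pa 6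
  have h2 : gc * ga = ga * gc := by rw [gc, ga, ← pow_add, ← pow_add]
  rw [gsp, mul_assoc, h2, ← mul_assoc, h, mul_assoc]
theorem gr_eq : gr = ga * gb * gc := by
  rw [ga, gb, gc, ← pow_add, ← pow_add, show 6 + 10 + 15 = 30 + 1 from rfl, pow_succ, gr_pow, one_mul]

/-- homomorphisms into a group -/
theorem exists_hom_grp_pa {H : Type} [Group H] {t u s r : H} (h1 : r ^ 30 = 1) (h2 : s * s = 1)
    (h3 : s * r * s * r = 1) (h4 : t * s = r ^ 15 * t) (h5 : u * (s * r ^ 15) = r ^ 15 * u)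
    (h6 : s * (t * r ^ 10 * t⁻¹) = t * r ^ 10 * t⁻¹ * s)
    (h7 : r ^ 6 * (u⁻¹ * (t * r ^ 10 * t⁻¹) * u) = u⁻¹ * (t * r ^ 10 * t⁻¹) * u * r ^ 6) :
    ∃ θ : G →* H, θ gt = t ∧ θ gu = u ∧ θ gs = s ∧ θ gr = r := by
  let f : Gen → H := fun x => match x with
    | .t => t | .u => u | .s => s | .r => r
  have et : FreeGroup.lift f wt = t := FreeGroup.lift_apply_of
  have eu : FreeGroup.lift f wu = u := FreeGroup.lift_apply_of
  have es : FreeGroup.lift f ws = s := FreeGroup.lift_apply_of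
  have er : FreeGroup.lift f wr = r := FreeGroup.lift_apply_of
  have hsr : s * r = r⁻¹ * s := by
    have h4 : s * r = (s * r)⁻¹ := eq_inv_of_mul_eq_one_left (by rw [← mul_assoc]; exact h3)
    rw [h4, _root_.mul_inv_rev, inv_eq_of_mul_eq_one_right h2]
  have hrel : ∀ w ∈ Set.range rel, FreeGroup.lift f w = 1 := by
    rintro _ ⟨x, rfl⟩
    cases x <;> simp only [rel, wsp, wbZ, wbB, map_mul, map_inv, map_pow, et, eu, es, er]
    · exact h1
    · rw [h4]; group
    · rw [wsp_aux_pa h2 hsr, h5]; group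
    · rw [h6]; group
    · rw [h7]; group
  exact ⟨PresentedGroup.toGroup hrel, PresentedGroup.toGroup.of hrel, PresentedGroup.toGroup.of hrel,
    PresentedGroup.toGroup.of hrel, PresentedGroup.toGroup.of hrel⟩

/-- the defining relations, in a monoid, with explicit inverses of `t` and `u` -/
structure RD {M : Type} [Monoid M] (t ti u ui s r : M) : Prop where
  t_ti : t * ti = 1
  ti_t : ti * t = 1
  u_ui : u * ui = 1
  ui_u : ui * u = 1
  r_pow : r ^ 30 = 1
  s_sq : s * s = 1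
  s_r : s * r * s * r = 1
  t_s : t * s = r ^ 15 * t
  u_sp : u * (s * r ^ 15) = r ^ 15 * u
  s_bB : s * (t * r ^ 10 * ti) = t * r ^ 10 * ti * s
  a_bZ : r ^ 6 * (ui * (t * r ^ 10 * ti) * u) = ui * (t * r ^ 10 * ti) * u * r ^ 6

theorem RD.exists_hom {M : Type} [Monoid M] {t ti u ui s r : M} (h : RD t ti u ui s r) :
    ∃ θ : G →* M, θ gt = t ∧ θ gu = u ∧ θ gs = s ∧ θ gr = r := by
  let T : Mˣ := ⟨t, ti, h.t_ti, h.ti_t⟩
  let U : Mˣ := ⟨u, ui, h.u_ui, h.ui_u⟩
  let S : Mˣ := ⟨s, s, h.s_sq, h.s_sq⟩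
  let R : Mˣ := ⟨r, r ^ 29, by rw [← pow_succ']; exact h.r_pow, by rw [← pow_succ]; exact h.r_pow⟩
  obtain ⟨θ, h1, h2, h3, h4⟩ := exists_hom_grp_pa (t := T) (u := U) (s := S) (r := R)
    (Units.ext (by rw [Units.val_pow_eq_pow_val]; exact h.r_pow))
    (Units.ext h.s_sq) (Units.ext h.s_r)
    (Units.ext (by simpa only [Units.val_mul, Units.val_pow_eq_pow_val] using h.t_s))
    (Units.ext (by simpa only [Units.val_mul, Units.val_pow_eq_pow_val] using h.u_sp))
    (Units.ext (by simp only [Units.val_mul, Units.val_pow_eq_pow_val]; exact h.s_bB))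
    (Units.ext (by simp only [Units.val_mul, Units.val_pow_eq_pow_val]; exact h.a_bZ))
  refine ⟨(Units.coeHom M).comp θ, ?_, ?_, ?_, ?_⟩
  · rw [MonoidHom.comp_apply, h1]; rfl
  · rw [MonoidHom.comp_apply, h2]; rfl
  · rw [MonoidHom.comp_apply, h3]; rfl
  · rw [MonoidHom.comp_apply, h4]; rfl

/-- the representation defined by relation data -/
noncomputable def RD.hom {M : Type} [Monoid M] {t ti u ui s r : M} (h : RD t ti u ui s r) : G →* M :=
  h.exists_hom.choose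

theorem RD.hom_gt {M : Type} [Monoid M] {t ti u ui s r : M} (h : RD t ti u ui s r) : h.hom gt = t :=
  h.exists_hom.choose_spec.1
theorem RD.hom_gu {M : Type} [Monoid M] {t ti u ui s r : M} (h : RD t ti u ui s r) : h.hom gu = u :=
  h.exists_hom.choose_spec.2.1
theorem RD.hom_gs {M : Type} [Monoid M] {t ti u ui s r : M} (h : RD t ti u ui s r) : h.hom gs = s :=
  h.exists_hom.choose_spec.2.2.1
theorem RD.hom_gr {M : Type} [Monoid M] {t ti u ui s r : M} (h : RD t ti u ui s r) : h.hom gr = r :=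
  h.exists_hom.choose_spec.2.2.2

theorem rd_of_hom {M : Type} [Monoid M] (θ : G →* M) :
    RD (θ gt) (θ gt⁻¹) (θ gu) (θ gu⁻¹) (θ gs) (θ gr) := by
  constructor
  · rw [← map_mul, mul_inv_cancel, map_one]
  · rw [← map_mul, inv_mul_cancel, map_one]
  · rw [← map_mul, mul_inv_cancel, map_one]
  · rw [← map_mul, inv_mul_cancel, map_one]
  · rw [← map_pow, gr_pow, map_one]
  · rw [← map_mul, gs_sq, map_one]
  · have h : gs * gr * gs * gr = 1 := by
      rw [gs_gr, mul_assoc gr⁻¹, gs_sq, mul_one, inv_mul_cancel]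
    simpa only [map_mul, map_one] using congrArg θ h
  · simpa only [gc, map_mul, map_pow] using congrArg θ gt_gs
  · simpa only [gsp, gc, map_mul, map_pow] using congrArg θ gu_gsp
  · simpa only [gbB, gb, map_mul, map_pow] using congrArg θ gs_gbB
  · simpa only [ga, gbZ, gbB, gb, map_mul, map_pow] using congrArg θ ga_gbZ

theorem hom_ext {M : Type} [Monoid M] {θ θ' : G →* M} (ht : θ gt = θ' gt) (hu : θ gu = θ' gu)
    (hs : θ gs = θ' gs) (hr : θ gr = θ' gr) : θ = θ' := by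
  have h : θ.toHomUnits = θ'.toHomUnits := by
    apply PresentedGroup.ext
    intro x
    apply Units.ext
    cases x
    exacts [ht, hu, hs, hr]
  ext g
  exact congrArg (fun φ : G →* Mˣ => (φ g : M)) h

/-- `G` maps onto the free group on `t, u` -/
theorem exists_fr : ∃ fr : G →* FreeGroup Bool,
    fr gt = .of true ∧ fr gu = .of false ∧ fr gs = 1 ∧ fr gr = 1 := by
  apply exists_hom_grp_pa <;> simp

/-- the retraction to the free group on `t, u` -/
noncomputable def fr : G →* FreeGroup Bool := exists_fr.choose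

theorem fr_gt : fr gt = .of true := exists_fr.choose_spec.1
theorem fr_gu : fr gu = .of false := exists_fr.choose_spec.2.1
theorem fr_gs : fr gs = 1 := exists_fr.choose_spec.2.2.1
theorem fr_gr : fr gr = 1 := exists_fr.choose_spec.2.2.2

instance infinite_G : Infinite G := by
  have hs : Function.Surjective fr := by
    intro w
    induction w using FreeGroup.induction_on with
    | C1 => exact ⟨1, map_one _⟩
    | of x => cases x; exacts [⟨gu, fr_gu⟩, ⟨gt, fr_gt⟩]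
    | inv_of x ih => obtain ⟨g, hg⟩ := ih; exact ⟨g⁻¹, by rw [map_inv, hg]⟩
    | mul x y hx hy =>
      obtain ⟨g, hg⟩ := hx; obtain ⟨g', hg'⟩ := hy
      exact ⟨g * g', by rw [map_mul, hg, hg']⟩
  exact Infinite.of_surjective fr hs

theorem grpb_dih {K : Type} [Group K] {n : ℕ} [NeZero n] {x y : K} (hx : x ^ n = 1)
    (hy : y * y = 1) (hxy : y * x = x⁻¹ * y) :
    ∃ ι : DihedralGroup n →* K, (∀ i : ZMod n, ι (.r i) = x ^ i.val) ∧
      ∀ i : ZMod n, ι (.sr i) = y * x ^ i.val := by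
  have add : ∀ i j : ZMod n, x ^ (i + j).val = x ^ i.val * x ^ j.val := fun i j => by
    rw [ZMod.val_add, ← pow_eq_pow_mod _ hx, pow_add]
  have sub : ∀ i j : ZMod n, x ^ (j - i).val = (x ^ i.val)⁻¹ * x ^ j.val := fun i j => by
    rw [eq_inv_mul_iff_mul_eq, ← add, add_sub_cancel]
  have sc : SemiconjBy y x x⁻¹ := hxy
  have sw : ∀ k : ℕ, x ^ k * y = y * (x ^ k)⁻¹ := fun k => by
    have := (sc.pow_right k).inv_right.eq
    rw [inv_pow, inv_inv] at this
    exact this.symm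
  refine ⟨MonoidHom.mk' (fun g => match g with
    | .r i => x ^ i.val
    | .sr i => y * x ^ i.val) ?_, fun _ => rfl, fun _ => rfl⟩
  rintro (i | i) (j | j)
  · exact add i j
  · change y * x ^ (j - i).val = x ^ i.val * (y * x ^ j.val)
    rw [sub, ← mul_assoc, ← mul_assoc, sw]
  · change y * x ^ (i + j).val = y * x ^ i.val * x ^ j.val
    rw [add, mul_assoc]
  · change x ^ (j - i).val = y * x ^ i.val * (y * x ^ j.val)
    rw [sub, ← mul_assoc, mul_assoc y, sw, ← mul_assoc, hy, one_mul]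

theorem grpb_dih' {K : Type} [Group K] {n : ℕ} (hn : 2 < n) {x y : K} (hx : orderOf x = n)
    (hy : y * y = 1) (hxy : y * x = x⁻¹ * y) :
    ∃ ι : DihedralGroup n →* K, ι (.r 1) = x ∧ ι (.sr 0) = y ∧ Function.Injective ι := by
  have : NeZero n := ⟨by omega⟩
  have : Fact (1 < n) := ⟨by omega⟩
  obtain ⟨ι, h1, h2⟩ := grpb_dih (n := n) (hx ▸ pow_orderOf_eq_one x) hy hxy
  refine ⟨ι, by rw [h1, ZMod.val_one, pow_one], by rw [h2, ZMod.val_zero, pow_zero, mul_one], ?_⟩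
  rw [injective_iff_map_eq_one]
  rintro (i | i) h
  · rw [h1, ← orderOf_dvd_iff_pow_eq_one, hx] at h
    have := Nat.eq_zero_of_dvd_of_lt h (ZMod.val_lt i)
    rw [(ZMod.val_eq_zero i).1 this]
    rfl
  · exfalso
    rw [h2, mul_eq_one_iff_eq_inv] at h
    have hc : Commute y x := by
      rw [h]
      exact ((Commute.refl x).pow_left _).inv_left
    have h3 : x ^ 2 = 1 := by
      rw [hc.eq, mul_left_inj] at hxy
      rw [pow_two]
      exact mul_eq_one_iff_eq_inv.2 hxy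
    rw [← orderOf_dvd_iff_pow_eq_one, hx] at h3
    exact absurd (Nat.le_of_dvd two_pos h3) (by omega)

open Equiv in
theorem grpb_rd5 : RD (M := Perm (Fin 13))
    (swap 1 9 * swap 4 10 * swap 2 11 * swap 3 12) (swap 1 9 * swap 4 10 * swap 2 11 * swap 3 12)
    (swap 1 5 * swap 4 6 * swap 2 7 * swap 3 8) (swap 1 5 * swap 4 6 * swap 2 7 * swap 3 8)
    (swap 1 4 * swap 2 3 * swap 5 6 * swap 7 8)
    (swap 0 1 * swap 1 2 * swap 2 3 * swap 3 4 * swap 5 6 * swap 7 8 * swap 9 10 * swap 11 12) := by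
  constructor <;> decide +kernel

open Equiv in
theorem grpb_rd3 : RD (M := Perm (Fin 8))
    (swap 0 3 * swap 1 4 * swap 2 5) (swap 0 3 * swap 1 4 * swap 2 5)
    (swap 0 6 * swap 1 7) (swap 0 6 * swap 1 7) (swap 0 1 * swap 6 7)
    (swap 0 1 * swap 1 2 * swap 3 4 * swap 6 7) := by
  constructor <;> decide +kernel

theorem grpb_order : orderOf gr = 30 := by
  refine orderOf_eq_of_pow_and_pow_div_prime (by norm_num) gr_pow fun p hp hd h => ?_
  have h5 := congrArg grpb_rd5.hom h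
  have h3 := congrArg grpb_rd3.hom h
  rw [map_pow, RD.hom_gr, map_one] at h5 h3
  have hle : p ≤ 30 := Nat.le_of_dvd (by norm_num) hd
  have : p = 2 ∨ p = 3 ∨ p = 5 := by
    have h30 : p ∣ 2 * 3 * 5 := hd
    rcases (Nat.Prime.dvd_mul hp).1 h30 with h | h
    · rcases (Nat.Prime.dvd_mul hp).1 h with h | h
      · exact .inl ((Nat.prime_dvd_prime_iff_eq hp Nat.prime_two).1 h)
      · exact .inr (.inl ((Nat.prime_dvd_prime_iff_eq hp Nat.prime_three).1 h))
    · exact .inr (.inr ((Nat.prime_dvd_prime_iff_eq hp Nat.prime_five).1 h))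
  rcases this with rfl | rfl | rfl
  · exact absurd h3 (by decide +kernel)
  · exact absurd h3 (by decide +kernel)
  · exact absurd h5 (by decide +kernel)

theorem grpb_conj {a b g : G} (h : g * a = b * g) : orderOf a = orderOf b :=
  SemiconjBy.orderOf_eq g h

theorem grpb_ga : orderOf ga = 5 := by
  rw [ga, orderOf_pow' _ (by norm_num), grpb_order]
  norm_num

theorem grpb_gb : orderOf gb = 3 := by
  rw [gb, orderOf_pow' _ (by norm_num), grpb_order]
  norm_num

theorem grpb_gc : orderOf gc = 2 := by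
  rw [gc, orderOf_pow' _ (by norm_num), grpb_order]
  norm_num

theorem grpb_gbB : orderOf gbB = 3 := by
  rw [← grpb_gb]
  exact (grpb_conj (g := gt) (by rw [gbB, inv_mul_cancel_right])).symm

theorem grpb_gbZ : orderOf gbZ = 3 := by
  rw [← grpb_gbB]
  exact grpb_conj (g := gu) (by rw [gbZ, mul_assoc, mul_inv_cancel_left])

theorem grpb_gs : orderOf gs = 2 := (grpb_conj gt_gs).trans grpb_gc

theorem grpb_gsp : orderOf gsp = 2 := (grpb_conj gu_gsp).trans grpb_gc

/-- `A = D₃₀` -/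
theorem exists_homA : ∃ ι : DihedralGroup 30 →* G, ι (.r 1) = gr ∧ ι (.sr 0) = gs := by
  obtain ⟨ι, h1, h2, -⟩ := grpb_dih' (by norm_num) grpb_order gs_sq gs_gr
  exact ⟨ι, h1, h2⟩

/-- `B = D₆`, generated by the rotation `σ b'` and the reflection `c` -/
theorem exists_homB : ∃ ι : DihedralGroup 6 →* G, ι (.r 1) = gs * gbB ∧ ι (.sr 0) = gc ∧
    Function.Injective ι := by
  have hc : Commute gs gbB := gs_gbB
  refine grpb_dih' (by norm_num) ?_ gc_sq ?_
  · rw [hc.orderOf_mul_eq_mul_orderOf_of_coprime (by rw [grpb_gs, grpb_gbB]; norm_num), grpb_gs,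
      grpb_gbB]
  · rw [← mul_assoc, ← gs_gc, mul_assoc, gc_gbB, _root_.mul_inv_rev, inv_eq_of_mul_eq_one_right gs_sq,
      ← mul_assoc, hc.inv_right.eq]

/-- `Z = D₁₅`, generated by the rotation `z = a bZ` and the reflection `σ'` -/
theorem exists_homZ : ∃ ι : DihedralGroup 15 →* G, ι (.r 1) = gz ∧ ι (.sr 0) = gsp ∧
    Function.Injective ι := by
  have hc : Commute ga gbZ := ga_gbZ
  refine grpb_dih' (by norm_num) ?_ gsp_sq ?_
  · rw [gz, hc.orderOf_mul_eq_mul_orderOf_of_coprime (by rw [grpb_ga, grpb_gbZ]; norm_num),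
      grpb_ga, grpb_gbZ]
  · rw [gz, ← mul_assoc, gsp_ga, mul_assoc, gsp_gbZ, _root_.mul_inv_rev, ← mul_assoc,
      hc.inv_inv.eq]

theorem orderOf_gr : orderOf gr = 30 := grpb_order
theorem orderOf_gs : orderOf gs = 2 := grpb_gs
theorem orderOf_gsp : orderOf gsp = 2 := grpb_gsp

/-- the second boundary matrix of the presentation complex -/
noncomputable def d2 : Matrix Rel Gen (ZG G) := foxM gen rel

/-- `1 + ρ + ⋯ + ρ^(k-1)` -/
noncomputable def sr (k : ℕ) : ZG G := ∑ i ∈ Finset.range k, og (gr ^ i)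

theorem og_mul_pa (x y : G) : og (x * y) = og x * og y := map_mul _ _ _
theorem og_one_pa : og (1 : G) = 1 := map_one _

theorem fox_wt_pa : fox gen wt = Pi.single .t 1 := fox_of _ _
theorem fox_wu_pa : fox gen wu = Pi.single .u 1 := fox_of _ _
theorem fox_ws_pa : fox gen ws = Pi.single .s 1 := fox_of _ _
theorem fox_wr_pow_pa (k : ℕ) : fox gen (wr ^ k) = sr k • (Pi.single .r 1 : Gen → ZG G) := by
  rw [fox_pow, lift_wr_pa, sr, wr, fox_of]

theorem fox_conjp_pa (x y : FreeGroup Gen) : fox gen (x * y * x⁻¹) =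
    (1 - og (FreeGroup.lift gen (x * y * x⁻¹))) • fox gen x + og (FreeGroup.lift gen x) • fox gen y := by
  rw [fox_mul, fox_mul, fox_inv, smul_neg, smul_smul, ← map_mul, ← map_inv, ← map_mul, sub_smul, one_smul]
  abel

theorem fox_div_pa (x y : FreeGroup Gen) (h : FreeGroup.lift gen x = FreeGroup.lift gen y) :
    fox gen (x * y⁻¹) = fox gen x - fox gen y := by
  rw [fox_mul, fox_inv, smul_neg, smul_smul, ← map_mul, h, mul_inv_cancel, map_one, one_smul,
    sub_eq_add_neg]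

theorem fox_comm_pa (x y : FreeGroup Gen)
    (h : FreeGroup.lift gen x * FreeGroup.lift gen y = FreeGroup.lift gen y * FreeGroup.lift gen x) :
    fox gen (x * y * x⁻¹ * y⁻¹) =
      (1 - og (FreeGroup.lift gen y)) • fox gen x + (og (FreeGroup.lift gen x) - 1) • fox gen y := by
  have h' : FreeGroup.lift gen (x * y * x⁻¹) = FreeGroup.lift gen y := by
    rw [map_mul, map_mul, map_inv, h, mul_inv_cancel_right]
  rw [fox_div_pa _ _ h', fox_conjp_pa, h', sub_smul (og (FreeGroup.lift gen x)), one_smul]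
  abel

theorem fox_wbB_pa : fox gen wbB = (1 - og gbB) • (Pi.single .t 1 : Gen → ZG G) +
    (og gt * sr 10) • (Pi.single .r 1 : Gen → ZG G) := by
  have h := fox_conjp_pa wt (wr ^ 10)
  rw [show wt * wr ^ 10 * wt⁻¹ = wbB from rfl, lift_wbB_pa, lift_wt_pa, fox_wt_pa, fox_wr_pow_pa, smul_smul] at h
  exact h

theorem fox_wbZ_pa : fox gen wbZ = (og gu⁻¹ * (og gbB - 1)) • (Pi.single .u 1 : Gen → ZG G) +
    og gu⁻¹ • fox gen wbB := by
  rw [wbZ, fox_mul, fox_mul, fox_inv, map_mul, map_inv, lift_wu_pa, lift_wbB_pa, fox_wu_pa, og_mul_pa, mul_sub,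
    mul_one, sub_smul]
  abel

theorem fox_wsp_pa : fox gen wsp = (og (gr ^ 7)⁻¹ * (og gs * sr 8 - sr 7)) • (Pi.single .r 1 : Gen → ZG G) -
    (og (gr ^ 7)⁻¹ * og gs) • (Pi.single .s 1 : Gen → ZG G) := by
  rw [wsp, fox_mul, fox_mul, fox_inv, fox_inv, map_mul, map_inv, map_inv, map_pow, lift_wr_pa, lift_ws_pa,
    gs_inv_pa, fox_ws_pa, fox_wr_pow_pa, fox_wr_pow_pa, og_mul_pa, smul_neg, smul_smul, smul_smul, smul_smul, mul_sub,
    sub_smul, mul_assoc]
  abel

theorem d2_r : d2 .r = fun x => match x with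
    | .t => 0 | .u => 0 | .s => 0 | .r => sr 30 := by
  have h : d2 .r = fox gen (wr ^ 30) := rfl
  rw [h, fox_wr_pow_pa]
  funext x
  cases x <;> simp

theorem d2_t : d2 .t = fun x => match x with
    | .t => 1 - og gc | .u => 0 | .s => og gt | .r => -sr 15 := by
  have h : d2 .t = fox gen (wt * ws * wt⁻¹ * (wr ^ 15)⁻¹) := rfl
  have h1 : FreeGroup.lift gen (wt * ws * wt⁻¹) = gc := by
    rw [map_mul, map_mul, map_inv, lift_wt_pa, lift_ws_pa, gt_conj_pa]
  rw [h, fox_div_pa _ _ (by rw [h1, map_pow, lift_wr_pa]; rfl), fox_conjp_pa, h1, lift_wt_pa, fox_wt_pa, fox_ws_pa,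
    fox_wr_pow_pa]
  funext x
  cases x <;> simp [-MonoidAlgebra.of_apply]

theorem d2_u : d2 .u = fun x => match x with
    | .t => 0 | .u => 1 - og gc | .s => -(og gu * og (gr ^ 7)⁻¹ * og gs)
    | .r => og gu * og (gr ^ 7)⁻¹ * (og gs * sr 8 - sr 7) - sr 15 := by
  have h : d2 .u = fox gen (wu * wsp * wu⁻¹ * (wr ^ 15)⁻¹) := rfl
  have h1 : FreeGroup.lift gen (wu * wsp * wu⁻¹) = gc := by
    rw [map_mul, map_mul, map_inv, lift_wu_pa, lift_wsp, gu_conj_pa]
  rw [h, fox_div_pa _ _ (by rw [h1, map_pow, lift_wr_pa]; rfl), fox_conjp_pa, h1, lift_wu_pa, fox_wu_pa, fox_wsp_pa,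
    fox_wr_pow_pa]
  funext x
  cases x <;> simp [-MonoidAlgebra.of_apply, mul_assoc]

theorem d2_B : d2 .B = fun x => match x with
    | .t => (og gs - 1) * (1 - og gbB) | .u => 0 | .s => 1 - og gbB
    | .r => (og gs - 1) * og gt * sr 10 := by
  have h : d2 .B = fox gen (ws * wbB * ws⁻¹ * wbB⁻¹) := rfl
  rw [h, fox_comm_pa _ _ (by rw [lift_ws_pa, lift_wbB_pa, gs_gbB]), lift_ws_pa, lift_wbB_pa, fox_ws_pa, fox_wbB_pa]
  funext x
  cases x <;> simp [-MonoidAlgebra.of_apply, mul_assoc]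

theorem d2_Z : d2 .Z = fun x => match x with
    | .t => (og ga - 1) * og gu⁻¹ * (1 - og gbB) | .u => (og ga - 1) * og gu⁻¹ * (og gbB - 1) | .s => 0
    | .r => (1 - og gbZ) * sr 6 + (og ga - 1) * og gu⁻¹ * og gt * sr 10 := by
  have h : d2 .Z = fox gen (wr ^ 6 * wbZ * (wr ^ 6)⁻¹ * wbZ⁻¹) := rfl
  have h1 : FreeGroup.lift gen (wr ^ 6) = ga := by rw [map_pow, lift_wr_pa]; rfl
  rw [h, fox_comm_pa _ _ (by rw [h1, lift_wbZ_pa, ga_gbZ]), h1, lift_wbZ_pa, fox_wr_pow_pa, fox_wbZ_pa, fox_wbB_pa]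
  funext x
  cases x <;> simp [-MonoidAlgebra.of_apply, mul_assoc]

end Crest.Agent.R251
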