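import Crest.Agent.R251.K.Std

/-!
# Row 251: `K₁(ℤ[G])` does not change the relative signs of the rigid representations

The blueprint is in the task `R251 SUBLEAD K1`.
-/

set_option autoImplicit false

open Matrix

namespace Crest.Agent.R251

theorem km_pos_trans {x y z : ℝ} (h : 0 < x * y) (h' : 0 < y * z) : 0 < x * z := by
  by_contra hc
  nlinarith [mul_pos h h', mul_self_nonneg y, mul_nonneg (mul_self_nonneg y) (neg_nonneg.2 (not_lt.1 hc))]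

theorem km_sign_cases {s s' : ℝ} (h : s = 1 ∨ s = -1) (h' : s' = 1 ∨ s' = -1) : s' = s ∨ s' = -s := by
  rcases h with rfl | rfl <;> rcases h' with rfl | rfl <;> simp

theorem km_sign_neg {s : ℝ} (h : s = 1 ∨ s = -1) : -s = 1 ∨ -s = -1 := by
  rcases h with rfl | rfl <;> simp

theorem km_coprime_eleven {j : ℤ} (h : IsCoprime j 30) : IsCoprime (11 * j) 30 :=
  IsCoprime.mul_left ⟨11, -4, by norm_num⟩ h

section
variable {m : Type} [Fintype m] [DecidableEq m] {w : Matrix m m (ZG G)}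
  {θ θ' : G →* Matrix (Fin 3) (Fin 3) ℝ} {j j' : ℤ} {s₁ s₂ s₃ s₄ s₁' s₂' s₃' s₄' : ℝ}

theorem km_pos_of_eq (hw : IsUnit w) (h : DD θ' w = DD θ w) : 0 < DD θ w * DD θ' w := by
  rw [h]
  exact mul_self_pos.2 (isUnit_DD θ hw).ne_zero

theorem km_flip₄ (hw : IsUnit w) (hs : s₂ * s₄ = 1) (h : IsStd θ j s₁ s₂ s₃ s₄) (h' : IsStd θ' j s₁ s₂ s₃ (-s₄)) :
    0 < DD θ w * DD θ' w := by
  obtain ⟨θa, ha⟩ := exists_isStd (11 * j) (km_coprime_eleven h.hj) h.h₁ (km_sign_neg h.h₂) h.h₃ h'.h₄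
  obtain ⟨θb, hb⟩ := exists_isStd (11 * (11 * j)) (km_coprime_eleven ha.hj) h.h₁ h.h₂ h.h₃ h'.h₄
  have e : θb = θ' := hb.eq_of_mod h' (by omega)
  have h2 := ha.alphaA hw (θ' := θb) (by rw [neg_neg]; exact hb)
  rw [e] at h2
  exact km_pos_trans (h.alphaAZ hw hs ha) h2

theorem km_free₄ (hw : IsUnit w) (h : IsStd θ j s₁ s₂ s₃ s₄) (h' : IsStd θ' j s₁ s₂ s₃ s₄') :
    0 < DD θ w * DD θ' w := by
  rcases km_sign_cases h.h₄ h'.h₄ with rfl | rfl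
  · exact km_pos_of_eq hw (by rw [h.eq_of_mod h' rfl])
  · by_cases hs : s₂ * s₄ = 1
    · exact km_flip₄ hw hs h h'
    · have hs' : s₂ * -s₄ = 1 := by
        rcases h.h₂ with e | e <;> rcases h.h₄ with e' | e' <;> simp_all
      rw [mul_comm]
      exact km_flip₄ hw hs' h' (by rw [neg_neg]; exact h)

theorem km_free₃ (hw : IsUnit w) (h : IsStd θ j s₁ s₂ s₃ s₄) (h' : IsStd θ' j s₁ s₂ s₃' s₄') :
    0 < DD θ w * DD θ' w := by
  rcases km_sign_cases h.h₃ h'.h₃ with rfl | rfl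
  · exact km_free₄ hw h h'
  · obtain ⟨θa, ha⟩ := exists_isStd j h.hj h.h₁ h.h₂ h'.h₃ h.h₄
    exact km_pos_trans (km_pos_of_eq hw (h.flip₃ hw ha)) (km_free₄ hw ha h')

theorem km_free₁ (hw : IsUnit w) (h : IsStd θ j s₁ s₂ s₃ s₄) (h' : IsStd θ' j s₁' s₂ s₃' s₄') :
    0 < DD θ w * DD θ' w := by
  rcases km_sign_cases h.h₁ h'.h₁ with rfl | rfl
  · exact km_free₃ hw h h'
  · obtain ⟨θa, ha⟩ := exists_isStd j h.hj h'.h₁ h.h₂ h.h₃ h.h₄
    exact km_pos_trans (km_pos_of_eq hw (h.flip₁ hw ha)) (km_free₃ hw ha h')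

theorem km_free (hw : IsUnit w) (h : IsStd θ j s₁ s₂ s₃ s₄) (h' : IsStd θ' j s₁' s₂' s₃' s₄') :
    0 < DD θ w * DD θ' w := by
  rcases km_sign_cases h.h₂ h'.h₂ with rfl | rfl
  · exact km_free₁ hw h h'
  · obtain ⟨θa, ha⟩ := exists_isStd j h.hj (km_sign_neg h.h₁) h'.h₂ (km_sign_neg h.h₃) (km_sign_neg h.h₄)
    exact km_pos_trans (km_pos_of_eq hw (h.conj_c ha w)) (km_free₁ hw ha h')

theorem km_mod (hw : IsUnit w) (h : IsStd θ j s₁ s₂ s₃ s₄) (h' : IsStd θ' j' s₁' s₂' s₃' s₄')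
    (hj : j % 30 = j' % 30) : 0 < DD θ w * DD θ' w := by
  obtain ⟨θa, ha⟩ := exists_isStd j' h'.hj h.h₁ h.h₂ h.h₃ h.h₄
  rw [h.eq_of_mod ha hj]
  exact km_free hw ha h'

theorem km_neg (hw : IsUnit w) (h : IsStd θ j s₁ s₂ s₃ s₄) (h' : IsStd θ' j' s₁' s₂' s₃' s₄')
    (hj : -j % 30 = j' % 30) : 0 < DD θ w * DD θ' w := by
  obtain ⟨θa, ha⟩ := exists_isStd (-j) h.hj.neg_left (km_sign_neg h.h₁) (km_sign_neg h.h₂) h.h₃ (km_sign_neg h.h₄)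
  exact km_pos_trans (km_pos_of_eq hw (h.conj_s ha w)) (km_mod hw ha h' hj)

theorem km_eleven (hw : IsUnit w) (h : IsStd θ j s₁ s₂ s₃ s₄) (h' : IsStd θ' j' s₁' s₂' s₃' s₄')
    (hj : 11 * j % 30 = j' % 30) : 0 < DD θ w * DD θ' w := by
  obtain ⟨θa, ha⟩ := exists_isStd (11 * j) (km_coprime_eleven h.hj) h.h₁ (km_sign_neg h.h₂) h.h₃ h.h₄
  exact km_pos_trans (h.alphaA hw ha) (km_mod hw ha h' hj)

theorem km_one (hw : IsUnit w) (h : IsStd θ j s₁ s₂ s₃ s₄) (h' : IsStd θ' 1 s₁' s₂' s₃' s₄')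
    (hj : j % 5 = 1 ∨ j % 5 = 4) : 0 < DD θ w * DD θ' w := by
  have h2 : j % 2 = 1 := Int.odd_iff.1 (odd_of_isCoprime_thirty h.hj)
  have h3 : j % 3 ≠ 0 := by
    intro h0
    obtain ⟨k, rfl⟩ := Int.dvd_of_emod_eq_zero h0
    obtain ⟨a, b, e⟩ := h.hj
    have : 3 * (a * k + b * 10) = 1 := by linear_combination e
    omega
  have hc : j % 30 = 1 ∨ j % 30 = 11 ∨ j % 30 = 19 ∨ j % 30 = 29 := by omega
  rcases hc with hc | hc | hc | hc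
  · exact km_mod hw h h' (by omega)
  · exact km_eleven hw h h' (by omega)
  · obtain ⟨θa, ha⟩ := exists_isStd (-j) h.hj.neg_left h.h₁ h.h₂ h.h₃ h.h₄
    exact km_pos_trans (km_neg hw h ha rfl) (km_eleven hw ha h' (by omega))
  · exact km_neg hw h h' (by omega)

end

/-- all rigid representations in which `a = ρ^6` is a rotation by `± 2π/5` give determinants of one sign -/
theorem kmain1 {m : Type} [Fintype m] [DecidableEq m] (w : Matrix m m (ZG G)) (hw : IsUnit w)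
    {θ θ' : G →* Matrix (Fin 3) (Fin 3) ℝ} {j j' : ℤ} {s₁ s₂ s₃ s₄ s₁' s₂' s₃' s₄' : ℝ}
    (h : IsStd θ j s₁ s₂ s₃ s₄) (h' : IsStd θ' j' s₁' s₂' s₃' s₄')
    (hj : j % 5 = 1 ∨ j % 5 = 4) (hj' : j' % 5 = 1 ∨ j' % 5 = 4) : 0 < DD θ w * DD θ' w := by
  obtain ⟨θ₀, h₀⟩ := exists_isStd 1 isCoprime_one_left h.h₁ h.h₂ h.h₃ h.h₄
  exact km_pos_trans (km_one hw h h₀ hj) (by rw [mul_comm]; exact km_one hw h' h₀ hj')

/-- the automorphism `u ↦ u σ'` does not change the sign of the determinant -/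
theorem kmain2 {m : Type} [Fintype m] [DecidableEq m] (w : Matrix m m (ZG G)) (hw : IsUnit w)
    {θ θ' : G →* Matrix (Fin 3) (Fin 3) ℝ} {j : ℤ} {s₁ s₂ s₃ s₄ : ℝ}
    (h : IsStd θ j s₁ s₂ s₃ s₄) (h' : IsStd θ' j s₁ s₂ s₃ (-s₄)) : 0 < DD θ w * DD θ' w :=
  km_free₄ hw h h'

end Crest.Agent.R251
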