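import Crest.Agent.R251.Fox
import Crest.Agent.Lib.GR.Words

/-!
# Row 251: unit quaternions, the adjoint representation, tuples and the slice
-/

set_option autoImplicit false

open Matrix Quaternion

namespace Crest.Agent.R251

open Crest.Agent.Lib.GR

/-- the imaginary part as a vector -/
def im3 (q : ℍ[ℝ]) : Fin 3 → ℝ := ![q.imI, q.imJ, q.imK]

/-- the purely imaginary quaternion with given coordinates -/
def of3 (v : Fin 3 → ℝ) : ℍ[ℝ] := ⟨0, v 0, v 1, v 2⟩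

/-- the matrix of `v ↦ q v q⁻¹` on imaginary quaternions -/
noncomputable def Ad (q : ℍ[ℝ]) : Matrix (Fin 3) (Fin 3) ℝ :=
  Matrix.of fun i j => im3 (q * of3 (Pi.single j 1) * q⁻¹) i

theorem of3_im3 {q : ℍ[ℝ]} (h : q.re = 0) : of3 (im3 q) = q := by
  ext <;> simp [of3, im3, h]

theorem im3_of3 (v : Fin 3 → ℝ) : im3 (of3 v) = v := by
  funext i
  fin_cases i <;> simp [of3, im3]

theorem qu_inv (q : ℍ[ℝ]) : q⁻¹ = (normSq q)⁻¹ • star q := rfl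

/-- the polynomial form of the adjoint matrix -/
def quM (q : ℍ[ℝ]) : Matrix (Fin 3) (Fin 3) ℝ :=
    !![q.re ^ 2 + q.imI ^ 2 - q.imJ ^ 2 - q.imK ^ 2, 2 * (q.imI * q.imJ - q.re * q.imK),
        2 * (q.imI * q.imK + q.re * q.imJ);
      2 * (q.imI * q.imJ + q.re * q.imK), q.re ^ 2 - q.imI ^ 2 + q.imJ ^ 2 - q.imK ^ 2,
        2 * (q.imJ * q.imK - q.re * q.imI);
      2 * (q.imI * q.imK - q.re * q.imJ), 2 * (q.imJ * q.imK + q.re * q.imI),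
        q.re ^ 2 - q.imI ^ 2 - q.imJ ^ 2 + q.imK ^ 2]

theorem qu_Ad (q : ℍ[ℝ]) : Ad q = (normSq q)⁻¹ • quM q := by
  ext i j
  rw [Ad, Matrix.of_apply, qu_inv]
  fin_cases i <;> fin_cases j <;> simp [quM, im3, of3, -mul_eq_mul_left_iff] <;> ring

theorem qu_normSq {q : ℍ[ℝ]} (h : ‖q‖ = 1) : normSq q = 1 := by
  rw [normSq_eq_norm_mul_self, h, mul_one]

theorem qu_sq {q : ℍ[ℝ]} (h : ‖q‖ = 1) : q.re ^ 2 + q.imI ^ 2 + q.imJ ^ 2 + q.imK ^ 2 = 1 := by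
  exact (normSq_def' q).symm.trans (qu_normSq h)

theorem qu_ne {q : ℍ[ℝ]} (h : ‖q‖ = 1) : q ≠ 0 := by
  rintro rfl
  simp at h

theorem of3_zero : of3 0 = 0 := by
  ext <;> simp [of3]

theorem of3_add (v w : Fin 3 → ℝ) : of3 (v + w) = of3 v + of3 w := by
  ext <;> simp [of3]

theorem of3_neg (v : Fin 3 → ℝ) : of3 (-v) = -of3 v := by
  ext <;> simp [of3]

theorem Ad_mulVec (q x : ℍ[ℝ]) : Ad q *ᵥ im3 x = im3 (q * x * q⁻¹) := by
  funext i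
  rw [qu_Ad, qu_inv]
  fin_cases i <;>
    simp [quM, im3, Matrix.mulVec, dotProduct, Fin.sum_univ_three] <;> ring

theorem of3_Ad_mulVec (q : ℍ[ℝ]) (v : Fin 3 → ℝ) : of3 (Ad q *ᵥ v) = q * of3 v * q⁻¹ := by
  conv_lhs => rw [← im3_of3 v, Ad_mulVec]
  refine of3_im3 ?_
  rw [qu_inv]
  simp [of3]
  ring_nf
  simp

theorem Ad_one : Ad 1 = 1 := by
  ext i j
  rw [qu_Ad]
  fin_cases i <;> fin_cases j <;> simp [quM]

theorem Ad_mul (p q : ℍ[ℝ]) : Ad (p * q) = Ad p * Ad q := by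
  refine Matrix.ext_of_mulVec_single fun j => ?_
  rw [← Matrix.mulVec_mulVec, ← im3_of3 (Pi.single j 1), Ad_mulVec, Ad_mulVec, Ad_mulVec,
    _root_.mul_inv_rev]
  simp only [mul_assoc]

theorem Ad_neg (q : ℍ[ℝ]) : Ad (-q) = Ad q := by
  ext i j
  simp [Ad]

theorem Ad_transpose {q : ℍ[ℝ]} (h : q ≠ 0) : (Ad q)ᵀ = Ad q⁻¹ := by
  have hn : normSq q ≠ 0 := normSq_ne_zero.2 h
  rw [qu_Ad, qu_Ad, map_inv₀, inv_inv, qu_inv]
  ext i j
  fin_cases i <;> fin_cases j <;> simp [quM] <;> field_simp <;> ring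

theorem det_Ad {q : ℍ[ℝ]} (h : q ≠ 0) : (Ad q).det = 1 := by
  have hn : normSq q ≠ 0 := normSq_ne_zero.2 h
  have h1 : (quM q).det = normSq q ^ 3 := by
    rw [Matrix.det_fin_three, normSq_def']
    simp [quM]
    ring
  rw [qu_Ad, Matrix.det_smul, h1, Fintype.card_fin]
  field_simp

theorem trace_Ad {q : ℍ[ℝ]} (h : ‖q‖ = 1) : (Ad q).trace = 4 * q.re ^ 2 - 1 := by
  have h1 := qu_sq h
  rw [qu_Ad, qu_normSq h, Matrix.trace_fin_three]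
  simp [quM]
  linarith

theorem Ad_eq {q : ℍ[ℝ]} (h : ‖q‖ = 1) : Ad q =
    !![q.re ^ 2 + q.imI ^ 2 - q.imJ ^ 2 - q.imK ^ 2, 2 * (q.imI * q.imJ - q.re * q.imK),
        2 * (q.imI * q.imK + q.re * q.imJ);
      2 * (q.imI * q.imJ + q.re * q.imK), q.re ^ 2 - q.imI ^ 2 + q.imJ ^ 2 - q.imK ^ 2,
        2 * (q.imJ * q.imK - q.re * q.imI);
      2 * (q.imI * q.imK - q.re * q.imJ), 2 * (q.imJ * q.imK + q.re * q.imI),
        q.re ^ 2 - q.imI ^ 2 - q.imJ ^ 2 + q.imK ^ 2] := by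
  rw [qu_Ad, qu_normSq h, inv_one, one_smul, quM]

theorem Ad_eq_one_iff {q : ℍ[ℝ]} (h : ‖q‖ = 1) : Ad q = 1 ↔ q = 1 ∨ q = -1 := by
  constructor
  · intro h1
    have h2 := trace_Ad h
    have h3 := qu_sq h
    rw [h1, Matrix.trace_one, Fintype.card_fin] at h2
    push_cast at h2
    have hI : q.imI = 0 := by nlinarith [sq_nonneg q.imI, sq_nonneg q.imJ, sq_nonneg q.imK]
    have hJ : q.imJ = 0 := by nlinarith [sq_nonneg q.imI, sq_nonneg q.imJ, sq_nonneg q.imK]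
    have hK : q.imK = 0 := by nlinarith [sq_nonneg q.imI, sq_nonneg q.imJ, sq_nonneg q.imK]
    have h4 : (q.re - 1) * (q.re + 1) = 0 := by linarith
    rcases mul_eq_zero.1 h4 with h5 | h5
    · left
      ext <;> simp [hI, hJ, hK]
      linarith
    · right
      ext <;> simp [hI, hJ, hK]
      linarith
  · rintro (rfl | rfl)
    · exact Ad_one
    · rw [Ad_neg, Ad_one]

theorem Ad_eq_Ad_iff {p q : ℍ[ℝ]} (hp : ‖p‖ = 1) (hq : ‖q‖ = 1) : Ad p = Ad q ↔ p = q ∨ p = -q := by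
  constructor
  · intro h
    have hq0 := qu_ne hq
    have h1 : Ad (p * q⁻¹) = 1 := by rw [Ad_mul, h, ← Ad_mul, mul_inv_cancel₀ hq0, Ad_one]
    have h2 : ‖p * q⁻¹‖ = 1 := by rw [norm_mul, norm_inv, hp, hq, inv_one, mul_one]
    rcases (Ad_eq_one_iff h2).1 h1 with h3 | h3
    · left
      rw [← inv_mul_cancel_right₀ hq0 p, h3, one_mul]
    · right
      rw [← inv_mul_cancel_right₀ hq0 p, h3, neg_one_mul]
  · rintro (rfl | rfl)
    · rfl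
    · exact Ad_neg q

/-- the adjoint representation on units -/
noncomputable def AdU : ℍ[ℝ]ˣ →* Matrix (Fin 3) (Fin 3) ℝ where
  toFun q := Ad q
  map_one' := Ad_one
  map_mul' p q := Ad_mul p q

/-- the adjoint representation of the free group given by a tuple of quaternions -/
noncomputable def AdW {α : Type} (y : α → ℍ[ℝ]) : FreeGroup α →* Matrix (Fin 3) (Fin 3) ℝ :=
  AdU.comp (FreeGroup.lift fun a => un (y a))

theorem AdW_apply {α : Type} (y : α → ℍ[ℝ]) (w : FreeGroup α) : AdW y w = Ad (ev y w) := rfl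

/-- tuples of unit quaternions -/
def UnitT {α : Type} (y : α → ℍ[ℝ]) : Prop := ∀ x, ‖y x‖ = 1

/-- simultaneous conjugation -/
noncomputable def cj {α : Type} (q : ℍ[ℝ]) (y : α → ℍ[ℝ]) : α → ℍ[ℝ] := fun x => q * y x * q⁻¹

theorem UnitT.cj {α : Type} {y : α → ℍ[ℝ]} (h : UnitT y) {q : ℍ[ℝ]} (hq : q ≠ 0) : UnitT (cj q y) := by
  intro x
  have hn : ‖q‖ ≠ 0 := norm_ne_zero_iff.2 hq
  rw [R251.cj, norm_mul, norm_mul, norm_inv, h x, mul_one, mul_inv_cancel₀ hn]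

theorem norm_ev_of_unitT {α : Type} {y : α → ℍ[ℝ]} (h : UnitT y) (w : FreeGroup α) : ‖ev y w‖ = 1 := by
  induction w using FreeGroup.induction_on with
  | C1 => rw [ev_one, norm_one]
  | of a => rw [ev_of (qu_ne (h a)), h a]
  | inv_of a ih => rw [ev_inv, norm_inv, ih, inv_one]
  | mul u v ihu ihv => rw [ev_mul, norm_mul, ihu, ihv, mul_one]

theorem ev_cj {α : Type} {y : α → ℍ[ℝ]} (h : UnitT y) {q : ℍ[ℝ]} (hq : q ≠ 0) (w : FreeGroup α) :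
    ev (cj q y) w = q * ev y w * q⁻¹ := by
  have := ev_conj (Units.mk0 q hq) (fun a => qu_ne (h a)) w
  simpa only [Units.val_mk0, Units.val_inv_eq_inv_val] using! this

/-- normal form of a pair of quaternions under conjugation -/
def SlicePair (a b : ℍ[ℝ]) : Prop := 0 < a.imI ∧ a.imJ = 0 ∧ a.imK = 0 ∧ 0 < b.imJ ∧ b.imK = 0

theorem qu_conj {q a c : ℍ[ℝ]} (hq : q ≠ 0) (h : q * a = c * q) : q * a * q⁻¹ = c := by
  rw [h, mul_inv_cancel_right₀ hq]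

theorem qu_step1 {a : ℍ[ℝ]} (ha : ¬(a.imI = 0 ∧ a.imJ = 0 ∧ a.imK = 0)) :
    ∃ q : ℍ[ℝ], q ≠ 0 ∧ ∃ r : ℝ, 0 < r ∧ q * a * q⁻¹ = ⟨a.re, r, 0, 0⟩ := by
  have hpos : 0 < a.imI ^ 2 + a.imJ ^ 2 + a.imK ^ 2 := by
    by_contra hc
    refine ha ⟨?_, ?_, ?_⟩ <;> nlinarith [sq_nonneg a.imI, sq_nonneg a.imJ, sq_nonneg a.imK]
  obtain ⟨r, hr, hr2⟩ : ∃ r : ℝ, 0 < r ∧ r ^ 2 = a.imI ^ 2 + a.imJ ^ 2 + a.imK ^ 2 :=
    ⟨√_, Real.sqrt_pos.2 hpos, Real.sq_sqrt hpos.le⟩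
  by_cases h0 : (⟨0, a.imI + r, a.imJ, a.imK⟩ : ℍ[ℝ]) = 0
  · have h1 : a.imI + r = 0 := congrArg QuaternionAlgebra.imI h0
    have h2 : a.imJ = 0 := congrArg QuaternionAlgebra.imJ h0
    have h3 : a.imK = 0 := congrArg QuaternionAlgebra.imK h0
    have hj : (⟨0, 0, 1, 0⟩ : ℍ[ℝ]) ≠ 0 := fun hj =>
      one_ne_zero (congrArg QuaternionAlgebra.imJ hj : (1 : ℝ) = 0)
    refine ⟨_, hj, r, hr, qu_conj hj ?_⟩
    ext <;> simp [h2, h3]
    linarith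
  · refine ⟨_, h0, r, hr, qu_conj h0 ?_⟩
    ext <;> simp <;> nlinarith

theorem qu_step2 {b : ℍ[ℝ]} (hb : ¬(b.imJ = 0 ∧ b.imK = 0)) :
    ∃ p : ℍ[ℝ], p ≠ 0 ∧ p.imJ = 0 ∧ p.imK = 0 ∧ ∃ ρ : ℝ, 0 < ρ ∧
      p * b * p⁻¹ = ⟨b.re, b.imI, ρ, 0⟩ := by
  have hpos : 0 < b.imJ ^ 2 + b.imK ^ 2 := by
    by_contra hc
    refine hb ⟨?_, ?_⟩ <;> nlinarith [sq_nonneg b.imJ, sq_nonneg b.imK]
  obtain ⟨r, hr, hr2⟩ : ∃ r : ℝ, 0 < r ∧ r ^ 2 = b.imJ ^ 2 + b.imK ^ 2 :=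
    ⟨√_, Real.sqrt_pos.2 hpos, Real.sq_sqrt hpos.le⟩
  by_cases h0 : (⟨b.imJ + r, -b.imK, 0, 0⟩ : ℍ[ℝ]) = 0
  · have h1 : b.imJ + r = 0 := congrArg QuaternionAlgebra.re h0
    have h2 : -b.imK = 0 := congrArg QuaternionAlgebra.imI h0
    have h3 : b.imK = 0 := neg_eq_zero.1 h2
    have hj : (⟨0, 1, 0, 0⟩ : ℍ[ℝ]) ≠ 0 := fun hj =>
      one_ne_zero (congrArg QuaternionAlgebra.imI hj : (1 : ℝ) = 0)
    refine ⟨_, hj, rfl, rfl, r, hr, qu_conj hj ?_⟩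
    ext <;> simp [h3]
    linarith
  · refine ⟨_, h0, rfl, rfl, r, hr, qu_conj h0 ?_⟩
    ext <;> simp <;> nlinarith

theorem exists_slicePair {a b : ℍ[ℝ]} (h : a * b ≠ b * a) :
    ∃ q : ℍ[ℝ], ‖q‖ = 1 ∧ SlicePair (q * a * q⁻¹) (q * b * q⁻¹) := by
  have ha : ¬(a.imI = 0 ∧ a.imJ = 0 ∧ a.imK = 0) := by
    rintro ⟨h1, h2, h3⟩
    refine h ?_
    ext <;> simp [h1, h2, h3] <;> ring
  obtain ⟨q, hq, r, hr, hqa⟩ := qu_step1 ha
  have hb : ¬((q * b * q⁻¹).imJ = 0 ∧ (q * b * q⁻¹).imK = 0) := by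
    rintro ⟨h1, h2⟩
    refine h ?_
    have h3 : (q * a * q⁻¹) * (q * b * q⁻¹) = (q * b * q⁻¹) * (q * a * q⁻¹) := by
      rw [hqa]
      generalize q * b * q⁻¹ = c at h1 h2
      ext <;> simp [h1, h2] <;> ring
    simp only [mul_assoc, inv_mul_cancel_left₀ hq] at h3
    have h4 := mul_left_cancel₀ hq h3
    simp only [← mul_assoc] at h4
    exact mul_right_cancel₀ (inv_ne_zero hq) h4
  obtain ⟨p, hp, hpJ, hpK, ρ, hρ, hpb⟩ := qu_step2 hb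
  have hpq : p * q ≠ 0 := mul_ne_zero hp hq
  have hn : ‖p * q‖⁻¹ ≠ 0 := inv_ne_zero (norm_ne_zero_iff.2 hpq)
  have hc : ∀ x : ℍ[ℝ], (‖p * q‖⁻¹ • (p * q)) * x * (‖p * q‖⁻¹ • (p * q))⁻¹ =
      p * (q * x * q⁻¹) * p⁻¹ := by
    intro x
    rw [smul_inv₀, smul_mul_assoc, smul_mul_assoc, mul_smul_comm, smul_smul, mul_inv_cancel₀ hn,
      one_smul, _root_.mul_inv_rev]
    simp only [mul_assoc]
  refine ⟨‖p * q‖⁻¹ • (p * q), norm_smul_inv_norm hpq, ?_⟩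
  have h5 : ∀ c : ℍ[ℝ], c.imJ = 0 → c.imK = 0 → p * c * p⁻¹ = c := by
    intro c h1 h2
    refine qu_conj hp ?_
    ext <;> simp [hpJ, hpK, h1, h2] <;> ring
  rw [hc, hc, hpb, h5 (q * a * q⁻¹) (by rw [hqa]) (by rw [hqa]), hqa]
  exact ⟨hr, rfl, rfl, hρ, rfl⟩

theorem SlicePair.unique {a b q : ℍ[ℝ]} (h : SlicePair a b) (hq : ‖q‖ = 1)
    (h' : SlicePair (q * a * q⁻¹) (q * b * q⁻¹)) : q = 1 ∨ q = -1 := by
  obtain ⟨a1, a2, a3, b1, b2⟩ := h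
  obtain ⟨c1, c2, c3, d1, d2⟩ := h'
  have hs := qu_sq hq
  have ea := Ad_mulVec q a
  have eb := Ad_mulVec q b
  rw [Ad_eq hq] at ea eb
  have e0 := congrFun ea 0
  have e1 := congrFun ea 1
  have e2 := congrFun ea 2
  have e3 := congrFun eb 1
  have e4 := congrFun eb 2
  generalize q * a * q⁻¹ = a' at *
  generalize q * b * q⁻¹ = b' at *
  simp [im3, Matrix.mulVec, dotProduct, Fin.sum_univ_three, a2, a3, b2, c2, c3, d2, a1.ne'] at e0 e1 e2 e3 e4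
  have f0 : 0 < q.re ^ 2 + q.imI ^ 2 - q.imJ ^ 2 - q.imK ^ 2 :=
    (pos_iff_pos_of_mul_pos (e0 ▸ c1)).2 a1
  have f1 : 0 < q.re ^ 2 + q.imI ^ 2 := by nlinarith [sq_nonneg q.imJ, sq_nonneg q.imK]
  have hJ : q.imJ = 0 := by
    have : (q.re ^ 2 + q.imI ^ 2) * q.imJ = 0 := by linear_combination q.imI * e1 - q.re * e2
    exact (mul_eq_zero.1 this).resolve_left f1.ne'
  have hK : q.imK = 0 := by
    have : (q.re ^ 2 + q.imI ^ 2) * q.imK = 0 := by linear_combination q.re * e1 + q.imI * e2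
    exact (mul_eq_zero.1 this).resolve_left f1.ne'
  simp [hJ, hK, b1.ne'] at e3 e4
  have f2 : 0 < q.re ^ 2 - q.imI ^ 2 := (pos_iff_pos_of_mul_pos (e3 ▸ d1)).2 b1
  have hI : q.imI = 0 := by
    refine e4.resolve_left fun h0 => ?_
    rw [h0] at f2
    nlinarith [sq_nonneg q.imI]
  have h4 : (q.re - 1) * (q.re + 1) = 0 := by
    rw [hI, hJ, hK] at hs
    linarith
  rcases mul_eq_zero.1 h4 with h5 | h5
  · left
    ext <;> simp [hI, hJ, hK]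
    linarith
  · right
    ext <;> simp [hI, hJ, hK]
    linarith

theorem SlicePair.not_comm {a b : ℍ[ℝ]} (h : SlicePair a b) : a * b ≠ b * a := by
  obtain ⟨a1, a2, a3, b1, b2⟩ := h
  intro h
  have h1 : (a * b).imK = (b * a).imK := by rw [h]
  simp [a2, a3, b2] at h1
  nlinarith [mul_pos a1 b1]

/-- derivative of a word in the direction `y x ↦ (1 + ε ξ x) y x` -/
theorem hasFDerivAt_ev_fox {α E : Type} [Fintype α] [DecidableEq α] [NormedAddCommGroup E] [NormedSpace ℝ E]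
    {Y : E → α → ℍ[ℝ]} {p : E} (h0 : ∀ x, Y p x ≠ 0) (ξ : α → E →L[ℝ] (Fin 3 → ℝ))
    (hY : ∀ x, ∃ L : E →L[ℝ] ℍ[ℝ], HasFDerivAt (fun e => Y e x) L p ∧ ∀ v, L v = of3 (ξ x v) * Y p x)
    (w : FreeGroup α) :
    ∃ L : E →L[ℝ] ℍ[ℝ], HasFDerivAt (fun e => ev (Y e) w) L p ∧
      ∀ v, L v = of3 (∑ x, rz (AdW (Y p)) (fox FreeGroup.of w x) *ᵥ ξ x v) * ev (Y p) w := by
  induction w using FreeGroup.induction_on with
  | C1 =>
    refine ⟨0, by simpa only [ev_one] using hasFDerivAt_const _ _, fun v => ?_⟩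
    simp [fox_one, of3_zero]
  | of a =>
    obtain ⟨L, hL, hL'⟩ := hY a
    refine ⟨L, hL.congr_of_eventuallyEq
      ((hL.continuousAt.eventually_ne (h0 a)).mono fun y hy => ev_of hy), fun v => ?_⟩
    rw [hL', ev_of (h0 a), fox_of, Finset.sum_eq_single a]
    · simp
    · intro b _ hb
      simp [Pi.single_eq_of_ne hb]
    · simp
  | inv_of a ih =>
    obtain ⟨L, hL, hL'⟩ := ih
    have hg := ev_ne_zero (Y p) (FreeGroup.of a)
    have h := (hasFDerivAt_inv' (𝕜 := ℝ) hg).comp p hL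
    refine ⟨_, by simpa only [ev_inv] using! h, fun v => ?_⟩
    rw [fox_inv, FreeGroup.lift_of_apply]
    simp only [Pi.neg_apply, Pi.smul_apply, smul_eq_mul, map_neg, map_mul, rz_og,
      Matrix.neg_mulVec, ← Matrix.mulVec_mulVec, Finset.sum_neg_distrib, ← Matrix.mulVec_sum]
    rw [of3_neg, AdW_apply, of3_Ad_mulVec, ev_inv, inv_inv]
    simp [hL', mul_assoc]
  | mul u w ihu ihw =>
    obtain ⟨L, hL, hL'⟩ := ihu
    obtain ⟨K, hK, hK'⟩ := ihw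
    have hg := ev_ne_zero (Y p) u
    refine ⟨_, by simpa only [ev_mul] using! hL.mul' hK, fun v => ?_⟩
    rw [fox_mul, FreeGroup.lift_of_apply]
    simp only [Pi.add_apply, Pi.smul_apply, smul_eq_mul, map_add, map_mul, rz_og,
      Matrix.add_mulVec, ← Matrix.mulVec_mulVec, Finset.sum_add_distrib, ← Matrix.mulVec_sum]
    rw [of3_add, AdW_apply, of3_Ad_mulVec, ev_mul]
    simp [hL', hK', mul_assoc, add_mul, inv_mul_cancel_left₀ hg, add_comm]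

end Crest.Agent.R251
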