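import Crest.Agent.R251.SphChk
import Crest.Agent.R251.Exact

/-!
# Row 251: the two spheres and their splitting

All explicit identities are proved with `Ex.eq_zero _ (by decide +kernel)` and the data of `SphData` (`xB`, `xZ`, `p1L`, `p2L`, `z0`,
`uBL`, `vBL`, `uZL`, `vZL`: `lamB * uB + vB * wB = 6`, `lamZ * uZ + vZ * wZ = 15`).

`exactB`, `exactZ`: `exact_of_subgroup` for `exists_homB`, `exists_homZ`; in `ℤ[D₆]`, `ℤ[D₁₅]` a certificate: elements `e_1..e_ρ`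
(`ρ = 2`, resp. `8`) with every group element in `λ ℤ[H] + Σ ℤ e_i` and `w e_i` linearly independent (a nonzero `ρ × ρ` minor of
coefficients); or integer matrices `d I = d M_λ U + V M_w`.  In `D₆`: `σ b' = r 1`, `σ = r 3`, `b' = r 4`, `c = sr 0`; in `D₁₅`:
`z = r 1`, `a = r 6`, `bZ = r 10`, `σ' = sr 0`.

`IsSph.split`: `Θ p = (wB μB p, wZ μZ p)`; `(x, y)` is `(μB p + λB q, μZ p + λZ q')` as soon as `(wB x, wZ y) = Θ p`.
`Θ ((15 - N15) p2 z0) = (0, 15 wZ)`, `Θ ((15 - N15) p1 t⁻¹) = (15 wB, 15 wZ Y)` with `Y = μZ p1 t⁻¹`,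
`Θ (p2 z0) = (15 wB X₂, wZ)`, `Θ (p1 t⁻¹) = (wB + 15 wB X₁, wZ Y)`; the image of `Θ` is a right submodule, so it contains
`(wB, 0)` and `(0, wZ)`.  `L` has rows `r, B, Z` and zero rows `t, u`.
-/

set_option autoImplicit false

open Matrix

namespace Crest.Agent.R251

noncomputable def lamB : ZG G := (og (gs * gbB)⁻¹ + (1 - og (gs * gbB)) * og gc) * og gbB
noncomputable def wB : ZG G := (1 - og gs) * (1 - og gbB) * (1 - og gbB * og gc)
noncomputable def qZ : ZG G := og gz + og gz⁻¹ - 1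
noncomputable def n0Z : ZG G :=
  og gz⁻¹ ^ 4 * (og gz ^ 8 - og gz ^ 7 + og gz ^ 5 - og gz ^ 4 + og gz ^ 3 - og gz + 1)
noncomputable def lamZ : ZG G := (n0Z - qZ * (1 - og gsp)) * og gz ^ 7
noncomputable def wZ : ZG G := (og ga - og ga⁻¹) * (og gbZ - og gbZ⁻¹) * (1 + og gsp)
noncomputable def w3 : ZG G := (1 - og gb) * (1 - og gb * og gs)
noncomputable def xi3 : ZG G := -(og gb⁻¹ * (1 + og gr ^ 2))
noncomputable def w5 : ZG G := (1 + og gsp) * (og ga - og ga⁻¹)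
noncomputable def N15 : ZG G := ∑ i ∈ Finset.range 15, (og gr ^ 2) ^ i

/-- the properties of the two spheres -/
structure IsSph (s : Matrix (Fin 2) Rel (ZG G)) : Prop where
  cyc : s * d2 = 0
  BB : s 0 .B = lamB
  BZ : s 0 .Z = 0
  ZB : s 1 .B = 0
  ZZ : s 1 .Z = lamZ
  muB : wB * s 0 .r = wB * og gt * xi3 + 15 * wB * og gbB * og gt⁻¹ * N15
  muZ : wZ * s 1 .r = wZ * (og gz - og gz⁻¹) - (2 - og ga - og ga⁻¹) * og gbZ⁻¹ * og gu⁻¹ * og gt * w3 * xi3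
  eps_r : ∀ k, eps G (s k .r) = 0
  eps_t : ∀ k, eps G (s k .t) = 0

section Bridge

open Dat Ex

theorem ev_lamB : lamBE.ev = lamB := by
  simp only [lamBE, lamB, ev_add, ev_sub, ev_mul, ev_1, ev_sb, ev_sbi, ev_c, ev_bB]
theorem ev_wB : wBE.ev = wB := by
  simp only [wBE, wB, ev_sub, ev_mul, ev_1, ev_S, ev_c, ev_bB]
theorem ev_lamZ : lamZE.ev = lamZ := by
  simp only [lamZE, n0ZE, qZE, lamZ, n0Z, qZ, ev_add, ev_sub, ev_mul, ev_pow, ev_1, ev_z, ev_zi, ev_sp]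
theorem ev_wZ : wZE.ev = wZ := by
  simp only [wZE, wZ, ev_add, ev_sub, ev_mul, ev_1, ev_a, ev_ai, ev_bZ, ev_bZi, ev_sp]
theorem ev_w3 : w3E.ev = w3 := by
  simp only [w3E, w3, ev_sub, ev_mul, ev_1, ev_ρ10, ev_S]
theorem ev_xi3 : xi3E.ev = xi3 := by
  simp only [xi3E, xi3, ev_add, ev_neg, ev_mul, ev_pow, ev_1, ev_ρ20, ev_ρ1]
theorem ev_w5 : w5E.ev = w5 := by
  simp only [w5E, w5, ev_add, ev_sub, ev_mul, ev_1, ev_a, ev_ai, ev_sp]
theorem ev_N15 : N15E.ev = N15 := by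
  simp only [N15E, N15, ev_geo, ev_pow, ev_ρ1]

theorem exists_sph : ∃ s, IsSph s := by
  refine ⟨Matrix.of ![fun y => (xB y).ev, fun y => (xZ y).ev], ?_, k_BB.trans ev_lamB, k_BZ, k_ZB,
    k_ZZ.trans ev_lamZ, ?_, ?_, ?_, ?_⟩
  · ext1 k g
    fin_cases k
    · exact cyc_B g
    · exact cyc_Z g
  · have h := k_muB
    simp only [ev_add, ev_mul, ev_15, ev_wB, ev_t, ev_ti, ev_bB, ev_xi3, ev_N15] at h
    exact h
  · have h := k_muZ
    simp only [ev_sub, ev_mul, ev_2, ev_wZ, ev_z, ev_zi, ev_a, ev_ai, ev_bZi, ev_ui, ev_t, ev_w3,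
      ev_xi3] at h
    exact h
  · intro k
    fin_cases k
    exacts [k_eBr, k_eZr]
  · intro k
    fin_cases k
    exacts [k_eBt, k_eZt]

theorem wB_lamB : wB * lamB = 0 := by
  simpa only [ev_mul, ev_wB, ev_lamB] using k_1
theorem wZ_lamZ : wZ * lamZ = 0 := by
  simpa only [ev_mul, ev_wZ, ev_lamZ] using k_2
theorem wB_eq : wB * og gt = (1 - og gs) * og gt * w3 := by
  simpa only [ev_mul, ev_sub, ev_1, ev_wB, ev_t, ev_S, ev_w3] using k_3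
theorem wZ_z : wZ * (og gz - og gz⁻¹) = (og gbZ - og gbZ⁻¹) * (og gz - og gz⁻¹) * w5 := by
  simpa only [ev_mul, ev_sub, ev_wZ, ev_z, ev_zi, ev_bZ, ev_bZi, ev_w5] using k_4
theorem w3_xi3_N15 : w3 * xi3 * N15 = 0 := by
  simpa only [ev_mul, ev_w3, ev_xi3, ev_N15] using k_5
theorem w5_N15 : w5 * N15 = 0 := by
  simpa only [ev_mul, ev_w5, ev_N15] using k_6
theorem N15_sq : N15 * N15 = 15 * N15 := by
  simpa only [ev_mul, ev_15, ev_N15] using k_7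
theorem exists_p1 : ∃ p : ZG G, w3 * xi3 * p = w3 ∧ w5 * p = 0 := by
  exact ⟨(Ex.lit p1L).ev, by simpa only [ev_mul, ev_w3, ev_xi3] using k_p1a,
    by simpa only [ev_mul, ev_w5] using k_p1b⟩
theorem exists_p2 : ∃ p : ZG G, w3 * xi3 * p = 0 ∧ w5 * p = w5 := by
  exact ⟨(Ex.lit p2L).ev, by simpa only [ev_mul, ev_w3, ev_xi3] using k_p2a,
    by simpa only [ev_mul, ev_w5] using k_p2b⟩
theorem exists_z0 : ∃ p : ZG G, wZ * (og gz - og gz⁻¹) * p = wZ := by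
  exact ⟨z0.ev, by simpa only [ev_mul, ev_sub, ev_wZ, ev_z, ev_zi] using k_z0⟩
theorem realB : ∃ x y : ZG G, lamB * x + y * wB = 6 := by
  exact ⟨(Ex.lit uBL).ev, (Ex.lit vBL).ev,
    by simpa only [ev_add, ev_mul, ev_lamB, ev_wB, ev_6] using k_rB⟩
theorem realZ : ∃ x y : ZG G, lamZ * x + y * wZ = 15 := by
  exact ⟨(Ex.lit uZL).ev, (Ex.lit vZL).ev,
    by simpa only [ev_add, ev_mul, ev_lamZ, ev_wZ, ev_15] using k_rZ⟩

end Bridge

theorem exactB (x : ZG G) (h : wB * x = 0) : ∃ q, x = lamB * q := Exa.exactB x h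
theorem exactZ (x : ZG G) (h : wZ * x = 0) : ∃ q, x = lamZ * q := Exa.exactZ x h

theorem sphs_alg {R : Type} [Ring R] {μB μZ wB wZ t ti ξ w3 w5 N β A E F ζ p1 p2 z0 : R}
    (ht : t * ti = 1) (hB : wB * μB = wB * t * ξ + 15 * wB * β * ti * N)
    (hZ : wZ * μZ = wZ * ζ - A * w3 * ξ) (hE : wB * t = E * w3) (hF : wZ * ζ = F * w5)
    (h3 : w3 * ξ * N = 0) (h5 : w5 * N = 0) (hN : N * N = 15 * N)
    (a1 : w3 * ξ * p1 = w3) (a2 : w5 * p1 = 0) (b1 : w3 * ξ * p2 = 0) (b2 : w5 * p2 = w5)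
    (c1 : wZ * ζ * z0 = wZ) :
    (∃ p, wB * μB * p = wB ∧ wZ * μZ * p = 0) ∧ ∃ p, wB * μB * p = 0 ∧ wZ * μZ * p = wZ := by
  have c15 : ∀ x y : R, x * (15 * y) = 15 * (x * y) := fun x y => by
    have : (15 : R) = ((15 : ℕ) : R) := by norm_num
    rw [this, ← mul_assoc, ← Nat.cast_comm, mul_assoc]
  let P : R → R → Prop := fun x y => ∃ p, wB * μB * p = x ∧ wZ * μZ * p = y
  have Psub : ∀ x y x' y' r, P x y → P x' y' → P (x - x' * r) (y - y' * r) := by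
    rintro _ _ _ _ r ⟨p, rfl, rfl⟩ ⟨p', rfl, rfl⟩
    exact ⟨p - p' * r, by rw [mul_sub, ← mul_assoc], by rw [mul_sub, ← mul_assoc]⟩
  have eB : ∀ p, wB * μB * p = E * (w3 * ξ * p) + 15 * (wB * (β * ti * (N * p))) := fun p => by
    rw [hB, hE]; noncomm_ring
  have eZ : ∀ p, wZ * μZ * p = F * (w5 * p) - A * (w3 * ξ * p) := fun p => by
    rw [hZ, hF]; noncomm_ring
  have n1 : ∀ p, N * ((15 - N) * p) = 0 := fun p => by
    rw [sub_mul, mul_sub, c15, ← mul_assoc N N, hN, mul_assoc, sub_self]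
  have n2 : ∀ p, w3 * ξ * ((15 - N) * p) = 15 * (w3 * ξ * p) := fun p => by
    rw [sub_mul, mul_sub, c15, ← mul_assoc (w3 * ξ) N, h3, zero_mul, sub_zero]
  have n3 : ∀ p, w5 * ((15 - N) * p) = 15 * (w5 * p) := fun p => by
    rw [sub_mul, mul_sub, c15, ← mul_assoc w5 N, h5, zero_mul, sub_zero]
  have fB : ∀ p, wB * μB * ((15 - N) * p) = 15 * (E * (w3 * ξ * p)) := fun p => by
    rw [eB, n1, n2, c15]; simp
  have fZ : ∀ p, wZ * μZ * ((15 - N) * p) = 15 * (wZ * μZ * p) := fun p => by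
    rw [eZ, eZ, n2, n3, c15, c15, mul_sub]
  have g1 : w3 * ξ * (p2 * z0) = 0 := by rw [← mul_assoc, b1, zero_mul]
  have g2 : wZ * μZ * (p2 * z0) = wZ := by
    rw [eZ, g1, ← mul_assoc w5, b2, ← mul_assoc, ← hF, c1]; simp
  have g3 : E * (w3 * ξ * (p1 * ti)) = wB := by
    rw [← mul_assoc _ p1, a1, ← mul_assoc, ← hE, mul_assoc, ht, mul_one]
  have P1 : P 0 (15 * wZ) := ⟨(15 - N) * (p2 * z0), by rw [fB, g1]; simp, by rw [fZ, g2]⟩
  have P2 : P (15 * wB) (15 * wZ * (μZ * (p1 * ti))) :=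
    ⟨(15 - N) * (p1 * ti), by rw [fB, g3], by rw [fZ]; simp only [mul_assoc]⟩
  have P3 : P (15 * wB) 0 := by simpa using Psub _ _ _ _ (μZ * (p1 * ti)) P2 P1
  have P4 : P (15 * wB * (β * ti * (N * (p2 * z0)))) wZ :=
    ⟨p2 * z0, by rw [eB, g1, mul_zero, zero_add]; simp only [mul_assoc], g2⟩
  have P5 : P 0 wZ := by simpa using Psub _ _ _ _ (β * ti * (N * (p2 * z0))) P4 P3
  have P6 : P (wB + 15 * wB * (β * ti * (N * (p1 * ti)))) (wZ * (μZ * (p1 * ti))) :=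
    ⟨p1 * ti, by rw [eB, g3]; simp only [mul_assoc], by simp only [mul_assoc]⟩
  have P7 : P wB 0 := by
    simpa using Psub _ _ _ _ (μZ * (p1 * ti)) (Psub _ _ _ _ (β * ti * (N * (p1 * ti))) P6 P3) P5
  exact ⟨P7, P5⟩

theorem sphs_sum {M : Type} [AddCommMonoid M] (f : Rel → M) :
    ∑ r, f r = f .r + f .t + f .u + f .B + f .Z := by
  have : (Finset.univ : Finset Rel) = {.r, .t, .u, .B, .Z} := by decide
  rw [this]
  simp only [add_assoc]
  rw [Finset.sum_insert (by decide), Finset.sum_insert (by decide), Finset.sum_insert (by decide),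
    Finset.sum_insert (by decide), Finset.sum_singleton]

theorem IsSph.split {s : Matrix (Fin 2) Rel (ZG G)} (h : IsSph s) :
    ∃ L : Matrix Rel (Fin 2) (ZG G), s * L = 1 := by
  obtain ⟨p1, a1, a2⟩ := exists_p1
  obtain ⟨p2, b1, b2⟩ := exists_p2
  obtain ⟨z0, c1⟩ := exists_z0
  have ht : og gt * og gt⁻¹ = (1 : ZG G) := by
    rw [← foxb_og_mul, mul_inv_cancel, foxb_og_one]
  obtain ⟨⟨pA, hA1, hA2⟩, pB, hB1, hB2⟩ := sphs_alg ht h.muB h.muZ wB_eq wZ_z w3_xi3_N15 w5_N15 N15_sq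
    a1 a2 b1 b2 c1
  obtain ⟨q1, e1⟩ := exactB (1 - s 0 .r * pA) (by rw [mul_sub, mul_one, ← mul_assoc, hA1, sub_self])
  obtain ⟨q2, e2⟩ := exactZ (-(s 1 .r * pA)) (by rw [mul_neg, ← mul_assoc, hA2, neg_zero])
  obtain ⟨q3, e3⟩ := exactB (-(s 0 .r * pB)) (by rw [mul_neg, ← mul_assoc, hB1, neg_zero])
  obtain ⟨q4, e4⟩ := exactZ (1 - s 1 .r * pB) (by rw [mul_sub, mul_one, ← mul_assoc, hB2, sub_self])
  refine ⟨Matrix.of fun r => match r with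
    | .r => ![pA, pB] | .t => 0 | .u => 0 | .B => ![q1, q3] | .Z => ![q2, q4], ?_⟩
  ext1 i j
  rw [Matrix.mul_apply, sphs_sum]
  fin_cases i <;> fin_cases j <;>
    simp [h.BB, h.BZ, h.ZB, h.ZZ, ← e1, ← e2, ← e3, ← e4]

end Crest.Agent.R251
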