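import Crest.Agent.R251.SphData

/-!
# Row 251: the kernel checks for the spheres
-/

set_option autoImplicit false

namespace Crest.Agent.R251

namespace Ex

theorem ev_add (a b : Ex) : (a + b).ev = a.ev + b.ev := rfl
theorem ev_sub (a b : Ex) : (a - b).ev = a.ev - b.ev := rfl
theorem ev_neg (a : Ex) : (-a).ev = -a.ev := rfl
theorem ev_mul (a b : Ex) : (a * b).ev = a.ev * b.ev := rfl
theorem ev_pow (a : Ex) (k : ℕ) : (Ex.pow a k).ev = a.ev ^ k := rfl
theorem ev_geo (a : Ex) (k : ℕ) : (Ex.geo a k).ev = ∑ i ∈ Finset.range k, a.ev ^ i := rfl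
theorem ev_0 : (0 : Ex).ev = 0 := Int.cast_zero
theorem ev_1 : (1 : Ex).ev = 1 := Int.cast_one
theorem ev_2 : (2 : Ex).ev = 2 := Int.cast_ofNat 2
theorem ev_6 : (6 : Ex).ev = 6 := Int.cast_ofNat 6
theorem ev_15 : (15 : Ex).ev = 15 := Int.cast_ofNat 15
theorem ev_w1 (n : ℕ) : (Ex.w [n]).ev = og (letter n) := congrArg og (mul_one _)
theorem ev_w2 (m n : ℕ) : (Ex.w [m, n]).ev = og (letter m * letter n) :=
  congrArg (fun x => og (letter m * x)) (mul_one _)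

theorem eq_of (a b : Ex) (h : (a - b).isZero = true) : a.ev = b.ev :=
  sub_eq_zero.1 (Ex.eq_zero _ h)

/-- the augmentation of an expression -/
def aug : Ex → ℤ
  | .w _ => 1
  | .z n => n
  | .lit L => (L.map Prod.fst).sum
  | .add a b => a.aug + b.aug
  | .sub a b => a.aug - b.aug
  | .neg a => -a.aug
  | .mul a b => a.aug * b.aug
  | .pow a k => a.aug ^ k
  | .geo a k => ((List.range k).map fun i => a.aug ^ i).sum

theorem eps_ev (e : Ex) : eps G e.ev = e.aug := by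
  induction e with
  | w l => exact eps_og _
  | z n => exact (map_intCast _ n).trans Int.cast_id
  | lit L =>
    induction L with
    | nil => exact map_zero _
    | cons p t ih =>
      change eps G ((p.1 : ZG G) * og (wordG p.2) + (Ex.lit t).ev) = p.1 + (Ex.lit t).aug
      rw [map_add, map_mul, eps_og, map_intCast, ih, Int.cast_id, mul_one]
  | add a b ha hb => rw [aug, ← ha, ← hb, ev, map_add]
  | sub a b ha hb => rw [aug, ← ha, ← hb, ev, map_sub]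
  | neg a ha => rw [aug, ← ha, ev, map_neg]
  | mul a b ha hb => rw [aug, ← ha, ← hb, ev, map_mul]
  | pow a k ha => rw [aug, ← ha, ev, map_pow]
  | geo a k ha =>
    rw [aug, ← ha, ev, map_sum, ← List.sum_toFinset _ List.nodup_range, List.toFinset_range]
    exact Finset.sum_congr rfl fun i _ => map_pow _ _ _

end Ex

namespace Dat

theorem gr_pow_inv {k l : ℕ} (h : k + l = 30) : gr ^ k = (gr ^ l)⁻¹ := by
  rw [eq_inv_iff_mul_eq_one, ← pow_add, h, gr_pow]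

theorem ev_S : S.ev = og gs := Ex.ev_w1 30
theorem ev_t : t.ev = og gt := Ex.ev_w1 31
theorem ev_ti : ti.ev = og gt⁻¹ := Ex.ev_w1 32
theorem ev_u : u.ev = og gu := Ex.ev_w1 33
theorem ev_ui : ui.ev = og gu⁻¹ := Ex.ev_w1 34
theorem ev_bB : bB.ev = og gbB := Ex.ev_w1 35
theorem ev_bZ : bZ.ev = og gbZ := Ex.ev_w1 37
theorem ev_bZi : bZi.ev = og gbZ⁻¹ := Ex.ev_w1 38
theorem ev_c : c.ev = og gc := Ex.ev_w1 15
theorem ev_a : a.ev = og ga := Ex.ev_w1 6
theorem ev_ai : ai.ev = og ga⁻¹ := (Ex.ev_w1 24).trans (congrArg og (gr_pow_inv (l := 6) rfl))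
theorem ev_sp : sp.ev = og gsp := Ex.ev_w2 30 15
theorem ev_z : z.ev = og gz := Ex.ev_w2 6 37
theorem ev_zi : zi.ev = og gz⁻¹ := (Ex.ev_w2 38 24).trans (congrArg og (by
  change gbZ⁻¹ * gr ^ 24 = (ga * gbZ)⁻¹
  rw [_root_.mul_inv_rev, gr_pow_inv (l := 6) rfl]
  rfl))
theorem ev_ρ1 : (ρ 1).ev = og gr := (Ex.ev_w1 1).trans (congrArg og (pow_one gr))
theorem ev_ρ10 : (ρ 10).ev = og gb := Ex.ev_w1 10
theorem ev_ρ20 : (ρ 20).ev = og gb⁻¹ := (Ex.ev_w1 20).trans (congrArg og (gr_pow_inv (l := 10) rfl))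
theorem ev_ρ23 : (ρ 23).ev = og (gr ^ 7)⁻¹ :=
  (Ex.ev_w1 23).trans (congrArg og (gr_pow_inv (l := 7) rfl))

def sb : Ex := .w [30, 35]
def sbi : Ex := .w [36, 30]
theorem ev_sb : sb.ev = og (gs * gbB) := Ex.ev_w2 30 35
theorem ev_sbi : sbi.ev = og (gs * gbB)⁻¹ := (Ex.ev_w2 36 30).trans (congrArg og (by
  change gbB⁻¹ * gs = _
  rw [_root_.mul_inv_rev, gs_inv_pa]))

def srE (k : ℕ) : Ex := .geo (ρ 1) k

theorem ev_srE (k : ℕ) : (srE k).ev = sr k := by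
  rw [srE, Ex.ev_geo, ev_ρ1, sr]
  exact Finset.sum_congr rfl fun i _ => (map_pow _ _ _).symm

/-- the boundary matrix -/
def d2E : Rel → Gen → Ex
  | .r, .r => srE 30
  | .r, .t => 0
  | .r, .u => 0
  | .r, .s => 0
  | .t, .t => 1 - c
  | .t, .u => 0
  | .t, .s => t
  | .t, .r => -srE 15
  | .u, .t => 0
  | .u, .u => 1 - c
  | .u, .s => -(u * ρ 23 * S)
  | .u, .r => u * ρ 23 * (S * srE 8 - srE 7) - srE 15
  | .B, .t => (S - 1) * (1 - bB)
  | .B, .u => 0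
  | .B, .s => 1 - bB
  | .B, .r => (S - 1) * t * srE 10
  | .Z, .t => (a - 1) * ui * (1 - bB)
  | .Z, .u => (a - 1) * ui * (bB - 1)
  | .Z, .s => 0
  | .Z, .r => (1 - bZ) * srE 6 + (a - 1) * ui * t * srE 10

theorem ev_d2E (x : Rel) (g : Gen) : (d2E x g).ev = d2 x g := by
  cases x
  · rw [d2_r]; cases g <;> simp only [d2E, Ex.ev_0, ev_srE]
  · rw [d2_t]; cases g <;> simp only [d2E, Ex.ev_0, Ex.ev_1, Ex.ev_sub, Ex.ev_neg, ev_srE, ev_c, ev_t]
  · rw [d2_u]; cases g <;> simp only [d2E, Ex.ev_0, Ex.ev_1, Ex.ev_sub, Ex.ev_neg, Ex.ev_mul, ev_srE,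
      ev_c, ev_u, ev_ρ23, ev_S]
  · rw [d2_B]; cases g <;> simp only [d2E, Ex.ev_0, Ex.ev_1, Ex.ev_sub, Ex.ev_mul, ev_srE,
      ev_bB, ev_t, ev_S]
  · rw [d2_Z]; cases g <;> simp only [d2E, Ex.ev_0, Ex.ev_1, Ex.ev_sub, Ex.ev_add, Ex.ev_mul, ev_srE,
      ev_bB, ev_bZ, ev_t, ev_ui, ev_a]

/-- the boundary of a vector -/
def cyc (x : Rel → Ex) (g : Gen) : Ex :=
  x .r * d2E .r g + x .t * d2E .t g + x .u * d2E .u g + x .B * d2E .B g + x .Z * d2E .Z g

theorem ev_cyc (x : Rel → Ex) (g : Gen) : (cyc x g).ev = ∑ y, (x y).ev * d2 y g := by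
  have h : (Finset.univ : Finset Rel) = {.r, .t, .u, .B, .Z} := by decide
  rw [h, Finset.sum_insert (by decide), Finset.sum_insert (by decide), Finset.sum_insert (by decide),
    Finset.sum_pair (by decide)]
  simp only [cyc, Ex.ev_add, Ex.ev_mul, ev_d2E, add_assoc]

def lamBE : Ex := (sbi + (1 - sb) * c) * bB
def wBE : Ex := (1 - S) * (1 - bB) * (1 - bB * c)
def qZE : Ex := z + zi - 1
def n0ZE : Ex := .pow zi 4 * (.pow z 8 - .pow z 7 + .pow z 5 - .pow z 4 + .pow z 3 - z + 1)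
def lamZE : Ex := (n0ZE - qZE * (1 - sp)) * .pow z 7
def wZE : Ex := (a - ai) * (bZ - bZi) * (1 + sp)
def w3E : Ex := (1 - ρ 10) * (1 - ρ 10 * S)
def xi3E : Ex := -(ρ 20 * (1 + .pow (ρ 1) 2))
def w5E : Ex := (1 + sp) * (a - ai)
def N15E : Ex := .geo (.pow (ρ 1) 2) 15

theorem cyc_Bt : (cyc xB .t).isZero = true := by decide +kernel
theorem cyc_Bu : (cyc xB .u).isZero = true := by decide +kernel
theorem cyc_Bs : (cyc xB .s).isZero = true := by decide +kernel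
theorem cyc_Br : (cyc xB .r).isZero = true := by decide +kernel
theorem cyc_Zt : (cyc xZ .t).isZero = true := by decide +kernel
theorem cyc_Zu : (cyc xZ .u).isZero = true := by decide +kernel
theorem cyc_Zs : (cyc xZ .s).isZero = true := by decide +kernel
theorem cyc_Zr : (cyc xZ .r).isZero = true := by decide +kernel

theorem cyc_B (g : Gen) : ∑ y, (xB y).ev * d2 y g = 0 := by
  rw [← ev_cyc]
  cases g
  exacts [Ex.eq_zero _ cyc_Bt, Ex.eq_zero _ cyc_Bu, Ex.eq_zero _ cyc_Bs, Ex.eq_zero _ cyc_Br]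

theorem cyc_Z (g : Gen) : ∑ y, (xZ y).ev * d2 y g = 0 := by
  rw [← ev_cyc]
  cases g
  exacts [Ex.eq_zero _ cyc_Zt, Ex.eq_zero _ cyc_Zu, Ex.eq_zero _ cyc_Zs, Ex.eq_zero _ cyc_Zr]

theorem k_BB : (xB .B).ev = lamBE.ev := Ex.eq_of _ _ (by decide +kernel)
theorem k_BZ : (xB .Z).ev = 0 := Ex.eq_zero _ (by decide +kernel)
theorem k_ZB : (xZ .B).ev = 0 := Ex.eq_zero _ (by decide +kernel)
theorem k_ZZ : (xZ .Z).ev = lamZE.ev := Ex.eq_of _ _ (by decide +kernel)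
theorem k_muB : (wBE * xB .r).ev = (wBE * t * xi3E + 15 * wBE * bB * ti * N15E).ev :=
  Ex.eq_of _ _ (by decide +kernel)
theorem k_muZ : (wZE * xZ .r).ev =
    (wZE * (z - zi) - (2 - a - ai) * bZi * ui * t * w3E * xi3E).ev :=
  Ex.eq_of _ _ (by decide +kernel)
theorem k_eBr : eps G (xB .r).ev = 0 := (Ex.eps_ev _).trans (by decide +kernel)
theorem k_eBt : eps G (xB .t).ev = 0 := (Ex.eps_ev _).trans (by decide +kernel)
theorem k_eZr : eps G (xZ .r).ev = 0 := (Ex.eps_ev _).trans (by decide +kernel)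
theorem k_eZt : eps G (xZ .t).ev = 0 := (Ex.eps_ev _).trans (by decide +kernel)
theorem k_1 : (wBE * lamBE).ev = 0 := Ex.eq_zero _ (by decide +kernel)
theorem k_2 : (wZE * lamZE).ev = 0 := Ex.eq_zero _ (by decide +kernel)
theorem k_3 : (wBE * t).ev = ((1 - S) * t * w3E).ev := Ex.eq_of _ _ (by decide +kernel)
theorem k_4 : (wZE * (z - zi)).ev = ((bZ - bZi) * (z - zi) * w5E).ev :=
  Ex.eq_of _ _ (by decide +kernel)
theorem k_5 : (w3E * xi3E * N15E).ev = 0 := Ex.eq_zero _ (by decide +kernel)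
theorem k_6 : (w5E * N15E).ev = 0 := Ex.eq_zero _ (by decide +kernel)
theorem k_7 : (N15E * N15E).ev = (15 * N15E).ev := Ex.eq_of _ _ (by decide +kernel)
theorem k_p1a : (w3E * xi3E * .lit p1L).ev = w3E.ev := Ex.eq_of _ _ (by decide +kernel)
theorem k_p1b : (w5E * .lit p1L).ev = 0 := Ex.eq_zero _ (by decide +kernel)
theorem k_p2a : (w3E * xi3E * .lit p2L).ev = 0 := Ex.eq_zero _ (by decide +kernel)
theorem k_p2b : (w5E * .lit p2L).ev = w5E.ev := Ex.eq_of _ _ (by decide +kernel)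
theorem k_z0 : (wZE * (z - zi) * z0).ev = wZE.ev := Ex.eq_of _ _ (by decide +kernel)
theorem k_rB : (lamBE * .lit uBL + .lit vBL * wBE).ev = (6 : Ex).ev := Ex.eq_of _ _ (by decide +kernel)
theorem k_rZ : (lamZE * .lit uZL + .lit vZL * wZE).ev = (15 : Ex).ev :=
  Ex.eq_of _ _ (by decide +kernel)

end Dat

end Crest.Agent.R251
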