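import Crest.Agent.R251.Sph
import Crest.Agent.R251.Blow

/-!
# Row 251: the determinant of the spheres on the slack columns (helper for `det_SQ`)
-/

set_option autoImplicit false

open Matrix

namespace Crest.Agent.R251

/-- projection onto the third axis -/
def sqE : Matrix (Fin 3) (Fin 3) ℝ := !![0, 0, 0; 0, 0, 0; 0, 0, 1]

theorem sq_rotz_E (x : ℝ) : rotz x * sqE = sqE := by
  ext i k
  fin_cases i <;> fin_cases k <;> simp [rotz, sqE, Matrix.mul_apply, Fin.sum_univ_three]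

theorem sq_cancel {X : Matrix (Fin 3) (Fin 3) ℝ} {x : ℝ} (hx : Real.cos x ≠ 1)
    (h : X * (1 - rotz x) = 0) : X = X * sqE := by
  have h1 : (1 - rotz x) * (1 - rotz (-x)) = (2 - 2 * Real.cos x) • (1 - sqE) := by
    ext i k
    fin_cases i <;> fin_cases k <;>
      simp [rotz, sqE, Matrix.mul_apply, Fin.sum_univ_three, Matrix.one_apply] <;>
      nlinarith [Real.sin_sq_add_cos_sq x]
  have h2 : (2 - 2 * Real.cos x) • (X - X * sqE) = 0 := by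
    rw [← mul_one X, mul_assoc, one_mul, ← mul_sub, ← Matrix.mul_smul, ← h1, ← mul_assoc, h,
      zero_mul]
  have h3 : (2 - 2 * Real.cos x) ≠ 0 := fun h => hx (by linarith)
  exact sub_eq_zero.1 ((smul_eq_zero.1 h2).resolve_left h3)

theorem sq_inv {θ : G →* Matrix (Fin 3) (Fin 3) ℝ} {g : G} {M : Matrix (Fin 3) (Fin 3) ℝ}
    (h : θ g * M = 1) : θ g⁻¹ = M := by
  rw [← mul_one (θ g⁻¹), ← h, ← mul_assoc, ← map_mul, inv_mul_cancel, map_one, one_mul]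

theorem sq_inv_rotz {θ : G →* Matrix (Fin 3) (Fin 3) ℝ} {g : G} {x : ℝ}
    (h : θ g = rotz x) : θ g⁻¹ = rotz (-x) :=
  sq_inv (by rw [h, rotz_mul, add_neg_cancel, rotz_zero])

theorem sq_cos_ne {m : ℤ} (h : ¬ 30 ∣ m) {x : ℝ} (hx : x = 2 * Real.pi * m / 30) :
    Real.cos x ≠ 1 := by
  intro h1
  obtain ⟨n, hn⟩ := (Real.cos_eq_one_iff _).1 h1
  apply h
  refine ⟨n, ?_⟩
  have h2 : (m : ℝ) = 30 * n := by
    rw [hx] at hn
    have := Real.pi_pos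
    field_simp at hn
    linarith
  exact_mod_cast h2

theorem sq_det (a0 a1 b0 b1 c0 c1 d0 d1 e0 e1 f0 f1 p q l : ℝ) :
    (!![a0, a1, 1, 0, 0, 0; b0, b1, 0, p, 0, 0; c0, c1, 0, q, 0, 0; d0, d1, 0, 0, l, 0;
      e0, e1, 0, 0, 0, 0; f0, f1, 0, 0, 0, -1] : Matrix (Fin 6) (Fin 6) ℝ).det =
      l * (e1 * (p * c0 - q * b0) - e0 * (p * c1 - q * b1)) := by
  rw [← det_transpose]
  simp [det_succ_row_zero, Fin.sum_univ_succ, Fin.succAbove, Matrix.submatrix]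
  ring

/-- the cyclotomic factor is the projection onto the axis -/
theorem sq_phi {φ : ℝ} (h3 : Real.cos (3 * φ) ≠ 1) (h5 : Real.cos (5 * φ) ≠ 1)
    (h15 : rotz φ ^ 15 = 1) :
    rotz φ ^ 8 - rotz φ ^ 7 + rotz φ ^ 5 - rotz φ ^ 4 + rotz φ ^ 3 - rotz φ + 1 = sqE := by
  set Φ := rotz φ ^ 8 - rotz φ ^ 7 + rotz φ ^ 5 - rotz φ ^ 4 + rotz φ ^ 3 - rotz φ + 1 with hΦ
  have e : Φ * (1 - rotz φ ^ 3) * (1 - rotz φ ^ 5) = (1 - rotz φ ^ 15) * (1 - rotz φ) := by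
    rw [hΦ]
    generalize rotz φ = z
    noncomm_ring
  rw [h15, sub_self, zero_mul, rotz_pow φ 3, rotz_pow φ 5] at e
  have e1 := sq_cancel (by exact_mod_cast h5) e
  rw [mul_assoc, sub_mul, sq_rotz_E, one_mul, sub_self, mul_zero] at e1
  rw [sq_cancel (by exact_mod_cast h3) e1, hΦ]
  simp only [add_mul, sub_mul, rotz_pow, sq_rotz_E, one_mul]
  abel

theorem sq_main {s : Matrix (Fin 2) Rel (ZG G)} (hs : IsSph s) {θ : G →* Matrix (Fin 3) (Fin 3) ℝ}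
    {j : ℤ} {s₁ s₂ s₃ s₄ : ℝ} (h : IsStd θ j s₁ s₂ s₃ s₄) {ϑ φ : ℝ} (hϑ : ϑ = 2 * Real.pi * j / 30)
    (hφ : φ = 6 * ϑ + s₂ * s₄ * (10 * ϑ)) :
    (!![rz θ (s 0 .r) 0 0, rz θ (s 0 .r) 0 1, rz θ lamB 0 0, rz θ lamB 0 2, 0, 0;
      rz θ (s 0 .r) 1 0, rz θ (s 0 .r) 1 1, rz θ lamB 1 0, rz θ lamB 1 2, 0, 0;
      rz θ (s 0 .r) 2 0, rz θ (s 0 .r) 2 1, rz θ lamB 2 0, rz θ lamB 2 2, 0, 0;
      rz θ (s 1 .r) 0 0, rz θ (s 1 .r) 0 1, 0, 0, rz θ lamZ 0 0, rz θ lamZ 0 2;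
      rz θ (s 1 .r) 1 0, rz θ (s 1 .r) 1 1, 0, 0, rz θ lamZ 1 0, rz θ lamZ 1 2;
      rz θ (s 1 .r) 2 0, rz θ (s 1 .r) 2 1, 0, 0, rz θ lamZ 2 0, rz θ lamZ 2 2] :
        Matrix (Fin 6) (Fin 6) ℝ).det =
      -8 * (s₁ * s₂) * Real.cos ϑ ^ 2 *
        ((2 * Real.cos φ - 1) * Real.cos (7 * φ) * Real.sin φ) := by
  have hnd : ∀ p : ℤ, p ∣ 30 → p ≠ 1 → p ≠ -1 → ¬ p ∣ j := fun p hp h1 h2 hd => by
    have := h.hj.isUnit_of_dvd' hd hp
    rw [Int.isUnit_iff] at this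
    omega
  have n2 := hnd 2 (by norm_num) (by norm_num) (by norm_num)
  have n3 := hnd 3 (by norm_num) (by norm_num) (by norm_num)
  have n5 := hnd 5 (by norm_num) (by norm_num) (by norm_num)
  have hε : s₂ * s₄ = 1 ∨ s₂ * s₄ = -1 := by
    rcases h.h₂ with h2 | h2 <;> rcases h.h₄ with h4 | h4 <;> simp [h2, h4]
  have q1 : s₁ ^ 2 = 1 := by rcases h.h₁ with h1 | h1 <;> simp [h1]
  have q2 : s₂ ^ 2 = 1 := by rcases h.h₂ with h1 | h1 <;> simp [h1]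
  have q4 : s₄ ^ 2 = 1 := by rcases h.h₄ with h1 | h1 <;> simp [h1]
  -- trigonometric values
  have c30 : Real.cos (3 * (10 * ϑ)) = 1 := by
    rw [show 3 * (10 * ϑ) = j * (2 * Real.pi) by rw [hϑ]; ring, Real.cos_int_mul_two_pi]
  have c10 : Real.cos (10 * ϑ) = -1 / 2 := by
    have h1 : Real.cos (10 * ϑ) ≠ 1 :=
      sq_cos_ne (m := 10 * j) (by omega) (by rw [hϑ]; push_cast; ring)
    rw [Real.cos_three_mul] at c30
    have h2 : (Real.cos (10 * ϑ) - 1) * (2 * Real.cos (10 * ϑ) + 1) ^ 2 = 0 := by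
      linear_combination c30
    have h3 := pow_eq_zero_iff two_ne_zero |>.1 ((mul_eq_zero.1 h2).resolve_left (sub_ne_zero.2 h1))
    linarith
  set y := Real.sin (10 * ϑ) with hy
  have y2 : y ^ 2 = 3 / 4 := by
    have := Real.sin_sq_add_cos_sq (10 * ϑ)
    rw [c10] at this
    linarith
  have y0 : y ≠ 0 := fun h0 => by rw [h0] at y2; norm_num at y2
  have sα : Real.sin (6 * ϑ) ≠ 0 := fun h0 => by
    refine sq_cos_ne (m := 12 * j) (x := 2 * (6 * ϑ)) (by omega) (by rw [hϑ]; push_cast; ring) ?_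
    rw [Real.cos_two_mul', h0]
    linear_combination Real.sin_sq_add_cos_sq (6 * ϑ) - Real.sin (6 * ϑ) * h0
  have c2 : Real.cos (2 * ϑ) ≠ 1 := sq_cos_ne (m := 2 * j) (by omega) (by rw [hϑ]; push_cast; ring)
  have c3 : Real.cos (3 * φ) ≠ 1 := by
    rcases hε with e | e
    · exact sq_cos_ne (m := 48 * j) (by omega) (by rw [hφ, e, hϑ]; push_cast; ring)
    · exact sq_cos_ne (m := -12 * j) (by omega) (by rw [hφ, e, hϑ]; push_cast; ring)
  have c5 : Real.cos (5 * φ) ≠ 1 := by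
    rcases hε with e | e
    · exact sq_cos_ne (m := 80 * j) (by omega) (by rw [hφ, e, hϑ]; push_cast; ring)
    · exact sq_cos_ne (m := -20 * j) (by omega) (by rw [hφ, e, hϑ]; push_cast; ring)
  have c15 : rotz φ ^ 15 = 1 := by
    rw [rotz_pow, ← rotz_zero]
    rcases hε with e | e
    · rw [← rotz_add_int 0 (8 * j)]
      congr 1
      rw [hφ, e, hϑ]; push_cast; ring
    · rw [← rotz_add_int 0 (-2 * j)]
      congr 1
      rw [hφ, e, hϑ]; push_cast; ring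
  have cβ : Real.cos (s₂ * s₄ * (10 * ϑ)) = -1 / 2 := by
    rcases hε with e | e <;> simp [e, c10]
  have sβ : Real.sin (s₂ * s₄ * (10 * ϑ)) = s₂ * s₄ * y := by
    rcases hε with e | e <;> simp [e, hy]
  -- values of the group elements
  have hr : θ gr = rotz ϑ := by rw [h.r, hϑ]
  have ha : θ ga = rotz (6 * ϑ) := by rw [ga, map_pow, hr, rotz_pow]; norm_num
  have hb : θ gb = rotz (10 * ϑ) := by rw [gb, map_pow, hr, rotz_pow]; norm_num
  have hc : θ gc = !![-1, 0, 0; 0, -1, 0; 0, 0, 1] := by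
    rw [gc, map_pow, h.r, rotz_pow_fifteen h.hj]
  have hti : θ gt⁻¹ = (stdT s₁ s₂)ᵀ := sq_inv (by rw [h.t, stdT_mul_transpose h.h₁ h.h₂])
  have hui : θ gu⁻¹ = (stdU s₃ s₄)ᵀ := sq_inv (by rw [h.u, stdU_mul_transpose h.h₃ h.h₄])
  have hbB : θ gbB = !![1, 0, 0; 0, -1 / 2, -(s₂ * y); 0, s₂ * y, -1 / 2] := by
    rw [gbB, map_mul, map_mul, h.t, hti, hb, stdT_rotz h.h₁ h.h₂, c10]
  have hbZ : θ gbZ = rotz (s₂ * s₄ * (10 * ϑ)) := by
    rw [gbZ, gbB, map_mul, map_mul, map_mul, map_mul, h.t, hti, hb, h.u, hui,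
      stdU_stdT_rotz h.h₁ h.h₂ h.h₃ h.h₄]
  have hz : θ gz = rotz φ := by rw [gz, map_mul, ha, hbZ, rotz_mul, hφ]
  have hsp : θ gsp = !![-1, 0, 0; 0, 1, 0; 0, 0, -1] := by
    rw [gsp, map_mul, hc, h.s]
    ext i k
    fin_cases i <;> fin_cases k <;> simp [stdS, Matrix.mul_apply, Fin.sum_univ_three]
  have hσ : (s₂ * y) ^ 2 = 3 / 4 := by rw [mul_pow, q2, y2, one_mul]
  have hsb : θ (gs * gbB)⁻¹ = !![1, 0, 0; 0, 1 / 2, -(s₂ * y); 0, s₂ * y, 1 / 2] := by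
    refine sq_inv ?_
    rw [map_mul, h.s, hbB]
    generalize s₂ * y = σ at hσ
    ext i k
    fin_cases i <;> fin_cases k <;>
      simp [stdS, Matrix.mul_apply, Fin.sum_univ_three] <;> nlinarith [hσ]
  -- the blocks
  have hlB : rz θ lamB = !![1, 0, 0; 0, -3 / 2, s₂ * y; 0, s₂ * y, -1 / 2] := by
    simp only [lamB, map_mul, map_add, map_sub, map_one, rz_og]
    rw [hsb, h.s, hbB, hc]
    generalize s₂ * y = σ at hσ
    ext i k
    fin_cases i <;> fin_cases k <;>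
      simp [stdS, Matrix.mul_apply, Fin.sum_univ_three, Matrix.one_apply] <;> nlinarith [hσ]
  have hwB : rz θ wB = !![0, 0, 0; 0, 3, 6 * (s₂ * y); 0, 2 * (s₂ * y), 3] := by
    simp only [wB, map_mul, map_sub, map_one, rz_og]
    rw [h.s, hbB, hc]
    generalize s₂ * y = σ at hσ
    ext i k
    fin_cases i <;> fin_cases k <;>
      simp [stdS, Matrix.mul_apply, Fin.sum_univ_three, Matrix.one_apply] <;> nlinarith [hσ]
  have hN : rz θ N15 = rz θ N15 * sqE := by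
    refine sq_cancel c2 ?_
    have e : rz θ N15 = ∑ i ∈ Finset.range 15, rotz (2 * ϑ) ^ i := by
      simp only [N15, map_sum, map_pow, rz_og, hr]
      rw [rotz_pow ϑ 2]
      norm_num
    rw [e, geom_sum_mul_neg, rotz_pow, ← rotz_zero, ← rotz_add_int 0 j, sub_eq_zero]
    congr 1
    rw [hϑ]; push_cast; ring
  have hξ : rz θ xi3 = -(!![-1 / 2, y, 0; -y, -1 / 2, 0; 0, 0, 1] *
      !![1 + Real.cos (2 * ϑ), -Real.sin (2 * ϑ), 0; Real.sin (2 * ϑ), 1 + Real.cos (2 * ϑ), 0;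
        0, 0, 2]) := by
    simp only [xi3, map_mul, map_add, map_neg, map_pow, map_one, rz_og]
    rw [sq_inv_rotz hb, hr, rotz_pow]
    congr 2
    · simp [rotz, c10, hy]
    · ext i k
      fin_cases i <;> fin_cases k <;> simp [rotz]
      norm_num
  have hlZ : ∀ i, rz θ lamZ i 0 = ![-2 * (2 * Real.cos φ - 1) * Real.cos (7 * φ), 0, 0] i ∧
      rz θ lamZ i 2 = ![0, 0, -1] i := by
    simp only [lamZ, n0Z, qZ, map_mul, map_add, map_sub, map_pow, map_one, rz_og]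
    rw [sq_inv_rotz hz, hz, sq_phi c3 c5 c15, rotz_pow, sq_rotz_E, rotz_pow, hsp]
    intro i
    fin_cases i <;>
      simp [rotz, sqE, Matrix.mul_apply, Fin.sum_univ_three, Matrix.one_apply] <;>
      try constructor
    all_goals ring_nf
  have hwZ : rz θ wZ = !![0, 0, 0; 0, -8 * Real.sin (6 * ϑ) * (s₂ * s₄ * y), 0; 0, 0, 0] := by
    simp only [wZ, map_mul, map_add, map_sub, map_one, rz_og]
    rw [sq_inv_rotz ha, sq_inv_rotz hbZ, ha, hbZ, hsp]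
    ext i k
    fin_cases i <;> fin_cases k <;>
      simp [rotz, sβ, Matrix.mul_apply, Fin.sum_univ_three, Matrix.one_apply]
    ring
  have hw3 : rz θ w3 = !![3 / 2, -y, 0; -3 * y, 3 / 2 , 0; 0, 0, 0] := by
    simp only [w3, map_mul, map_sub, map_one, rz_og]
    rw [hb, h.s]
    ext i k
    fin_cases i <;> fin_cases k <;>
      simp [rotz, stdS, c10, ← hy, Matrix.mul_apply, Fin.sum_univ_three, Matrix.one_apply] <;>
      nlinarith [y2]
  set S := Real.sin (2 * ϑ) with hS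
  set C := Real.cos (2 * ϑ) with hC
  have hwξ : rz θ w3 * rz θ xi3 =
      !![-2 * y * S, -2 * y * (1 + C), 0; 3 * S, 3 * (1 + C), 0; 0, 0, 0] := by
    rw [hw3, hξ]
    ext i k
    fin_cases i <;> fin_cases k <;> simp [Matrix.mul_apply, Fin.sum_univ_three]
    · linear_combination (-(1 + C)) * y2
    · linear_combination S * y2
    · linear_combination (3 * S) * y2
    · linear_combination (3 * (1 + C)) * y2
  have eB := congrArg (rz θ) hs.muB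
  simp only [map_mul, map_add, rz_og] at eB
  rw [hN, ← mul_assoc _ (rz θ N15)] at eB
  generalize rz θ 15 * rz θ wB * θ gbB * θ gt⁻¹ * rz θ N15 = X at eB
  rw [hwB, h.t, hξ] at eB
  have eB0 := congrFun (congrFun eB 1) 0
  have eB1 := congrFun (congrFun eB 1) 1
  simp [stdT, sqE, Matrix.mul_apply, Fin.sum_univ_three] at eB0 eB1
  have eZ := congrArg (rz θ) hs.muZ
  simp only [map_mul, map_sub, rz_og] at eZ
  rw [mul_assoc _ (rz θ w3), hwξ] at eZ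
  generalize (rz θ 2 - θ ga - θ ga⁻¹) * θ gbZ⁻¹ * θ gu⁻¹ * θ gt = Y at eZ
  rw [hwZ, sq_inv_rotz hz, hz] at eZ
  have eZ0 := congrFun (congrFun eZ 1) 0
  have eZ1 := congrFun (congrFun eZ 1) 1
  simp [rotz, Matrix.mul_apply, Fin.sum_univ_three] at eZ0 eZ1
  rw [hlB, (hlZ 0).1, (hlZ 0).2, (hlZ 1).1, (hlZ 1).2, (hlZ 2).1, (hlZ 2).2]
  refine (sq_det _ _ _ _ _ _ _ _ _ _ _ _ (s₂ * y) (-1 / 2)
    (-2 * (2 * Real.cos φ - 1) * Real.cos (7 * φ))).trans ?_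
  have hD : Real.sin (6 * ϑ) * (s₂ * s₄ * y) ≠ 0 :=
    mul_ne_zero sα (mul_ne_zero (by rcases hε with e | e <;> simp [e]) y0)
  have hC2 : 1 + C = 2 * Real.cos ϑ ^ 2 := by rw [hC, Real.cos_two_mul]; ring
  generalize rz θ (s 0 .r) = μ at eB0 eB1 ⊢
  generalize rz θ (s 1 .r) = ν at eZ0 eZ1 ⊢
  have f0 : s₂ * y * μ 2 0 - -1 / 2 * μ 1 0 = -(s₁ * s₂) * S := by
    linear_combination (1 / 6) * eB0 - s₁ * s₂ * S * y2
  have f1 : s₂ * y * μ 2 1 - -1 / 2 * μ 1 1 = -(s₁ * s₂) * (1 + C) := by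
    linear_combination (1 / 6) * eB1 - s₁ * s₂ * (1 + C) * y2
  have g : ν 1 1 * S - ν 1 0 * (1 + C) = -2 * Real.sin φ * (1 + C) := by
    refine mul_left_cancel₀ hD ?_
    linear_combination (-1 / 8 * S) * eZ1 + (1 / 8 * (1 + C)) * eZ0
  rw [f0, f1]
  linear_combination (2 * (2 * Real.cos φ - 1) * Real.cos (7 * φ) * (s₁ * s₂)) * g -
    4 * (2 * Real.cos φ - 1) * Real.cos (7 * φ) * (s₁ * s₂) * Real.sin φ * hC2

end Crest.Agent.R251
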