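import Mathlib

/-!
# Row 251: signs of `cos (m π / 15)` and `sin (m π / 15)`
-/

set_option autoImplicit false

open Real

namespace Crest.Agent.R251

/-- `cos (m π / 15)` -/
noncomputable def cs (m : ℤ) : ℝ := Real.cos (m * π / 15)

/-- `sin (m π / 15)` -/
noncomputable def sn (m : ℤ) : ℝ := Real.sin (m * π / 15)

theorem cs_add (m k : ℤ) : cs (m + 30 * k) = cs m := by
  rw [cs, cs, ← Real.cos_add_int_mul_two_pi (m * π / 15) k]
  congr 1
  push_cast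
  ring

theorem sn_add (m k : ℤ) : sn (m + 30 * k) = sn m := by
  rw [sn, sn, ← Real.sin_add_int_mul_two_pi (m * π / 15) k]
  congr 1
  push_cast
  ring

theorem cs_pos {m : ℤ} (h : m % 30 ≤ 7 ∨ 23 ≤ m % 30) : 0 < cs m := by
  obtain ⟨r, k, rfl, h1, h2⟩ : ∃ r k : ℤ, m = r + 30 * k ∧ -7 ≤ r ∧ r ≤ 7 := by
    rcases h with h | h
    · exact ⟨m % 30, m / 30, by omega, by omega, by omega⟩
    · exact ⟨m % 30 - 30, m / 30 + 1, by omega, by omega, by omega⟩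
  rw [cs_add, cs]
  have h1' : (-7 : ℝ) ≤ r := by exact_mod_cast h1
  have h2' : (r : ℝ) ≤ 7 := by exact_mod_cast h2
  refine Real.cos_pos_of_mem_Ioo ⟨?_, ?_⟩ <;> nlinarith [Real.pi_pos]

theorem cs_neg {m : ℤ} (h : 8 ≤ m % 30 ∧ m % 30 ≤ 22) : cs m < 0 := by
  obtain ⟨r, k, rfl, h1, h2⟩ : ∃ r k : ℤ, m = r + 30 * k ∧ 8 ≤ r ∧ r ≤ 22 :=
    ⟨m % 30, m / 30, by omega, by omega, by omega⟩
  rw [cs_add, cs]
  have h1' : (8 : ℝ) ≤ r := by exact_mod_cast h1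
  have h2' : (r : ℝ) ≤ 22 := by exact_mod_cast h2
  refine Real.cos_neg_of_pi_div_two_lt_of_lt ?_ ?_ <;> nlinarith [Real.pi_pos]

theorem sn_pos {m : ℤ} (h : 1 ≤ m % 30 ∧ m % 30 ≤ 14) : 0 < sn m := by
  obtain ⟨r, k, rfl, h1, h2⟩ : ∃ r k : ℤ, m = r + 30 * k ∧ 1 ≤ r ∧ r ≤ 14 :=
    ⟨m % 30, m / 30, by omega, by omega, by omega⟩
  rw [sn_add, sn]
  have h1' : (1 : ℝ) ≤ r := by exact_mod_cast h1
  have h2' : (r : ℝ) ≤ 14 := by exact_mod_cast h2
  refine Real.sin_pos_of_pos_of_lt_pi ?_ ?_ <;> nlinarith [Real.pi_pos]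

theorem sn_neg {m : ℤ} (h : 16 ≤ m % 30) : sn m < 0 := by
  obtain ⟨r, k, rfl, h1, h2⟩ : ∃ r k : ℤ, m = r + 30 * k ∧ -14 ≤ r ∧ r ≤ -1 :=
    ⟨m % 30 - 30, m / 30 + 1, by omega, by omega, by omega⟩
  rw [sn_add, sn]
  have h1' : (-14 : ℝ) ≤ r := by exact_mod_cast h1
  have h2' : (r : ℝ) ≤ -1 := by exact_mod_cast h2
  refine Real.sin_neg_of_neg_of_neg_pi_lt ?_ ?_ <;> nlinarith [Real.pi_pos]

/-- the sign of `cs m`, from `m % 30` -/
def sgC (r : ℤ) : SignType := if r ≤ 7 ∨ 23 ≤ r then 1 else -1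

/-- the sign of `sn m`, from `m % 30` -/
def sgS (r : ℤ) : SignType := if r = 0 ∨ r = 15 then 0 else if r ≤ 14 then 1 else -1

theorem sn_eq_zero {m : ℤ} (h : 15 ∣ m) : sn m = 0 := by
  obtain ⟨k, rfl⟩ := h
  rw [sn, ← Real.sin_int_mul_pi k]
  congr 1
  push_cast
  ring

theorem sign_cs (m : ℤ) : SignType.sign (cs m) = sgC (m % 30) := by
  unfold sgC
  split_ifs with h
  · exact sign_pos (cs_pos h)
  · exact sign_neg (cs_neg (by omega))

theorem sign_sn (m : ℤ) : SignType.sign (sn m) = sgS (m % 30) := by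
  unfold sgS
  split_ifs with h h'
  · rw [sn_eq_zero (by omega), _root_.sign_zero]
  · exact sign_pos (sn_pos (by omega))
  · exact sign_neg (sn_neg (by omega))

theorem sign_cs_mul (k j : ℤ) : SignType.sign (cs (k * j)) = sgC (k * (j % 30) % 30) := by
  rw [sign_cs, Int.mul_emod, Int.mul_emod k (j % 30), Int.emod_emod_of_dvd _ (dvd_refl _)]

theorem sign_sn_mul (k j : ℤ) : SignType.sign (sn (k * j)) = sgS (k * (j % 30) % 30) := by
  rw [sign_sn, Int.mul_emod, Int.mul_emod k (j % 30), Int.emod_emod_of_dvd _ (dvd_refl _)]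

theorem cs_ne (m : ℤ) : cs m ≠ 0 := by
  by_cases h : m % 30 ≤ 7 ∨ 23 ≤ m % 30
  · exact (cs_pos h).ne'
  · exact (cs_neg (by omega)).ne

theorem cos_three (y : ℝ) : Real.cos (3 * y) = Real.cos y * (2 * Real.cos (2 * y) - 1) := by
  rw [Real.cos_three_mul, Real.cos_two_mul]
  ring

theorem cos_add_four (x y : ℝ) : Real.cos (2 * x + 2 * y) - Real.cos (2 * x) - Real.cos (2 * y) + 1 =
    -4 * Real.sin x * Real.sin y * Real.cos (x + y) := by
  rw [Real.cos_add, Real.cos_add, Real.cos_two_mul', Real.cos_two_mul', Real.sin_two_mul, Real.sin_two_mul]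
  have hx := Real.sin_sq_add_cos_sq x
  have hy := Real.sin_sq_add_cos_sq y
  have hx' : Real.cos x ^ 2 = 1 - Real.sin x ^ 2 := by linarith
  have hy' : Real.cos y ^ 2 = 1 - Real.sin y ^ 2 := by linarith
  rw [hx', hy']
  ring

theorem coprime_emod {j : ℤ} (hj : IsCoprime j 30) : j % 2 ≠ 0 ∧ j % 3 ≠ 0 ∧ j % 5 ≠ 0 := by
  obtain ⟨a, b, h⟩ := hj
  refine ⟨fun h0 => ?_, fun h0 => ?_, fun h0 => ?_⟩
  · obtain ⟨k, rfl⟩ : 2 ∣ j := Int.dvd_of_emod_eq_zero h0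
    have : (2 : ℤ) ∣ 1 := ⟨a * k + b * 15, by linear_combination -h⟩
    omega
  · obtain ⟨k, rfl⟩ : 3 ∣ j := Int.dvd_of_emod_eq_zero h0
    have : (3 : ℤ) ∣ 1 := ⟨a * k + b * 10, by linear_combination -h⟩
    omega
  · obtain ⟨k, rfl⟩ : 5 ∣ j := Int.dvd_of_emod_eq_zero h0
    have : (5 : ℤ) ∣ 1 := ⟨a * k + b * 6, by linear_combination -h⟩
    omega

theorem coprime_of_emod {j : ℤ} (h2 : j % 2 ≠ 0) (h3 : j % 3 ≠ 0) (h5 : j % 5 ≠ 0) : IsCoprime j 30 := by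
  have e2 : IsCoprime j 2 := ((Int.prime_two.irreducible.coprime_iff_not_dvd).2 (by omega)).symm
  have e3 : IsCoprime j 3 := ((Int.prime_three.irreducible.coprime_iff_not_dvd).2 (by omega)).symm
  have p5 : Prime (5 : ℤ) := Int.prime_iff_natAbs_prime.2 (by norm_num)
  have e5 : IsCoprime j 5 := ((p5.irreducible.coprime_iff_not_dvd).2 (by omega)).symm
  simpa using (e2.mul_right e3).mul_right e5

theorem emod_cases {j : ℤ} (hj : IsCoprime j 30) : j % 30 = 1 ∨ j % 30 = 7 ∨ j % 30 = 11 ∨ j % 30 = 13 ∨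
    j % 30 = 17 ∨ j % 30 = 19 ∨ j % 30 = 23 ∨ j % 30 = 29 := by
  obtain ⟨h2, h3, h5⟩ := coprime_emod hj
  rw [← Int.emod_emod_of_dvd j (by norm_num : (2 : ℤ) ∣ 30)] at h2
  rw [← Int.emod_emod_of_dvd j (by norm_num : (3 : ℤ) ∣ 30)] at h3
  rw [← Int.emod_emod_of_dvd j (by norm_num : (5 : ℤ) ∣ 30)] at h5
  have h0 : 0 ≤ j % 30 := by omega
  have h1 : j % 30 < 30 := by omega
  generalize j % 30 = r at *
  interval_cases r <;> simp_all

/-- `FN * FS` for `ε = 1`, up to the factor `-4` -/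
noncomputable def Pp (j : ℤ) : ℝ :=
  cs (7 * j) * sn (10 * j) * sn (3 * j) * sn (5 * j) * cs (24 * j) * cs (112 * j) * sn (16 * j)

/-- `FN * FS` for `ε = -1`, up to the factor `-4` -/
noncomputable def Pm (j : ℤ) : ℝ :=
  cs (7 * j) * sn (10 * j) * sn (3 * j) * sn (5 * j) * cs (6 * j) * cs (28 * j) * sn (4 * j)

theorem Pp_pos {j : ℤ} (hj : IsCoprime j 30) (h5 : j % 5 = 1 ∨ j % 5 = 4) : 0 < Pp j := by
  rw [← sign_eq_one_iff, Pp]
  simp only [sign_mul, sign_cs_mul, sign_sn_mul]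
  rcases emod_cases hj with h | h | h | h | h | h | h | h <;> first | omega | (rw [h]; decide)

theorem Pm_pos {j : ℤ} (hj : IsCoprime j 30) (h5 : j % 5 = 1 ∨ j % 5 = 4) : 0 < Pm j := by
  rw [← sign_eq_one_iff, Pm]
  simp only [sign_mul, sign_cs_mul, sign_sn_mul]
  rcases emod_cases hj with h | h | h | h | h | h | h | h <;> first | omega | (rw [h]; decide)

theorem Pp_mul_Pm_neg {j : ℤ} (hj : IsCoprime j 30) (h5 : j % 5 = 2 ∨ j % 5 = 3) : Pp j * Pm j < 0 := by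
  rw [← sign_eq_neg_one_iff, Pp, Pm]
  simp only [sign_mul, sign_cs_mul, sign_sn_mul]
  rcases emod_cases hj with h | h | h | h | h | h | h | h <;> first | omega | (rw [h]; decide)

theorem cs_six_pos_iff {j : ℤ} (hj : IsCoprime j 30) : 0 < cs (6 * j) ↔ (j % 5 = 1 ∨ j % 5 = 4) := by
  obtain ⟨h2, h3, h5⟩ := coprime_emod hj
  constructor
  · intro h
    by_contra hc
    exact absurd (cs_neg (m := 6 * j) (by omega)) h.not_gt
  · intro h
    exact cs_pos (by omega)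

theorem cs_six_lt {j : ℤ} (hj : IsCoprime j 30) : 2 * cs (6 * j) < 1 := by
  have h1 : cs (9 * j) * cs (3 * j) < 0 := by
    rw [← sign_eq_neg_one_iff]
    simp only [sign_mul, sign_cs_mul]
    rcases emod_cases hj with h | h | h | h | h | h | h | h <;> (rw [h]; decide)
  have h2 : cs (9 * j) = cs (3 * j) * (2 * cs (6 * j) - 1) := by
    have := cos_three (((3 * j : ℤ) : ℝ) * π / 15)
    unfold cs
    convert this using 3
    · push_cast; ring
    · congr 2; push_cast; ring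
  rw [h2] at h1
  by_contra hc
  nlinarith [sq_nonneg (cs (3 * j))]

theorem cs_ten_neg {j : ℤ} (hj : IsCoprime j 30) : cs (10 * j) < 0 := by
  obtain ⟨h2, h3, h5⟩ := coprime_emod hj
  exact cs_neg (by omega)

end Crest.Agent.R251
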