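import Crest.Agent.R251.TauA
import Crest.Agent.R251.Sph
import Crest.Agent.R251.Blow
import Crest.Agent.R251.TauSQ
import Crest.Agent.R251.Trig

/-!
# Row 251: the sign of the torsion of `X` in the rigid representations

Notation: `ϑ = 2 π j / 30`, `ε = s₂ s₄`, `α = 6 ϑ`, `β = ε 10 ϑ`, `φ = α + β`; on the `xy`-plane (`w = x + i y`) `ρ = e^{iϑ}`,
`a = e^{iα}`, `bZ = e^{iβ}`, `z = e^{iφ}`, `c = -1`, `σ = conj`, `σ' = -conj`; on the `z`-axis `ρ = 1`, `σ = σ' = -1`.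
`b'` is the rotation about the `x`-axis by `s₂ 10 ϑ` (`e_y ↦ cos e_y + sin e_z`).  `t e_x = s₁ e_z`, `t e_y = -s₁ s₂ e_y`,
`t e_z = s₂ e_x`, `u e_x = s₃ s₄ e_y`, `u e_y = s₃ e_z`, `u e_z = s₄ e_x`.

`det_NX`: order rows/columns as `(Ξ0, ρx) (Ξ1, ρy) (Ξ2, σz) (r z, ρ z) (t z, σ x) (u z, σ y) (t x, t x) (t y, t y) (u x, u x)
(u y, u y) (B y, t z) (Z y, u z)` and then the six rows of `Q0` with their columns: the matrix is lower triangular with diagonal
`1, 1, 1, 30, s₁, s₃ cos 7ϑ, 2, 2, 2, 2, -2 s₂ sin 10ϑ, s₃ Re((e^{iα} - 1)(e^{iβ} - 1)), 1, …, 1`; the sign of the reordering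
does not depend on `θ` (`Matrix.det_permute`, `det_submatrix_equiv_self`, `det_of_lowerTriangular`).

`det_SQ`: `λ_B e_x = e_x`, on `w = y + i z`, `λ_B w = e^{iγ} conj w - w` (`γ = s₂ 10 ϑ`), killed on the left by
`f_B = (0, cos γ, -sin γ)`, `cos γ = -1/2`; `θ(wB) = g_B f_B` with a nonzero column `g_B`, and `θ((1 - b')(1 - b' c))` also has the form
`g f_B`, where `(1 - b')(1 - b' c) t = t w3`.  So `f_B μ_B = f_B t ξ3` on the `xy`-plane (`N15 = 0` there)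
`= 2 s₁ s₂ cos ϑ (sin ϑ, cos ϑ)`.  `λ_Z e_z = -e_z`, `λ_Z e_x = -2 (2 cos φ - 1) cos 7φ e_x` (`n0Z` vanishes on the plane, `φ` is a
primitive 15th root angle), the `y`-row of `λ_Z` vanishes, `θ(wZ) = g_Z e_yᵀ` with `g_Z = (0, -8 sin α sin β, 0) ≠ 0`, so the `y`-row of
`μ_Z` is `(2 sin φ, 0)` plus a multiple of `f_B μ_B` on the plane.  Multiply the `B`-rows by the matrix with rows `e_x, f_B, e_z`
(determinant `-1/2`) and expand.
-/

set_option autoImplicit false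

open Matrix

namespace Crest.Agent.R251

/-- the fixed bijection between rows and columns -/
def eRG : Gen ⊕ Fin 2 ≃ Option Rel where
  toFun
    | .inl .r => some .r
    | .inl .t => some .t
    | .inl .u => some .u
    | .inl .s => none
    | .inr i => if i = 0 then some .B else some .Z
  invFun
    | none => .inl .s
    | some .r => .inl .r
    | some .t => .inl .t
    | some .u => .inl .u
    | some .B => .inr 0
    | some .Z => .inr 1
  left_inv x := by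
    rcases x with (_ | _ | _ | _) | i
    any_goals rfl
    fin_cases i <;> rfl
  right_inv x := by rcases x with _ | (_ | _ | _ | _ | _) <;> rfl

/-- the linearised system of `X` with gauge rows `Ξ` and slack columns `Q` -/
noncomputable def NX (θ : G →* Matrix (Fin 3) (Fin 3) ℝ) (Ξ : Matrix (Fin 3) (Gen × Fin 3) ℝ)
    (Q : Matrix (Rel × Fin 3) (Fin 2 × Fin 3) ℝ) :
    Matrix ((Gen ⊕ Fin 2) × Fin 3) ((Gen ⊕ Fin 2) × Fin 3) ℝ :=
  Matrix.of fun p q => match eRG p.1, q.1 with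
    | none, .inl x => Ξ p.2 (x, q.2)
    | none, .inr _ => 0
    | some r, .inl x => blow θ d2 (r, p.2) (x, q.2)
    | some r, .inr k => Q (r, p.2) (k, q.2)

/-- infinitesimal conjugation -/
noncomputable def gaugeX (θ : G →* Matrix (Fin 3) (Fin 3) ℝ) : Matrix (Gen × Fin 3) (Fin 3) ℝ :=
  Matrix.of fun p k => (1 - θ (gen p.1)) p.2 k

/-- `e` has the sign of the torsion of `X` in `θ` -/
def TauSign (s : Matrix (Fin 2) Rel (ZG G)) (θ : G →* Matrix (Fin 3) (Fin 3) ℝ) (e : ℝ) : Prop :=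
  ∃ (Ξ : Matrix (Fin 3) (Gen × Fin 3) ℝ) (Q : Matrix (Rel × Fin 3) (Fin 2 × Fin 3) ℝ),
    0 < e * (NX θ Ξ Q).det * (Ξ * gaugeX θ).det * (blow θ s * Q).det

/-- conjugation invariance: `Ξ' = Ξ diag(P⁻¹)`, `Q' = diag(P) Q`; the product changes by `det P ^ 2` -/
theorem TauSign.conj {s : Matrix (Fin 2) Rel (ZG G)} {θ θ' : G →* Matrix (Fin 3) (Fin 3) ℝ}
    (P P' : Matrix (Fin 3) (Fin 3) ℝ) (hP : P * P' = 1) (h : ∀ g, θ' g = P * θ g * P') {e : ℝ}
    (he : TauSign s θ e) : TauSign s θ' e := by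
  obtain ⟨Ξ, Q, h0⟩ := he
  have hP' : P' * P = 1 := mul_eq_one_comm.1 hP
  refine ⟨P * Ξ * Matrix.kroneckerMap (· * ·) (1 : Matrix Gen Gen ℝ) P', tauaCj P P' Q, ?_⟩
  have e1 : NX θ' (P * Ξ * Matrix.kroneckerMap (· * ·) (1 : Matrix Gen Gen ℝ) P') (tauaCj P P' Q) =
      tauaCj P P' (NX θ Ξ Q) := by
    ext ⟨p, i⟩ ⟨q, k⟩
    simp only [NX, tauaCj, Matrix.of_apply, taua_blow h]
    rcases eRG p with _ | a <;> rcases q with x | l
    · simp only [taua_right]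
      simp only [Matrix.mul_apply]
    · simp
    · rfl
    · rfl
  have e2 : gaugeX θ' = Matrix.kroneckerMap (· * ·) (1 : Matrix Gen Gen ℝ) P * gaugeX θ * P' := by
    ext p k
    have : 1 - θ' (gen p.1) = P * (1 - θ (gen p.1)) * P' := by
      rw [h, Matrix.mul_sub, Matrix.sub_mul, Matrix.mul_one, hP]
    rw [Matrix.mul_apply]
    simp only [taua_left]
    simp only [gaugeX, Matrix.of_apply, this, Matrix.mul_apply]
  have e3 : P * Ξ * Matrix.kroneckerMap (· * ·) (1 : Matrix Gen Gen ℝ) P' * gaugeX θ' =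
      P * (Ξ * gaugeX θ) * P' := by
    rw [e2]
    simp only [Matrix.mul_assoc]
    rw [← Matrix.mul_assoc (Matrix.kroneckerMap _ _ P'), taua_kron hP', Matrix.one_mul]
  have e4 : blow θ' s * tauaCj P P' Q = tauaCj P P' (blow θ s * Q) := by
    rw [taua_blow h]
    simp only [tauaCj_eq, Matrix.mul_assoc]
    rw [← Matrix.mul_assoc (Matrix.kroneckerMap _ _ P'), taua_kron hP', Matrix.one_mul]
  rw [e1, e3, e4, tauaCj_eq, tauaCj_eq, taua_det_conj (taua_kron hP), taua_det_conj (taua_kron hP),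
    taua_det_conj hP]
  exact h0

/-- the standard gauge rows `ρ x, ρ y, σ z` -/
def Xi0 : Matrix (Fin 3) (Gen × Fin 3) ℝ :=
  Matrix.of fun k q => if q = ![(Gen.r, 0), (Gen.r, 1), (Gen.s, 2)] k then 1 else 0

/-- the standard slack columns `(r x, r y, B x; B z, Z x, Z z)` -/
def Q0 : Matrix (Rel × Fin 3) (Fin 2 × Fin 3) ℝ :=
  Matrix.of fun p q =>
    if p = ![![(Rel.r, 0), (Rel.r, 1), (Rel.B, 0)], ![(Rel.B, 2), (Rel.Z, 0), (Rel.Z, 2)]] q.1 q.2 then 1 else 0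

/-- the angle of `ρ` -/
noncomputable def ang (j : ℤ) : ℝ := 2 * Real.pi * j / 30

noncomputable def FN (j : ℤ) (ε : ℝ) : ℝ :=
  Real.cos (7 * ang j) * Real.sin (10 * ang j) *
    (Real.cos (6 * ang j + ε * (10 * ang j)) - Real.cos (6 * ang j) - Real.cos (10 * ang j) + 1)

noncomputable def FS (j : ℤ) (ε : ℝ) : ℝ :=
  (2 * Real.cos (6 * ang j + ε * (10 * ang j)) - 1) * Real.cos (7 * (6 * ang j + ε * (10 * ang j))) *
    Real.sin (6 * ang j + ε * (10 * ang j))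

theorem det_NX : ∃ c : ℝ, c ≠ 0 ∧ ∀ (θ : G →* Matrix (Fin 3) (Fin 3) ℝ) (j : ℤ) (s₁ s₂ s₃ s₄ : ℝ),
    IsStd θ j s₁ s₂ s₃ s₄ → (NX θ Xi0 Q0).det = c * (s₁ * s₂) * FN j (s₂ * s₄) := by
  obtain ⟨c, hc, H⟩ := taua_det
  refine ⟨c * -960, mul_ne_zero hc (by norm_num), fun θ j s₁ s₂ s₃ s₄ h => ?_⟩
  rw [H]
  · have h3 := taua_sq h.h₃
    simp only [Fin.prod_univ_succ, Fin.prod_univ_zero]
    simp [NX, tauaRo, tauaCo, eRG, Xi0, Q0, blow_apply, taua_rr h, taua_tt h, taua_uu h, taua_ts h,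
      taua_us h, taua_Bt h, taua_Zu h, FN, ang, -mul_eq_mul_left_iff]
    generalize Real.cos (7 * (2 * Real.pi * j / 30)) = A
    generalize Real.sin (10 * (2 * Real.pi * j / 30)) = B
    generalize Real.cos (6 * (2 * Real.pi * j / 30) + s₂ * s₄ * (10 * (2 * Real.pi * j / 30))) -
      Real.cos (6 * (2 * Real.pi * j / 30)) - Real.cos (10 * (2 * Real.pi * j / 30)) + 1 = C
    linear_combination (c * 960 * s₁ * s₂ * A * B * C) * h3
  · intro i k hik
    fin_cases i <;> fin_cases k <;> first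
      | exact absurd hik (by decide)
      | rfl
      | (simp [NX, tauaRo, tauaCo, eRG, Xi0, Q0, blow_apply, taua_tt h, taua_uu h, taua_ts h]; done)
      | simp [NX, tauaRo, tauaCo, eRG, blow_apply, taua_rt, taua_ru, taua_rs, taua_tu, taua_ut, taua_Bu]

theorem det_gauge_pos {θ : G →* Matrix (Fin 3) (Fin 3) ℝ} {j : ℤ} {s₁ s₂ s₃ s₄ : ℝ}
    (h : IsStd θ j s₁ s₂ s₃ s₄) : 0 < (Xi0 * gaugeX θ).det := by
  have e : Xi0 * gaugeX θ = !![1 - Real.cos (ang j), Real.sin (ang j), 0;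
      -Real.sin (ang j), 1 - Real.cos (ang j), 0; 0, 0, 2] := by
    have hr : θ (gen .r) = rotz (ang j) := h.r
    have hs : θ (gen .s) = stdS := h.s
    ext a k
    simp only [Matrix.mul_apply, Xi0, Matrix.of_apply, ite_mul, one_mul, zero_mul,
      Finset.sum_ite_eq', Finset.mem_univ, if_true]
    fin_cases a <;> fin_cases k <;> simp [gaugeX, hr, hs, rotz, stdS]
    norm_num
  have hc : Real.cos (ang j) ≠ 1 := by
    intro h1
    obtain ⟨n, hn⟩ := (Real.cos_eq_one_iff _).1 h1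
    have h2 : (j : ℝ) = 30 * n := by
      have hpi := Real.pi_pos
      rw [ang] at hn
      field_simp at hn
      linarith
    have h3 : j = 30 * n := by exact_mod_cast h2
    have := h.hj.isUnit_of_dvd' ⟨n, h3⟩ dvd_rfl
    rw [Int.isUnit_iff] at this
    omega
  have h1 := lt_of_le_of_ne (Real.cos_le_one (ang j)) hc
  have h2 := Real.sin_sq_add_cos_sq (ang j)
  rw [e, Matrix.det_fin_three]
  simp
  nlinarith

theorem det_SQ {s : Matrix (Fin 2) Rel (ZG G)} (hs : IsSph s) :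
    ∃ c : ℝ, c ≠ 0 ∧ ∀ (θ : G →* Matrix (Fin 3) (Fin 3) ℝ) (j : ℤ) (s₁ s₂ s₃ s₄ : ℝ),
      IsStd θ j s₁ s₂ s₃ s₄ →
        (blow θ s * Q0).det = c * (s₁ * s₂) * Real.cos (ang j) ^ 2 * FS j (s₂ * s₄) := by
  refine ⟨-8, by norm_num, fun θ j s₁ s₂ s₃ s₄ h => ?_⟩
  have e : ∀ (p q : Fin 2 × Fin 3), (blow θ s * Q0) p q = blow θ s p
      (![![(Rel.r, 0), (Rel.r, 1), (Rel.B, 0)], ![(Rel.B, 2), (Rel.Z, 0), (Rel.Z, 2)]] q.1 q.2) := by
    intro p q
    simp [Matrix.mul_apply, Q0]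
  rw [← det_submatrix_equiv_self (finProdFinEquiv (m := 2) (n := 3)).symm, FS,
    ← sq_main hs h (ϑ := ang j) rfl rfl]
  congr 1
  ext i k
  rw [submatrix_apply, e, blow_apply, ← hs.BB, ← hs.ZZ]
  have z1 : ∀ a b, rz θ (s 0 .Z) a b = 0 := fun a b => by rw [hs.BZ, map_zero]; rfl
  have z2 : ∀ a b, rz θ (s 1 .B) a b = 0 := fun a b => by rw [hs.ZB, map_zero]; rfl
  fin_cases i <;> fin_cases k <;> first | rfl | exact z1 _ _ | exact z2 _ _

theorem cos_mul_ang (k j : ℤ) {x : ℝ} (hx : x = k * ang j) : Real.cos x = cs (k * j) := by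
  rw [hx, cs, ang]
  congr 1
  push_cast
  ring

theorem sin_mul_ang (k j : ℤ) {x : ℝ} (hx : x = k * ang j) : Real.sin x = sn (k * j) := by
  rw [hx, sn, ang]
  congr 1
  push_cast
  ring

theorem FN_mul_FS_one (j : ℤ) : FN j 1 * FS j 1 = -4 * Pp j := by
  have h1 := cos_add_four (3 * ang j) (5 * ang j)
  have h2 := cos_three (8 * ang j)
  rw [show 2 * (3 * ang j) = 6 * ang j by ring, show 2 * (5 * ang j) = 10 * ang j by ring,
    show 3 * ang j + 5 * ang j = 8 * ang j by ring] at h1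
  rw [show 2 * (8 * ang j) = 6 * ang j + 10 * ang j by ring,
    cos_mul_ang 24 j (x := 3 * (8 * ang j)) (by push_cast; ring)] at h2
  rw [FN, FS, Pp, one_mul, h1, h2, cos_mul_ang 7 j (x := 7 * ang j) (by push_cast; ring),
    sin_mul_ang 10 j (x := 10 * ang j) (by push_cast; ring),
    sin_mul_ang 3 j (x := 3 * ang j) (by push_cast; ring),
    sin_mul_ang 5 j (x := 5 * ang j) (by push_cast; ring),
    cos_mul_ang 112 j (x := 7 * (6 * ang j + 10 * ang j)) (by push_cast; ring),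
    sin_mul_ang 16 j (x := 6 * ang j + 10 * ang j) (by push_cast; ring)]
  ring

theorem FN_mul_FS_neg_one (j : ℤ) : FN j (-1) * FS j (-1) = -4 * Pm j := by
  have h1 := cos_add_four (3 * ang j) (-(5 * ang j))
  have h2 := cos_three (2 * ang j)
  rw [show 2 * (3 * ang j) = 6 * ang j by ring, show 2 * -(5 * ang j) = -(10 * ang j) by ring,
    show 3 * ang j + -(5 * ang j) = -(2 * ang j) by ring,
    show 6 * ang j + -(10 * ang j) = -(4 * ang j) by ring, Real.cos_neg, Real.cos_neg, Real.cos_neg,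
    Real.sin_neg] at h1
  rw [show 2 * (2 * ang j) = 4 * ang j by ring,
    cos_mul_ang 6 j (x := 3 * (2 * ang j)) (by push_cast; ring)] at h2
  rw [FN, FS, Pm, show 6 * ang j + -1 * (10 * ang j) = -(4 * ang j) by ring, mul_neg 7, Real.cos_neg,
    Real.cos_neg, Real.sin_neg, h1, h2, cos_mul_ang 7 j (x := 7 * ang j) (by push_cast; ring),
    sin_mul_ang 10 j (x := 10 * ang j) (by push_cast; ring),
    sin_mul_ang 3 j (x := 3 * ang j) (by push_cast; ring),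
    sin_mul_ang 5 j (x := 5 * ang j) (by push_cast; ring),
    cos_mul_ang 28 j (x := 7 * (4 * ang j)) (by push_cast; ring),
    sin_mul_ang 4 j (x := 4 * ang j) (by push_cast; ring)]
  ring

theorem cos_ang_ne {j : ℤ} (hj : IsCoprime j 30) : Real.cos (ang j) ≠ 0 := by
  rw [cos_mul_ang 1 j (x := ang j) (by push_cast; ring)]
  exact cs_ne _

/-- for `j ≡ ±1 (mod 5)` the sign is always negative -/
theorem F_neg {j : ℤ} (hj : IsCoprime j 30) (h5 : j % 5 = 1 ∨ j % 5 = 4) {ε : ℝ} (hε : ε = 1 ∨ ε = -1) :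
    FN j ε * FS j ε < 0 := by
  rcases hε with rfl | rfl
  · rw [FN_mul_FS_one]
    linarith [Pp_pos hj h5]
  · rw [FN_mul_FS_neg_one]
    linarith [Pm_pos hj h5]

/-- for `j ≡ ±2 (mod 5)` the sign changes with `ε` -/
theorem F_flip {j : ℤ} (hj : IsCoprime j 30) (h5 : j % 5 = 2 ∨ j % 5 = 3) {ε : ℝ} (hε : ε = 1 ∨ ε = -1) :
    FN j ε * FS j ε * (FN j (-ε) * FS j (-ε)) < 0 := by
  have h := Pp_mul_Pm_neg hj h5
  rcases hε with rfl | rfl
  · rw [FN_mul_FS_one, FN_mul_FS_neg_one]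
    linarith
  · rw [neg_neg, FN_mul_FS_one, FN_mul_FS_neg_one]
    linarith

theorem exists_tauSign {s : Matrix (Fin 2) Rel (ZG G)} (hs : IsSph s) :
    ∃ c : ℝ, c ≠ 0 ∧ ∀ (θ : G →* Matrix (Fin 3) (Fin 3) ℝ) (j : ℤ) (s₁ s₂ s₃ s₄ : ℝ),
      IsStd θ j s₁ s₂ s₃ s₄ → TauSign s θ (c * (FN j (s₂ * s₄) * FS j (s₂ * s₄))) := by
  obtain ⟨c₁, hc₁, h₁⟩ := det_NX
  obtain ⟨c₂, hc₂, h₂⟩ := det_SQ hs
  refine ⟨c₁ * c₂, mul_ne_zero hc₁ hc₂, fun θ j s₁ s₂ s₃ s₄ h => ⟨Xi0, Q0, ?_⟩⟩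
  rw [h₁ θ j _ _ _ _ h, h₂ θ j _ _ _ _ h]
  have hε : s₂ * s₄ = 1 ∨ s₂ * s₄ = -1 := by
    rcases h.h₂ with h2 | h2 <;> rcases h.h₄ with h4 | h4 <;> simp [h2, h4]
  have hs : s₁ * s₂ ≠ 0 := by
    rcases h.h₁ with h1 | h1 <;> rcases h.h₂ with h2 | h2 <;> simp [h1, h2]
  have hF : FN j (s₂ * s₄) * FS j (s₂ * s₄) ≠ 0 := by
    have h5 : ¬ (5 : ℤ) ∣ j := fun hd => by
      have := h.hj.isUnit_of_dvd' hd (by norm_num : (5 : ℤ) ∣ 30)
      rw [Int.isUnit_iff] at this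
      omega
    have : j % 5 = 1 ∨ j % 5 = 4 ∨ j % 5 = 2 ∨ j % 5 = 3 := by omega
    rcases this with h' | h' | h' | h'
    · exact (F_neg h.hj (.inl h') hε).ne
    · exact (F_neg h.hj (.inr h') hε).ne
    · exact left_ne_zero_of_mul (F_flip h.hj (.inl h') hε).ne
    · exact left_ne_zero_of_mul (F_flip h.hj (.inr h') hε).ne
  have hg := det_gauge_pos h
  have hc := cos_ang_ne h.hj
  have : c₁ * c₂ * (FN j (s₂ * s₄) * FS j (s₂ * s₄)) * (c₁ * (s₁ * s₂) * FN j (s₂ * s₄)) *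
      (Xi0 * gaugeX θ).det * (c₂ * (s₁ * s₂) * Real.cos (ang j) ^ 2 * FS j (s₂ * s₄)) =
      (c₁ * c₂ * (s₁ * s₂) * (FN j (s₂ * s₄) * FS j (s₂ * s₄)) * Real.cos (ang j)) ^ 2 *
        (Xi0 * gaugeX θ).det := by ring
  rw [this]
  positivity

end Crest.Agent.R251
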