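import Crest.Agent.R251.Blow

/-!
# Row 251: helpers for `Tau.lean` (blockwise conjugation; blocks of `d2` in a standard representation)
-/

set_option autoImplicit false

open Matrix
open scoped Kronecker

namespace Crest.Agent.R251

/-- blockwise conjugation -/
def tauaCj {m m' : Type} (P P' : Matrix (Fin 3) (Fin 3) ℝ) (M : Matrix (m × Fin 3) (m' × Fin 3) ℝ) :
    Matrix (m × Fin 3) (m' × Fin 3) ℝ :=
  Matrix.of fun p q => ∑ k, (∑ i, P p.2 i * M (p.1, i) (q.1, k)) * P' k q.2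

theorem taua_left {m κ : Type} [Fintype m] [DecidableEq m] (P : Matrix (Fin 3) (Fin 3) ℝ)
    (M : Matrix (m × Fin 3) κ ℝ) (p : m × Fin 3) (q : κ) :
    (((1 : Matrix m m ℝ) ⊗ₖ P) * M) p q = ∑ i, P p.2 i * M (p.1, i) q := by
  rw [Matrix.mul_apply, Fintype.sum_prod_type, Finset.sum_eq_single p.1]
  · simp [kroneckerMap_apply]
  · intro b _ hb
    simp [kroneckerMap_apply, Matrix.one_apply_ne hb.symm]
  · simp

theorem taua_right {m κ : Type} [Fintype m] [DecidableEq m] (P : Matrix (Fin 3) (Fin 3) ℝ)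
    (M : Matrix κ (m × Fin 3) ℝ) (p : κ) (q : m × Fin 3) :
    (M * ((1 : Matrix m m ℝ) ⊗ₖ P)) p q = ∑ k, M p (q.1, k) * P k q.2 := by
  rw [Matrix.mul_apply, Fintype.sum_prod_type, Finset.sum_eq_single q.1]
  · simp [kroneckerMap_apply]
  · intro b _ hb
    simp [kroneckerMap_apply, Matrix.one_apply_ne hb]
  · simp

theorem tauaCj_eq {m m' : Type} [Fintype m] [DecidableEq m] [Fintype m'] [DecidableEq m']
    (P P' : Matrix (Fin 3) (Fin 3) ℝ) (M : Matrix (m × Fin 3) (m' × Fin 3) ℝ) :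
    tauaCj P P' M = ((1 : Matrix m m ℝ) ⊗ₖ P) * M * ((1 : Matrix m' m' ℝ) ⊗ₖ P') := by
  ext p q
  simp only [taua_right, taua_left, tauaCj, Matrix.of_apply]

theorem taua_kron {m : Type} [Fintype m] [DecidableEq m] {P P' : Matrix (Fin 3) (Fin 3) ℝ}
    (h : P * P' = 1) : ((1 : Matrix m m ℝ) ⊗ₖ P) * ((1 : Matrix m m ℝ) ⊗ₖ P') = 1 := by
  rw [← mul_kronecker_mul, h, Matrix.one_mul, one_kronecker_one]

theorem taua_det_conj {m : Type} [Fintype m] [DecidableEq m] {A B : Matrix m m ℝ} (h : A * B = 1)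
    (M : Matrix m m ℝ) : (A * M * B).det = M.det := by
  rw [det_mul, det_mul, mul_right_comm, ← det_mul, h, det_one, one_mul]

theorem taua_rz {θ θ' : G →* Matrix (Fin 3) (Fin 3) ℝ} {P P' : Matrix (Fin 3) (Fin 3) ℝ}
    (h : ∀ g, θ' g = P * θ g * P') (w : ZG G) : rz θ' w = P * rz θ w * P' := by
  refine foxb_ext (rz θ').toAddMonoidHom
    (((AddMonoidHom.mulRight P').comp (AddMonoidHom.mulLeft P)).comp (rz θ).toAddMonoidHom)
    (fun g => ?_) w
  change rz θ' (og g) = P * rz θ (og g) * P'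
  rw [rz_og, rz_og, h]

theorem taua_blow {θ θ' : G →* Matrix (Fin 3) (Fin 3) ℝ} {P P' : Matrix (Fin 3) (Fin 3) ℝ}
    (h : ∀ g, θ' g = P * θ g * P') {m m' : Type} (w : Matrix m m' (ZG G)) :
    blow θ' w = tauaCj P P' (blow θ w) := by
  ext p q
  simp only [blow_apply, taua_rz h, tauaCj, Matrix.of_apply, Matrix.mul_apply]

theorem taua_rotz_add (x y : ℝ) : rotz (x + y) = rotz x * rotz y := by
  ext i k
  fin_cases i <;> fin_cases k <;>
    simp [rotz, Matrix.mul_apply, Fin.sum_univ_three, Real.cos_add, Real.sin_add] <;> ring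

theorem taua_rotz_zero : rotz 0 = 1 := by
  ext i k
  fin_cases i <;> fin_cases k <;> simp [rotz]

theorem taua_rotz_pow (x : ℝ) (k : ℕ) : rotz x ^ k = rotz (k * x) := by
  induction k with
  | zero => simp [taua_rotz_zero]
  | succ k ih => rw [pow_succ, ih, ← taua_rotz_add]; push_cast; ring_nf

section
variable {θ : G →* Matrix (Fin 3) (Fin 3) ℝ} {j : ℤ} {s₁ s₂ s₃ s₄ : ℝ}

theorem taua_inv (θ : G →* Matrix (Fin 3) (Fin 3) ℝ) {g : G} {M : Matrix (Fin 3) (Fin 3) ℝ}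
    (h : θ g * M = 1) : θ g⁻¹ = M :=
  left_inv_eq_right_inv (a := θ g) (by rw [← map_mul, inv_mul_cancel, map_one]) h

theorem taua_sq {s : ℝ} (h : s = 1 ∨ s = -1) : s * s = 1 := by
  rcases h with rfl | rfl <;> norm_num

theorem taua_rpow (h : IsStd θ j s₁ s₂ s₃ s₄) (k : ℕ) :
    θ (gr ^ k) = rotz (k * (2 * Real.pi * j / 30)) := by
  rw [map_pow, h.r, taua_rotz_pow]

theorem taua_c (h : IsStd θ j s₁ s₂ s₃ s₄) : θ gc = !![-1, 0, 0; 0, -1, 0; 0, 0, 1] := by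
  have hj : Odd j := by
    rw [← Int.not_even_iff_odd, even_iff_two_dvd]
    intro hd
    have := h.hj.isUnit_of_dvd' hd (by norm_num : (2 : ℤ) ∣ 30)
    rw [Int.isUnit_iff] at this
    omega
  have e : ((15 : ℕ) : ℝ) * (2 * Real.pi * j / 30) = j * Real.pi := by push_cast; ring
  rw [gc, taua_rpow h, e, rotz, Real.sin_int_mul_pi, Real.cos_int_mul_pi, hj.neg_one_zpow, neg_zero]

theorem taua_ti (h : IsStd θ j s₁ s₂ s₃ s₄) :
    θ gt⁻¹ = !![0, 0, s₁; 0, -(s₁ * s₂), 0; s₂, 0, 0] := by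
  refine taua_inv θ ?_
  rw [h.t]
  ext i k
  rcases h.h₁ with rfl | rfl <;> rcases h.h₂ with rfl | rfl <;> fin_cases i <;> fin_cases k <;>
    simp [stdT, Matrix.mul_apply, Fin.sum_univ_three]

theorem taua_ui (h : IsStd θ j s₁ s₂ s₃ s₄) :
    θ gu⁻¹ = !![0, s₃ * s₄, 0; 0, 0, s₃; s₄, 0, 0] := by
  refine taua_inv θ ?_
  rw [h.u]
  ext i k
  rcases h.h₃ with rfl | rfl <;> rcases h.h₄ with rfl | rfl <;> fin_cases i <;> fin_cases k <;>
    simp [stdU, Matrix.mul_apply, Fin.sum_univ_three]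

theorem taua_bB (h : IsStd θ j s₁ s₂ s₃ s₄) : θ gbB =
    !![1, 0, 0; 0, Real.cos (10 * (2 * Real.pi * j / 30)), -(s₂ * Real.sin (10 * (2 * Real.pi * j / 30)));
      0, s₂ * Real.sin (10 * (2 * Real.pi * j / 30)), Real.cos (10 * (2 * Real.pi * j / 30))] := by
  rw [gbB, map_mul, map_mul, taua_ti h, gb, taua_rpow h, h.t]
  push_cast
  generalize (10 * (2 * Real.pi * j / 30) : ℝ) = x
  ext i k
  rcases h.h₁ with rfl | rfl <;> rcases h.h₂ with rfl | rfl <;> fin_cases i <;> fin_cases k <;>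
    simp [stdT, rotz, Matrix.mul_apply, Fin.sum_univ_three]

theorem taua_r7i (h : IsStd θ j s₁ s₂ s₃ s₄) :
    θ (gr ^ 7)⁻¹ = rotz (-(7 * (2 * Real.pi * j / 30))) := by
  refine taua_inv θ ?_
  rw [taua_rpow h, ← taua_rotz_add, ← taua_rotz_zero]
  push_cast
  rw [add_neg_cancel]

theorem taua_rr (h : IsStd θ j s₁ s₂ s₃ s₄) : rz θ (d2 .r .r) 2 2 = 30 := by
  rw [d2_r]
  simp only [sr, map_sum, rz_og, taua_rpow h, Matrix.sum_apply]
  simp [rotz]

theorem taua_rt : rz θ (d2 .r .t) = 0 := by rw [d2_r]; exact map_zero _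
theorem taua_ru : rz θ (d2 .r .u) = 0 := by rw [d2_r]; exact map_zero _
theorem taua_rs : rz θ (d2 .r .s) = 0 := by rw [d2_r]; exact map_zero _
theorem taua_tu : rz θ (d2 .t .u) = 0 := by rw [d2_t]; exact map_zero _
theorem taua_ut : rz θ (d2 .u .t) = 0 := by rw [d2_u]; exact map_zero _
theorem taua_Bu : rz θ (d2 .B .u) = 0 := by rw [d2_B]; exact map_zero _

theorem taua_one_c (h : IsStd θ j s₁ s₂ s₃ s₄) :
    rz θ (1 - og gc) = !![2, 0, 0; 0, 2, 0; 0, 0, 0] := by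
  rw [map_sub, map_one, rz_og, taua_c h]
  ext i k
  fin_cases i <;> fin_cases k <;> simp <;> norm_num

theorem taua_tt (h : IsStd θ j s₁ s₂ s₃ s₄) :
    rz θ (d2 .t .t) = !![2, 0, 0; 0, 2, 0; 0, 0, 0] := by
  rw [d2_t]; exact taua_one_c h

theorem taua_uu (h : IsStd θ j s₁ s₂ s₃ s₄) :
    rz θ (d2 .u .u) = !![2, 0, 0; 0, 2, 0; 0, 0, 0] := by
  rw [d2_u]; exact taua_one_c h

theorem taua_ts (h : IsStd θ j s₁ s₂ s₃ s₄) :
    rz θ (d2 .t .s) = !![0, 0, s₂; 0, -(s₁ * s₂), 0; s₁, 0, 0] := by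
  rw [d2_t]; exact (rz_og _ _).trans h.t

theorem taua_us (h : IsStd θ j s₁ s₂ s₃ s₄) :
    rz θ (d2 .u .s) 2 1 = s₃ * Real.cos (7 * (2 * Real.pi * j / 30)) := by
  rw [d2_u]
  simp only [map_neg, map_mul, rz_og, taua_r7i h, h.u, h.s]
  simp [stdU, stdS, rotz]

theorem taua_Bt (h : IsStd θ j s₁ s₂ s₃ s₄) :
    rz θ (d2 .B .t) 1 2 = -2 * s₂ * Real.sin (10 * (2 * Real.pi * j / 30)) := by
  rw [d2_B]
  simp only [map_sub, map_one, map_mul, rz_og, taua_bB h, h.s]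
  simp [stdS, Matrix.mul_apply, Fin.sum_univ_three, Matrix.one_apply]
  ring

theorem taua_Zu (h : IsStd θ j s₁ s₂ s₃ s₄) :
    rz θ (d2 .Z .u) 1 2 = s₃ * (Real.cos (6 * (2 * Real.pi * j / 30) +
      s₂ * s₄ * (10 * (2 * Real.pi * j / 30))) - Real.cos (6 * (2 * Real.pi * j / 30)) -
      Real.cos (10 * (2 * Real.pi * j / 30)) + 1) := by
  rw [d2_Z]
  simp only [map_sub, map_one, map_mul, rz_og, taua_bB h, taua_ui h, ga, taua_rpow h]
  push_cast
  generalize (10 * (2 * Real.pi * j / 30) : ℝ) = x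
  generalize (6 * (2 * Real.pi * j / 30) : ℝ) = y
  rcases h.h₂ with rfl | rfl <;> rcases h.h₄ with rfl | rfl <;>
    simp [rotz, Matrix.mul_apply, Fin.sum_univ_three, Matrix.one_apply, Real.cos_add, Real.cos_sub,
      ← sub_eq_add_neg] <;> ring

end

/-- row order -/
def tauaRo : Fin 18 → (Gen ⊕ Fin 2) × Fin 3 :=
  ![(.inl .s, 0), (.inl .s, 1), (.inl .s, 2), (.inl .r, 2), (.inl .t, 2), (.inl .u, 2),
    (.inl .t, 0), (.inl .t, 1), (.inl .u, 0), (.inl .u, 1), (.inr 0, 1), (.inr 1, 1),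
    (.inl .r, 0), (.inl .r, 1), (.inr 0, 0), (.inr 0, 2), (.inr 1, 0), (.inr 1, 2)]

/-- column order -/
def tauaCo : Fin 18 → (Gen ⊕ Fin 2) × Fin 3 :=
  ![(.inl .r, 0), (.inl .r, 1), (.inl .s, 2), (.inl .r, 2), (.inl .s, 0), (.inl .s, 1),
    (.inl .t, 0), (.inl .t, 1), (.inl .u, 0), (.inl .u, 1), (.inl .t, 2), (.inl .u, 2),
    (.inr 0, 0), (.inr 0, 1), (.inr 0, 2), (.inr 1, 0), (.inr 1, 1), (.inr 1, 2)]

theorem taua_ro : Function.Bijective tauaRo := by decide +kernel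
theorem taua_co : Function.Bijective tauaCo := by decide +kernel

theorem taua_det : ∃ c : ℝ, c ≠ 0 ∧ ∀ M : Matrix ((Gen ⊕ Fin 2) × Fin 3) ((Gen ⊕ Fin 2) × Fin 3) ℝ,
    (∀ i k, i < k → M (tauaRo i) (tauaCo k) = 0) → M.det = c * ∏ i, M (tauaRo i) (tauaCo i) := by
  let e₁ := Equiv.ofBijective _ taua_ro
  let e₂ := Equiv.ofBijective _ taua_co
  have hs : ((Equiv.Perm.sign (e₁.trans e₂.symm) : ℤ) : ℝ) *
      ((Equiv.Perm.sign (e₁.trans e₂.symm) : ℤ) : ℝ) = 1 := by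
    rw [← Int.cast_mul, ← Units.val_mul, Int.units_mul_self]
    simp
  refine ⟨_, left_ne_zero_of_mul_eq_one hs, fun M hM => ?_⟩
  have h1 := det_permute (e₁.trans e₂.symm) (M.submatrix e₂ e₂)
  rw [det_submatrix_equiv_self, det_of_isLowerTriangular] at h1
  · have h2 : ∏ i, M (tauaRo i) (tauaCo i) =
        ((Equiv.Perm.sign (e₁.trans e₂.symm) : ℤ) : ℝ) * M.det := by
      rw [← h1]
      refine Finset.prod_congr rfl fun i _ => ?_
      simp only [Matrix.submatrix_apply, Equiv.trans_apply, Equiv.apply_symm_apply, id]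
      rfl
    rw [h2, ← mul_assoc, hs, one_mul]
  · intro i k hik
    simp only [Matrix.submatrix_apply, Equiv.trans_apply, Equiv.apply_symm_apply, id]
    exact hM i k hik

end Crest.Agent.R251
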