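import Crest.Prelude.Def_DeckCochains
import Crest.Agent.R251.Fox
import Crest.Agent.R251.Top.Main

/-!
# Row 251: the topological half (interface `top_main`)

Pure topology, for an arbitrary finite presentation `(gen, rel)` of an infinite group `G` and a matrix `s` whose rows are
two-cycles of the Cayley complex and which is split injective.  `X` = presentation complex `P` with one three-cell per row of `s`
(attached along a map `S² → P` whose Hurewicz image in `H₂(P̃) = ker (foxM gen rel)` is that row), `E = X̃`.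
Cellular complex of `E`: `0 → ZG^J --s--> ZG^R₀ --foxM--> ZG^S₀ → ZG`.  `H₃ = 0` and `H³(X; M) = 0` because `s * L = 1`.
If `f : Y ≃ X` with `Y` a finite two-complex, the pulled back covering of `Y` is simply connected, its cellular complex
(vertices made into one by extra relators `ω_v`, as in `Lib.CWComb.Main`) is the Cayley complex of a finite presentation
`(π, rl)` and `f` gives the chain map of `Realises`.

The blueprint is in the task `R251 SUBLEAD Top`.
-/

set_option autoImplicit false

open Matrix
open Crest.GeometryTopology.DeckCochains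

namespace Crest.Agent.R251

/-- the statement of S0388 -/
def Stmt : Prop :=
    ∃ (X : Type) (_ : TopologicalSpace X) (_ : T2Space X) (_ : ConnectedSpace X)
      (_ : Topology.CWComplex (Set.univ : Set X)),
      Topology.RelCWComplex.Finite (Set.univ : Set X) ∧
      (∀ m : ℕ, 3 < m → IsEmpty (Topology.RelCWComplex.cell (Set.univ : Set X) m)) ∧
      (∃ (E : Type) (_ : TopologicalSpace E) (p : E → X),
        IsCoveringMap p ∧ Function.Surjective p ∧ SimplyConnectedSpace E ∧
        (∀ i : ℕ, 2 < i → CategoryTheory.Limits.IsZero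
          (((AlgebraicTopology.singularHomologyFunctor (ModuleCat.{0} ℤ) i).obj
            (ModuleCat.of ℤ ℤ)).obj (TopCat.of E))) ∧
        (∀ (M : Type) [AddCommGroup M] [DistribMulAction (deckGroup p) M],
          DeckCohomologyVanishes p M 2) ∧
        Infinite (deckGroup p)) ∧
      ∀ (Y : Type) (_ : TopologicalSpace Y) (_ : T2Space Y)
        (_ : Topology.CWComplex (Set.univ : Set Y)),
        Topology.RelCWComplex.Finite (Set.univ : Set Y) →
        (∀ m : ℕ, 2 < m → IsEmpty (Topology.RelCWComplex.cell (Set.univ : Set Y) m)) →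
        IsEmpty (ContinuousMap.HomotopyEquiv X Y)

theorem top_main {G S₀ R₀ J : Type} [Group G] [Infinite G] [Fintype S₀] [DecidableEq S₀] [Fintype R₀]
    [Fintype J] [DecidableEq J] (gen : S₀ → G) (rel : R₀ → FreeGroup S₀)
    (hsurj : Function.Surjective (FreeGroup.lift gen))
    (hker : (FreeGroup.lift gen).ker = Subgroup.normalClosure (Set.range rel))
    (s : Matrix J R₀ (ZG G)) (hcyc : s * foxM gen rel = 0)
    (hsplit : ∃ L : Matrix R₀ J (ZG G), s * L = 1)
    (hno : ∀ (S R : Type) [Fintype S] [DecidableEq S] [Fintype R] (π : S → G) (rl : R → FreeGroup S),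
      ¬ Realises gen rel s π rl) : Stmt := by
  obtain ⟨L, hL⟩ := hsplit
  obtain ⟨P, _, _, _, _, B0, B1, Φ0, Φ1, Φ2, ν, C, a0, a1, a2, hν, h₁, h₂, e1, e2⟩ := Top.exists_base hsurj hker
  obtain ⟨X, _, _, i, Φ, ν', U, C', hi, a3, hν', h₁', h₂', f1, f2, rfl⟩ :=
    Top.exists_cell3 hν h₁ h₂ C s (by rw [e2, hcyc])
  have : Nonempty X := ⟨i (Classical.arbitrary P)⟩
  have := Top.Cov.simplyConnectedSpace hν' h₁' h₂'
  have hp : Function.Surjective (Top.Cov.pj : Top.Cov ν' → X) := fun x => ⟨⟨x, 1⟩, rfl⟩
  have b0 := a0.image hi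
  have b2 := a2.image hi
  rw [Set.image_empty] at b0
  rw [Set.image_univ] at b2
  obtain ⟨cw, hfin, hdim⟩ := Top.exists_cw b0 (a1.image hi) b2 a3
  have hδ := Top.Cov.deck_bijective hν'
  refine ⟨X, inferInstance, inferInstance, hp.connectedSpace Top.Cov.continuous_pj, cw, hfin, hdim,
    ⟨Top.Cov ν', inferInstance, Top.Cov.pj, Top.Cov.isCoveringMap hν', hp, inferInstance, fun n hn => ?_,
      fun M _ _ => ?_, Infinite.of_injective _ hδ.1⟩, fun Y _ _ _ hY hY' => ⟨fun e => ?_⟩⟩
  · exact Top.isZero_homology (by omega) fun z hz hb => C'.exact_of_split hL (by omega) hz hb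
  · exact Top.deck_vanishes _ (Top.Cov.deck ν') hδ.2 (fun _ _ => rfl)
      (fun N _ _ Ψ hΨ => C'.coh3 Top.Cov.free hL Ψ hΨ) M
  · obtain ⟨W, _, _, _⟩ := Top.exists_finite_W2 Y hY hY'
    obtain ⟨S, R, _, _, _, π, rl, h⟩ :=
      Top.exists_realises hsurj hker hν' C' (f1.trans e1) (f2.trans e2) W e.symm
    exact hno S R π rl h

end Crest.Agent.R251
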