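import Crest.Agent.R251.Quat

/-!
# Row 251: the definitions used in the interface `vanish`

Generators `Gn ι`: `none = t`, `some none = u`, `some (some a)`; one relator less than generators.
-/

set_option autoImplicit false

open Matrix Quaternion Filter Topology

namespace Crest.Agent.R251

open Crest.Agent.Lib.GR

/-- generators: `t`, `u` and the others -/
abbrev Gn (ι : Type) : Type := Option (Option ι)

/-- kill all generators except `t` and `u` -/
def kill (ι : Type) : FreeGroup (Gn ι) →* FreeGroup Bool :=
  FreeGroup.lift fun x => match x with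
    | none => .of true
    | some none => .of false
    | some (some _) => 1

/-- the sign of a slot: the first relator is to be `-1`, the others `1` -/
def sg {ι : Type} : Option ι → ℝ
  | none => 1
  | some _ => -1

variable {ι : Type} [Fintype ι] [DecidableEq ι]

/-- solutions of the perturbed system -/
def Zero (rel : Option ι → FreeGroup (Gn ι)) (V : Option ι → (Gn ι → ℍ[ℝ]) → ℍ[ℝ]) (y : Gn ι → ℍ[ℝ]) : Prop :=
  UnitT y ∧ ∀ j, im3 (sg j • ev y (rel j) + V j y) = 0 ∧ (sg j • ev y (rel j)).re < 0

/-- the slice for the conjugation action -/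
def Slice (y : Gn ι → ℍ[ℝ]) : Prop := SlicePair (y none) (y (some none))

/-- the infinitesimal conjugation action -/
noncomputable def gauge {α : Type} (y : α → ℍ[ℝ]) : Matrix (α × Fin 3) (Fin 3) ℝ :=
  Matrix.of fun p k => (1 - Ad (y p.1)) p.2 k

/-- the linearised system, completed by three gauge fixing rows -/
noncomputable def JX (rel : Option ι → FreeGroup (Gn ι)) (y : Gn ι → ℍ[ℝ])
    (Ξ : Matrix (Fin 3) (Gn ι × Fin 3) ℝ) : Matrix (Gn ι × Fin 3) (Gn ι × Fin 3) ℝ :=
  Matrix.of fun p q => match p.1 with
    | none => Ξ p.2 q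
    | some j => rz (AdW y) (fox FreeGroup.of (rel j) q.1) p.2 q.2

/-- `e` has the sign of the regular solution `y` -/
def SignAt (rel : Option ι → FreeGroup (Gn ι)) (y : Gn ι → ℍ[ℝ]) (e : ℝ) : Prop :=
  ∃ Ξ : Matrix (Fin 3) (Gn ι × Fin 3) ℝ, 0 < e * (JX rel y Ξ).det * (Ξ * gauge y).det

end Crest.Agent.R251
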